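import Mathlib

/-!
Row 322 (S0499), chunk (1a): `disjoint_moment`.
-/

set_option autoImplicit false

namespace Crest.Agent.SL68

open MeasureTheory ProbabilityTheory Metric
open scoped ENNReal

noncomputable section

/-- the closed box around `y`. -/
private def dbox {n : ℕ} (y : Fin n → ℝ) (h : ℝ) : Set (Fin n → ℝ) := {z | ∀ j, |z j - y j| ≤ h}

private lemma dbox_eq {n : ℕ} (y : Fin n → ℝ) {h : ℝ} (hh : 0 ≤ h) :
    dbox y h = closedBall y h := by
  ext z
  simp only [dbox, Set.mem_ofPred_eq, mem_closedBall, dist_pi_le_iff hh, Real.dist_eq]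

private lemma volume_dbox {n : ℕ} (y : Fin n → ℝ) {h : ℝ} (hh : 0 ≤ h) :
    (volume : Measure (Fin n → ℝ)) (dbox y h) = ENNReal.ofReal (2 * h) ^ n := by
  rw [dbox_eq y hh, Real.volume_pi_closedBall y hh, ENNReal.ofReal_pow (by positivity)]
  simp

/-- mass of a compact set through box averages. -/
private lemma compact_le {n : ℕ} (ν : Measure (Fin n → ℝ)) [IsFiniteMeasure ν]
    {K : Set (Fin n → ℝ)} (hK : IsCompact K) {h : ℝ} (hh : 0 < h) :
    ν K ≤ ∫⁻ y in cthickening h K, ν (dbox y h) / (ENNReal.ofReal (2 * h)) ^ n ∂volume := by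
  have hpos : (ENNReal.ofReal (2 * h)) ^ n ≠ 0 := by
    apply pow_ne_zero
    simp
    linarith
  have htop : (ENNReal.ofReal (2 * h)) ^ n ≠ ⊤ := ENNReal.pow_ne_top ENNReal.ofReal_ne_top
  have hm : MeasurableSet {q : (Fin n → ℝ) × (Fin n → ℝ) | ∀ j, |q.2 j - q.1 j| ≤ h} := by
    apply IsClosed.measurableSet
    have : {q : (Fin n → ℝ) × (Fin n → ℝ) | ∀ j, |q.2 j - q.1 j| ≤ h} =
        ⋂ j, {q | |q.2 j - q.1 j| ≤ h} := by
      ext q
      simp
    rw [this]
    apply isClosed_iInter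
    intro j
    apply isClosed_le _ continuous_const
    fun_prop
  have hKh : MeasurableSet (cthickening h K) := isClosed_cthickening.measurableSet
  -- Fubini
  have h1 : ∫⁻ y in cthickening h K, ν (dbox y h) ∂volume =
      ∫⁻ z, (volume (cthickening h K ∩ dbox z h)) ∂ν := by
    have h2 : ∀ y : Fin n → ℝ, ν (dbox y h) = ∫⁻ z, (dbox y h).indicator 1 z ∂ν := by
      intro y
      rw [lintegral_indicator_one]
      rw [dbox_eq y hh.le]
      exact isClosed_closedBall.measurableSet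
    simp_rw [h2]
    rw [lintegral_lintegral_swap]
    · apply lintegral_congr
      intro z
      have h3 : ∀ y : Fin n → ℝ, (dbox y h).indicator (1 : (Fin n → ℝ) → ℝ≥0∞) z =
          (dbox z h).indicator 1 y := by
        intro y
        have : z ∈ dbox y h ↔ y ∈ dbox z h := by
          simp only [dbox, Set.mem_ofPred_eq]
          constructor <;> intro h4 j <;> rw [abs_sub_comm] <;> exact h4 j
        by_cases hz : z ∈ dbox y h
        · rw [Set.indicator_of_mem hz, Set.indicator_of_mem (this.1 hz)]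
          rfl
        · rw [Set.indicator_of_notMem hz, Set.indicator_of_notMem (fun h5 => hz (this.2 h5))]
      simp_rw [h3]
      rw [lintegral_indicator_one]
      · rw [Measure.restrict_apply, Set.inter_comm]
        rw [dbox_eq z hh.le]
        exact isClosed_closedBall.measurableSet
      · rw [dbox_eq z hh.le]
        exact isClosed_closedBall.measurableSet
    · have h6 : (Function.uncurry fun (y z : Fin n → ℝ) =>
          (dbox y h).indicator (1 : (Fin n → ℝ) → ℝ≥0∞) z) =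
          {q : (Fin n → ℝ) × (Fin n → ℝ) | ∀ j, |q.2 j - q.1 j| ≤ h}.indicator 1 := by
        ext q
        by_cases hq : ∀ j, |q.2 j - q.1 j| ≤ h
        · rw [Set.indicator_of_mem (show q ∈ {q : (Fin n → ℝ) × (Fin n → ℝ) |
            ∀ j, |q.2 j - q.1 j| ≤ h} from hq)]
          simp only [Function.uncurry]
          rw [Set.indicator_of_mem (show q.2 ∈ dbox q.1 h from hq)]
          rfl
        · rw [Set.indicator_of_notMem (show q ∉ {q : (Fin n → ℝ) × (Fin n → ℝ) |
            ∀ j, |q.2 j - q.1 j| ≤ h} from hq)]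
          simp only [Function.uncurry]
          rw [Set.indicator_of_notMem (show q.2 ∉ dbox q.1 h from hq)]
      rw [h6]
      exact (measurable_one.indicator hm).aemeasurable
  have h2 : ∫⁻ y in cthickening h K, ν (dbox y h) / (ENNReal.ofReal (2 * h)) ^ n ∂volume =
      (∫⁻ z, (volume (cthickening h K ∩ dbox z h)) ∂ν) / (ENNReal.ofReal (2 * h)) ^ n := by
    rw [← h1]
    simp_rw [div_eq_mul_inv]
    rw [lintegral_mul_const']
    exact ENNReal.inv_ne_top.2 hpos
  rw [h2, ENNReal.le_div_iff_mul_le (Or.inl hpos) (Or.inl htop)]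
  calc ν K * (ENNReal.ofReal (2 * h)) ^ n = ∫⁻ z in K, (ENNReal.ofReal (2 * h)) ^ n ∂ν := by
        rw [setLIntegral_const, mul_comm]
    _ ≤ ∫⁻ z in K, (volume (cthickening h K ∩ dbox z h)) ∂ν := by
        apply setLIntegral_mono' hK.measurableSet
        intro z hz
        have h3 : cthickening h K ∩ dbox z h = dbox z h := by
          apply Set.inter_eq_right.2
          rw [dbox_eq z hh.le]
          exact closedBall_subset_cthickening hz h
        rw [h3, volume_dbox z hh.le]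
    _ ≤ _ := setLIntegral_le_lintegral _ _

private lemma measurable_dbox {n : ℕ} (ν : Measure (Fin n → ℝ)) [IsFiniteMeasure ν] {h : ℝ}
    (hh : 0 < h) : Measurable (fun y : Fin n → ℝ => ν (dbox y h)) := by
  have hm : MeasurableSet {q : (Fin n → ℝ) × (Fin n → ℝ) | ∀ j, |q.2 j - q.1 j| ≤ h} := by
    apply IsClosed.measurableSet
    have : {q : (Fin n → ℝ) × (Fin n → ℝ) | ∀ j, |q.2 j - q.1 j| ≤ h} =
        ⋂ j, {q | |q.2 j - q.1 j| ≤ h} := by
      ext q
      simp
    rw [this]
    apply isClosed_iInter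
    intro j
    apply isClosed_le _ continuous_const
    fun_prop
  exact measurable_measure_prodMk_left hm

/-- Hölder for a family of sets. -/
private lemma holder_family {n p : ℕ} (hp : 1 ≤ p) {ι : Type*} [Fintype ι]
    (B : ι → Set (Fin n → ℝ)) (g : ι → (Fin n → ℝ) → ℝ≥0∞) (hg : ∀ i, Measurable (g i)) :
    (∑ i, ∫⁻ y in B i, g i y ∂volume) ^ p ≤
      (∑ i, (volume : Measure (Fin n → ℝ)) (B i)) ^ (p - 1) * ∑ i, ∫⁻ y, g i y ^ p ∂volume := by
  rcases Nat.lt_or_ge 1 p with hp1 | hp1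
  swap
  · have : p = 1 := le_antisymm hp1 hp
    subst this
    simp only [pow_one, Nat.sub_self, pow_zero, one_mul]
    exact Finset.sum_le_sum (fun i _ => setLIntegral_le_lintegral _ _)
  have hpR : (1 : ℝ) < (p : ℝ) := by exact_mod_cast hp1
  have hconj : (p : ℝ).HolderConjugate ((p : ℝ) / ((p : ℝ) - 1)) := Real.HolderConjugate.conjExponent hpR
  set q : ℝ := (p : ℝ) / ((p : ℝ) - 1) with hq
  have hp0 : (0 : ℝ) < p := by linarith
  have hq0 : 0 < q := hconj.symm.pos
  have h1 : ∀ i, ∫⁻ y in B i, g i y ∂volume ≤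
      (∫⁻ y, g i y ^ p ∂volume) ^ (1 / (p : ℝ)) * ((volume : Measure (Fin n → ℝ)) (B i)) ^ (1 / q) := by
    intro i
    have h2 := ENNReal.lintegral_mul_le_Lp_mul_Lq (volume.restrict (B i)) hconj
      (f := g i) (g := fun _ => 1) (hg i).aemeasurable aemeasurable_const
    simp only [Pi.mul_apply, mul_one, ENNReal.one_rpow, lintegral_one, Measure.restrict_apply_univ,
      ENNReal.rpow_natCast] at h2
    refine h2.trans ?_
    apply mul_le_mul_left
    apply ENNReal.rpow_le_rpow _ (by positivity)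
    exact setLIntegral_le_lintegral _ _
  have h3 : ∑ i, ∫⁻ y in B i, g i y ∂volume ≤
      (∑ i, ∫⁻ y, g i y ^ p ∂volume) ^ (1 / (p : ℝ)) *
        (∑ i, (volume : Measure (Fin n → ℝ)) (B i)) ^ (1 / q) := by
    refine (Finset.sum_le_sum (fun i _ => h1 i)).trans ?_
    refine (ENNReal.inner_le_Lp_mul_Lq Finset.univ _ _ hconj).trans ?_
    apply le_of_eq
    congr 1
    · congr 1
      apply Finset.sum_congr rfl
      intro i _
      rw [← ENNReal.rpow_mul, one_div_mul_cancel hp0.ne', ENNReal.rpow_one]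
    · congr 1
      apply Finset.sum_congr rfl
      intro i _
      rw [← ENNReal.rpow_mul, one_div_mul_cancel hq0.ne', ENNReal.rpow_one]
  calc (∑ i, ∫⁻ y in B i, g i y ∂volume) ^ p
      ≤ ((∑ i, ∫⁻ y, g i y ^ p ∂volume) ^ (1 / (p : ℝ)) *
        (∑ i, (volume : Measure (Fin n → ℝ)) (B i)) ^ (1 / q)) ^ p := by
        exact pow_le_pow_left' h3 p
    _ = _ := by
        rw [mul_pow, ← ENNReal.rpow_natCast (_ ^ (1 / (p : ℝ))), ← ENNReal.rpow_mul,
          one_div_mul_cancel hp0.ne', ENNReal.rpow_one, mul_comm]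
        congr 1
        rw [← ENNReal.rpow_natCast (_ ^ (1 / q)), ← ENNReal.rpow_mul, ← ENNReal.rpow_natCast]
        congr 1
        rw [Nat.cast_sub hp]
        have : (p : ℝ) - 1 ≠ 0 := by linarith
        rw [hq]
        push_cast
        field_simp

/-- (1a) PER-X LEMMA: disjoint sets `Y i`, finite measures `ν i` carried by `Ω`, `vol Ω < W`. -/
theorem disjoint_moment {n p : ℕ} (hp : 1 ≤ p) {ι : Type*} [Fintype ι]
    (ν : ι → Measure (Fin n → ℝ)) [∀ i, IsFiniteMeasure (ν i)] (Y : ι → Set (Fin n → ℝ))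
    (hY : ∀ i, MeasurableSet (Y i)) (hdisj : Pairwise (Function.onFun Disjoint Y))
    (Ω : Set (Fin n → ℝ)) (hΩ : MeasurableSet Ω) (hνΩ : ∀ i, ν i Ωᶜ = 0)
    (W : ℝ≥0∞) (hW : volume Ω < W) :
    (∑ i, ν i (Y i)) ^ p ≤ W ^ (p - 1) *
      Filter.liminf (fun k : ℕ => ∑ i, ∫⁻ y : Fin n → ℝ, (ν i {z | ∀ j, |z j - y j| ≤ 1 / ((k : ℝ) + 1)} /
        (ENNReal.ofReal (2 / ((k : ℝ) + 1))) ^ n) ^ p ∂volume) Filter.atTop := by
  set hk : ℕ → ℝ := fun k => 1 / ((k : ℝ) + 1) with hkdef
  have hkpos : ∀ k, 0 < hk k := fun k => by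
    simp only [hkdef]
    positivity
  set Φ : ℕ → ℝ≥0∞ := fun k => ∑ i, ∫⁻ y : Fin n → ℝ,
    (ν i {z | ∀ j, |z j - y j| ≤ 1 / ((k : ℝ) + 1)} /
        (ENNReal.ofReal (2 / ((k : ℝ) + 1))) ^ n) ^ p ∂volume with hΦ
  have hΦ' : ∀ k, Φ k = ∑ i, ∫⁻ y : Fin n → ℝ,
      (ν i (dbox y (hk k)) / (ENNReal.ofReal (2 * hk k)) ^ n) ^ p ∂volume := by
    intro k
    simp only [hΦ, hkdef, dbox, mul_one_div]
  -- the compact case
  have hcpt : ∀ K : ι → Set (Fin n → ℝ), (∀ i, IsCompact (K i)) → (∀ i, K i ⊆ Y i ∩ Ω) →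
      (∑ i, ν i (K i)) ^ p ≤ W ^ (p - 1) * Filter.liminf Φ Filter.atTop := by
    intro K hK hKY
    have hlim : Filter.Tendsto (fun r : ℝ => ∑ i, (volume : Measure (Fin n → ℝ)) (cthickening r (K i)))
        (nhds 0) (nhds (∑ i, (volume : Measure (Fin n → ℝ)) (K i))) :=
      tendsto_finsetSum _ (fun i _ => tendsto_measure_cthickening_of_isCompact (hK i))
    have hsum : ∑ i, (volume : Measure (Fin n → ℝ)) (K i) < W := by
      have h1 : ∑ i, (volume : Measure (Fin n → ℝ)) (K i) =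
          (volume : Measure (Fin n → ℝ)) (⋃ i, K i) := by
        rw [measure_iUnion _ (fun i => (hK i).measurableSet), tsum_fintype]
        intro i j hij
        exact (hdisj hij).mono ((hKY i).trans Set.inter_subset_left)
          ((hKY j).trans Set.inter_subset_left)
      rw [h1]
      refine lt_of_le_of_lt (measure_mono ?_) hW
      exact Set.iUnion_subset (fun i => (hKY i).trans Set.inter_subset_right)
    obtain ⟨W', hW'1, hW'2⟩ := exists_between hsum
    have hW'top : W' ≠ ⊤ := ne_top_of_lt hW'2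
    have hhk0 : Filter.Tendsto hk Filter.atTop (nhds 0) := tendsto_one_div_add_atTop_nhds_zero_nat
    have hev : ∀ᶠ k in Filter.atTop,
        ∑ i, (volume : Measure (Fin n → ℝ)) (cthickening (hk k) (K i)) < W' :=
      (hlim.comp hhk0).eventually_lt_const hW'1
    have hev2 : ∀ᶠ k in Filter.atTop, (∑ i, ν i (K i)) ^ p ≤ W' ^ (p - 1) * Φ k := by
      filter_upwards [hev] with k hk1
      have h2 : ∑ i, ν i (K i) ≤ ∑ i, ∫⁻ y in cthickening (hk k) (K i),
          ν i (dbox y (hk k)) / (ENNReal.ofReal (2 * hk k)) ^ n ∂volume :=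
        Finset.sum_le_sum (fun i _ => compact_le (ν i) (hK i) (hkpos k))
      refine (pow_le_pow_left' h2 p).trans ?_
      refine (holder_family hp _ _ (fun i => ?_)).trans ?_
      · exact (measurable_dbox (ν i) (hkpos k)).div_const _
      · rw [hΦ']
        exact mul_le_mul_left (pow_le_pow_left' hk1.le _) _
    have h3 : (∑ i, ν i (K i)) ^ p ≤ Filter.liminf (fun k => W' ^ (p - 1) * Φ k) Filter.atTop :=
      Filter.le_liminf_of_le (by isBoundedDefault) hev2
    refine h3.trans ?_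
    rw [ENNReal.liminf_const_mul_of_ne_top (ENNReal.pow_ne_top hW'top)]
    exact mul_le_mul_left (pow_le_pow_left' hW'2.le _) _
  -- inner regularity
  have hp0 : (0 : ℝ) < p := by exact_mod_cast hp
  set R : ℝ≥0∞ := (W ^ (p - 1) * Filter.liminf Φ Filter.atTop) ^ (1 / (p : ℝ)) with hR
  have hRp : R ^ p = W ^ (p - 1) * Filter.liminf Φ Filter.atTop := by
    rw [hR, ← ENNReal.rpow_natCast, ← ENNReal.rpow_mul, one_div_mul_cancel hp0.ne',
      ENNReal.rpow_one]
  rw [← hRp]
  apply pow_le_pow_left'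
  apply ENNReal.le_of_forall_pos_le_add
  intro ε hε _
  have hcard : (0 : ℝ≥0∞) < (Fintype.card ι : ℝ≥0∞) + 1 := by positivity
  have hε' : (ε : ℝ≥0∞) / ((Fintype.card ι : ℝ≥0∞) + 1) ≠ 0 := by
    apply ne_of_gt
    apply ENNReal.div_pos (by exact_mod_cast hε.ne')
    exact ENNReal.add_ne_top.2 ⟨ENNReal.natCast_ne_top _, ENNReal.one_ne_top⟩
  have hex : ∀ i, ∃ K ⊆ Y i ∩ Ω, IsCompact K ∧
      ν i (Y i ∩ Ω) < ν i K + (ε : ℝ≥0∞) / ((Fintype.card ι : ℝ≥0∞) + 1) := fun i =>
    ((hY i).inter hΩ).exists_isCompact_lt_add (measure_ne_top _ _) hε'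
  choose K hK1 hK2 hK3 using hex
  have h4 := hcpt K hK2 hK1
  rw [← hRp] at h4
  have h5 : ∑ i, ν i (K i) ≤ R := by
    by_contra hc
    push Not at hc
    have := ENNReal.pow_lt_pow_left (by omega : p ≠ 0) hc
    exact absurd h4 (not_le.2 this)
  calc ∑ i, ν i (Y i) ≤ ∑ i, (ν i (K i) + (ε : ℝ≥0∞) / ((Fintype.card ι : ℝ≥0∞) + 1)) := by
        apply Finset.sum_le_sum
        intro i _
        have h6 : ν i (Y i) ≤ ν i (Y i ∩ Ω) := by
          calc ν i (Y i) ≤ ν i ((Y i ∩ Ω) ∪ Ωᶜ) := by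
                apply measure_mono
                intro z hz
                by_cases hzΩ : z ∈ Ω
                · exact Or.inl ⟨hz, hzΩ⟩
                · exact Or.inr hzΩ
            _ ≤ ν i (Y i ∩ Ω) + ν i Ωᶜ := measure_union_le _ _
            _ = ν i (Y i ∩ Ω) := by rw [hνΩ i, add_zero]
        exact h6.trans (hK3 i).le
    _ = ∑ i, ν i (K i) + Fintype.card ι * ((ε : ℝ≥0∞) / ((Fintype.card ι : ℝ≥0∞) + 1)) := by
        rw [Finset.sum_add_distrib, Finset.sum_const, Finset.card_univ, nsmul_eq_mul]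
    _ ≤ R + ε := by
        apply add_le_add h5
        rw [← mul_div_assoc]
        apply ENNReal.div_le_of_le_mul
        rw [mul_comm]
        exact mul_le_mul_right le_self_add _

end

end Crest.Agent.SL68
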