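import Mathlib
import Crest.Prelude.Def_StreamLearn

set_option autoImplicit false

namespace Crest.Agent.SL68

open MeasureTheory ProbabilityTheory
open scoped ENNReal RealInnerProductSpace

noncomputable section

variable {E : Type*} [NormedAddCommGroup E] [InnerProductSpace ℝ E] [FiniteDimensional ℝ E]
  [MeasurableSpace E] [BorelSpace E]

/-- Resampling the coordinate along the unit vector `e`. -/
def resamp (e : E) (p : E × ℝ) : E := p.1 - ⟪e, p.1⟫ • e + p.2 • e

lemma resamp_continuous (e : E) : Continuous (resamp e) := by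
  unfold resamp; fun_prop

lemma resamp_measurable (e : E) : Measurable (resamp e) := (resamp_continuous e).measurable

lemma resamp_map (e : E) (he : ‖e‖ = 1) :
    ((stdGaussian E).prod (gaussianReal 0 1)).map (resamp e) = stdGaussian E := by
  haveI : IsProbabilityMeasure
      (((stdGaussian E).prod (gaussianReal 0 1)).map (resamp e)) :=
    Measure.isProbabilityMeasure_map (resamp_measurable e).aemeasurable
  apply Measure.ext_of_charFun
  ext z
  rw [charFun_apply, integral_map (resamp_measurable e).aemeasurable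
    (by fun_prop)]
  have h1 : ∀ p : E × ℝ, Complex.exp (⟪resamp e p, z⟫ * Complex.I)
      = Complex.exp (⟪p.1, z - ⟪e, z⟫ • e⟫ * Complex.I) *
        Complex.exp ((p.2 * ⟪e, z⟫ : ℝ) * Complex.I) := by
    intro p
    rw [← Complex.exp_add]
    congr 1
    rw [← add_mul, ← Complex.ofReal_add]
    congr 2
    simp only [resamp, inner_add_left, inner_sub_left, inner_sub_right, real_inner_smul_left,
      real_inner_smul_right]
    rw [real_inner_comm p.1 e]
    ring
  simp_rw [h1]
  rw [integral_prod_mul (μ := stdGaussian E) (ν := gaussianReal 0 1)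
    (fun x : E => Complex.exp (⟪x, z - ⟪e, z⟫ • e⟫ * Complex.I))
    (fun t : ℝ => Complex.exp ((t * ⟪e, z⟫ : ℝ) * Complex.I))]
  have h2 : ∫ x : E, Complex.exp (⟪x, z - ⟪e, z⟫ • e⟫ * Complex.I) ∂(stdGaussian E)
      = Complex.exp (- ‖z - ⟪e, z⟫ • e‖ ^ 2 / 2) := by
    rw [← charFun_stdGaussian, charFun_apply]
  have h3 : ∫ t : ℝ, Complex.exp ((t * ⟪e, z⟫ : ℝ) * Complex.I) ∂(gaussianReal 0 1)
      = Complex.exp (- (⟪e, z⟫ : ℝ) ^ 2 / 2) := by
    have := charFun_gaussianReal (μ := 0) (v := 1) ⟪e, z⟫
    rw [charFun_apply_real] at this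
    simp only [Complex.ofReal_zero, mul_zero, zero_mul, NNReal.coe_one, Complex.ofReal_one, one_mul,
      zero_sub] at this
    rw [show (- (⟪e, z⟫ : ℂ) ^ 2 / 2) = -((⟪e, z⟫ : ℂ) ^ 2 / 2) by ring, ← this]
    congr 1
    ext t
    congr 1
    push_cast
    ring
  rw [h2, h3, charFun_stdGaussian, ← Complex.exp_add]
  congr 1
  have h4 : ‖z - ⟪e, z⟫ • e‖ ^ 2 = ‖z‖ ^ 2 - ⟪e, z⟫ ^ 2 := by
    rw [@norm_sub_sq_real, real_inner_smul_right, norm_smul, he, real_inner_comm]
    simp
    ring
  rw [← Complex.ofReal_pow, h4]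
  push_cast
  ring

lemma gaussianReal_interval_le (a b δ t : ℝ) (hδ : 0 < δ) (ht : 0 ≤ t) (hb : b = δ) :
    gaussianReal 0 1 {s : ℝ | |a + s * b| ≤ t} ≤ ENNReal.ofReal (t / δ) := by
  subst hb
  have hset : {s : ℝ | |a + s * b| ≤ t} = Set.Icc ((-t - a) / b) ((t - a) / b) := by
    ext s
    simp only [Set.mem_setOf_eq, abs_le, Set.mem_Icc, div_le_iff₀ hδ, le_div_iff₀ hδ]
    constructor <;> rintro ⟨h1, h2⟩ <;> constructor <;> linarith
  rw [hset, gaussianReal_apply 0 one_ne_zero]
  calc ∫⁻ x in Set.Icc ((-t - a) / b) ((t - a) / b), gaussianPDF 0 1 x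
      ≤ ∫⁻ _x in Set.Icc ((-t - a) / b) ((t - a) / b), ENNReal.ofReal (1 / 2) := by
        apply lintegral_mono
        intro x
        simp only [gaussianPDF]
        apply ENNReal.ofReal_le_ofReal
        rw [gaussianPDFReal]
        have h1 : Real.exp (-(x - 0) ^ 2 / (2 * ((1 : NNReal) : ℝ))) ≤ 1 := by
          rw [Real.exp_le_one_iff]
          have : 0 ≤ (x - 0) ^ 2 := sq_nonneg _
          simp only [NNReal.coe_one]
          linarith [neg_div (2 * (1:ℝ)) ((x-0)^2), div_nonneg this (by norm_num : (0:ℝ) ≤ 2 * 1)]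
        have h2 : (√(2 * Real.pi * ((1 : NNReal) : ℝ)))⁻¹ ≤ 1 / 2 := by
          rw [one_div]
          apply inv_anti₀ (by norm_num)
          apply Real.le_sqrt_of_sq_le
          simp only [NNReal.coe_one, mul_one]
          nlinarith [Real.pi_gt_three]
        calc (√(2 * Real.pi * ((1 : NNReal) : ℝ)))⁻¹ * Real.exp (-(x - 0) ^ 2 / (2 * ((1 : NNReal) : ℝ)))
            ≤ 1 / 2 * 1 := by
              apply mul_le_mul h2 h1 (Real.exp_nonneg _) (by norm_num)
          _ = 1 / 2 := by ring
    _ = ENNReal.ofReal (t / b) := by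
        rw [lintegral_const, Measure.restrict_apply MeasurableSet.univ, Set.univ_inter,
          Real.volume_Icc, ← ENNReal.ofReal_mul (by norm_num)]
        congr 1
        field_simp
        ring

/-- One step Gaussian small ball bound: if `A` is invariant under translations along the unit
vector `e`, then the constraint `|⟪x,u⟫| ≤ t` costs a factor `t / ⟪e,u⟫`. -/
lemma smallBall_step (e : E) (he : ‖e‖ = 1) (u : E) (hu : 0 < ⟪e, u⟫) (t : ℝ) (ht : 0 ≤ t)
    (A : Set E) (hA : MeasurableSet A) (hinv : ∀ x : E, ∀ s : ℝ, x + s • e ∈ A ↔ x ∈ A) :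
    stdGaussian E (A ∩ {x | |⟪x, u⟫| ≤ t}) ≤ stdGaussian E A * ENNReal.ofReal (t / ⟪e, u⟫) := by
  have hmeas : MeasurableSet (A ∩ {x : E | |⟪x, u⟫| ≤ t}) :=
    hA.inter (measurableSet_le (by fun_prop) measurable_const)
  conv_lhs => rw [← resamp_map e he]
  rw [Measure.map_apply (resamp_measurable e) hmeas,
    Measure.prod_apply ((resamp_measurable e) hmeas)]
  calc ∫⁻ x, gaussianReal 0 1 (Prod.mk x ⁻¹' (resamp e ⁻¹' (A ∩ {x | |⟪x, u⟫| ≤ t}))) ∂(stdGaussian E)
      ≤ ∫⁻ x, A.indicator (fun _ => ENNReal.ofReal (t / ⟪e, u⟫)) x ∂(stdGaussian E) := by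
        apply lintegral_mono
        intro x
        by_cases hx : x ∈ A
        · simp only [Set.indicator_of_mem hx]
          refine le_trans (measure_mono ?_) (gaussianReal_interval_le
            (⟪x, u⟫ - ⟪e, x⟫ * ⟪e, u⟫) ⟪e, u⟫ ⟪e, u⟫ t hu ht rfl)
          intro s hs
          simp only [Set.mem_preimage, Set.mem_inter_iff, Set.mem_setOf_eq, resamp] at hs ⊢
          have := hs.2
          simp only [inner_add_left, inner_sub_left, real_inner_smul_left] at this
          exact this
        · simp only [Set.indicator_of_notMem hx]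
          rw [nonpos_iff_eq_zero]
          convert measure_empty (μ := gaussianReal 0 1)
          ext s
          simp only [Set.mem_preimage, Set.mem_inter_iff, Set.mem_setOf_eq,
            Set.mem_empty_iff_false, iff_false, not_and]
          intro h
          exfalso
          apply hx
          have h1 : resamp e (x, s) = x + (s - ⟪e, x⟫) • e := by
            simp only [resamp, sub_smul]; abel
          rw [h1] at h
          exact (hinv _ _).1 h
    _ = stdGaussian E A * ENNReal.ofReal (t / ⟪e, u⟫) := by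
        rw [lintegral_indicator hA, lintegral_const, Measure.restrict_apply MeasurableSet.univ,
          Set.univ_inter, mul_comm]

end

end Crest.Agent.SL68
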