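import Mathlib
import Crest.Agent.SL68.Gauss

set_option autoImplicit false

namespace Crest.Agent.SL68

open MeasureTheory ProbabilityTheory
open scoped ENNReal RealInnerProductSpace

noncomputable section

variable {E : Type*} [NormedAddCommGroup E] [InnerProductSpace ℝ E] [FiniteDimensional ℝ E]
  [MeasurableSpace E] [BorelSpace E]

/-- Distance from `u` to the subspace `V`. -/
def gap (V : Submodule ℝ E) (u : E) : ℝ := ‖u - V.starProjection u‖

omit [MeasurableSpace E] [BorelSpace E] in
lemma gap_nonneg (V : Submodule ℝ E) (u : E) : 0 ≤ gap V u := norm_nonneg _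

omit [MeasurableSpace E] [BorelSpace E] in
lemma gap_continuous (V : Submodule ℝ E) : Continuous (gap V) := by
  unfold gap; fun_prop

lemma smallBall_sub (V : Submodule ℝ E) (u : E) (t : ℝ) (ht : 0 < t)
    (A : Set E) (hA : MeasurableSet A) (hinv : ∀ x : E, ∀ z ∈ Vᗮ, x + z ∈ A ↔ x ∈ A) :
    stdGaussian E (A ∩ {x | |⟪x, u⟫| ≤ t}) ≤
      stdGaussian E A * (ENNReal.ofReal t * (ENNReal.ofReal (gap V u))⁻¹) := by
  by_cases hA0 : stdGaussian E A = 0
  · rw [hA0, zero_mul]
    exact le_trans (measure_mono Set.inter_subset_left) hA0.le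
  by_cases hg : gap V u = 0
  · rw [hg, ENNReal.ofReal_zero, ENNReal.inv_zero, ENNReal.mul_top, ENNReal.mul_top hA0]
    · exact le_top
    · simpa using ht
  · have hgpos : 0 < gap V u := lt_of_le_of_ne (gap_nonneg V u) (Ne.symm hg)
    set g := gap V u with hgdef
    set e : E := g⁻¹ • (u - V.starProjection u) with he
    have hmem : u - V.starProjection u ∈ Vᗮ := V.sub_starProjection_mem_orthogonal u
    have henorm : ‖e‖ = 1 := by
      rw [he, norm_smul, norm_inv, Real.norm_of_nonneg hgpos.le]
      change g⁻¹ * gap V u = 1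
      rw [← hgdef, inv_mul_cancel₀ hg]
    have hein : e ∈ Vᗮ := Submodule.smul_mem _ _ hmem
    have heu : ⟪e, u⟫ = g := by
      have h1 : ⟪u - V.starProjection u, u⟫ = g ^ 2 := by
        have h2 : ⟪u - V.starProjection u, V.starProjection u⟫ = 0 :=
          V.starProjection_inner_eq_zero u _ (V.starProjection_apply_mem u)
        have h3 : ⟪u - V.starProjection u, u⟫ =
            ⟪u - V.starProjection u, u - V.starProjection u⟫ := by
          rw [inner_sub_right, h2, sub_zero]
        rw [h3, real_inner_self_eq_norm_sq]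
        rfl
      rw [he, real_inner_smul_left, h1, pow_two, ← mul_assoc, inv_mul_cancel₀ hg, one_mul]
    refine le_trans (smallBall_step e henorm u (by rw [heu]; exact hgpos) t ht.le A hA ?_) ?_
    · intro x s
      exact hinv x _ (Submodule.smul_mem _ _ hein)
    · rw [heu]
      gcongr
      rw [ENNReal.ofReal_div_of_pos hgpos, ENNReal.div_eq_inv_mul, mul_comm]

/-- the tube mass through `s0` cut out by the rows of `X` -/
def tubeMass {n : ℕ} (μ : Measure E) (t : ℝ) (X : Fin n → E) (s0 : E) : ℝ≥0∞ :=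
  μ {s | ∀ j, |⟪X j, s - s0⟫| ≤ t}

lemma tubeMass_measurable {n : ℕ} (μ : Measure E) [SFinite μ] (t : ℝ) :
    Measurable (fun q : (Fin n → E) × E => tubeMass μ t q.1 q.2) := by
  unfold tubeMass
  have hS : MeasurableSet {z : ((Fin n → E) × E) × E | ∀ j, |⟪z.1.1 j, z.2 - z.1.2⟫| ≤ t} := by
    rw [show {z : ((Fin n → E) × E) × E | ∀ j, |⟪z.1.1 j, z.2 - z.1.2⟫| ≤ t} =
      ⋂ j, {z : ((Fin n → E) × E) × E | |⟪z.1.1 j, z.2 - z.1.2⟫| ≤ t} by ext z; simp]
    apply MeasurableSet.iInter
    intro j
    exact measurableSet_le (by fun_prop) measurable_const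
  exact measurable_measure_prodMk_left hS

lemma replica_rec {n : ℕ} (μ : Measure E) [SFinite μ] (t : ℝ) (ht : 0 < t) (s0 : E) (K : ℕ) (Q : ℝ≥0∞)
    (hQ : ∀ V : Submodule ℝ E, Module.finrank ℝ V ≤ K →
      ∫⁻ s, ((ENNReal.ofReal (gap V (s - s0)))⁻¹) ^ n ∂μ ≤ Q) :
    ∀ N : ℕ, ∀ (A : Set E) (V : Submodule ℝ E), MeasurableSet A →
      (∀ x : E, ∀ z ∈ Vᗮ, x + z ∈ A ↔ x ∈ A) → Module.finrank ℝ V + N ≤ K + 1 →
      ∫⁻ X : Fin n → E, {X : Fin n → E | ∀ j, X j ∈ A}.indicator
        (fun X => (tubeMass μ t X s0) ^ N) X ∂(Measure.pi fun _ => stdGaussian E)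
      ≤ (stdGaussian E A) ^ n * ((ENNReal.ofReal t) ^ n * Q) ^ N := by
  intro N
  induction N with
  | zero =>
    intro A V hA _ _
    have hset : {X : Fin n → E | ∀ j, X j ∈ A} = Set.pi Set.univ (fun _ => A) := by
      ext X; simp
    simp only [pow_zero, mul_one]
    rw [hset, lintegral_indicator (MeasurableSet.univ_pi fun _ => hA)]
    simp [Measure.pi_pi]
  | succ N ih =>
    intro A V hA hinv hdim
    set P : Measure (Fin n → E) := Measure.pi fun _ => stdGaussian E with hP
    have hAn : MeasurableSet {X : Fin n → E | ∀ j, X j ∈ A} := by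
      rw [show {X : Fin n → E | ∀ j, X j ∈ A} = Set.pi Set.univ (fun _ => A) by ext X; simp]
      exact MeasurableSet.univ_pi fun _ => hA
    have hT : Measurable (fun X : Fin n → E => tubeMass μ t X s0) :=
      (tubeMass_measurable μ t).comp (measurable_id.prodMk measurable_const)
    -- rewrite the last factor as an integral over `s`
    have h1 : ∀ X : Fin n → E, {X : Fin n → E | ∀ j, X j ∈ A}.indicator
        (fun X => (tubeMass μ t X s0) ^ (N + 1)) X =
        ∫⁻ s, {X : Fin n → E | ∀ j, X j ∈ A ∩ {x | |⟪x, s - s0⟫| ≤ t}}.indicator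
          (fun X => (tubeMass μ t X s0) ^ N) X ∂μ := by
      intro X
      by_cases hX : ∀ j, X j ∈ A
      · rw [Set.indicator_of_mem (by exact hX)]
        have h2 : ∀ s, {X : Fin n → E | ∀ j, X j ∈ A ∩ {x | |⟪x, s - s0⟫| ≤ t}}.indicator
          (fun X => (tubeMass μ t X s0) ^ N) X =
            {s | ∀ j, |⟪X j, s - s0⟫| ≤ t}.indicator (fun _ => (tubeMass μ t X s0) ^ N) s := by
          intro s
          by_cases hs : ∀ j, |⟪X j, s - s0⟫| ≤ t
          · rw [Set.indicator_of_mem, Set.indicator_of_mem]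
            · exact hs
            · intro j; exact ⟨hX j, hs j⟩
          · rw [Set.indicator_of_notMem, Set.indicator_of_notMem]
            · exact hs
            · intro h; exact hs fun j => (h j).2
        simp_rw [h2]
        rw [lintegral_indicator, lintegral_const, Measure.restrict_apply MeasurableSet.univ,
          Set.univ_inter, pow_succ]
        · rfl
        · rw [show {s | ∀ j, |⟪X j, s - s0⟫| ≤ t} = ⋂ j, {s | |⟪X j, s - s0⟫| ≤ t} by ext s; simp]
          exact MeasurableSet.iInter fun j => measurableSet_le (by fun_prop) measurable_const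
      · rw [Set.indicator_of_notMem (by exact hX)]
        symm
        rw [lintegral_eq_zero_iff']
        · filter_upwards with s
          rw [Set.indicator_of_notMem]
          · rfl
          · intro h; exact hX fun j => (h j).1
        · have : (fun s => {X : Fin n → E | ∀ j, X j ∈ A ∩ {x | |⟪x, s - s0⟫| ≤ t}}.indicator
            (fun X => (tubeMass μ t X s0) ^ N) X) = fun _ => 0 := by
            ext s
            rw [Set.indicator_of_notMem]
            intro h; exact hX fun j => (h j).1
          rw [this]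
          exact aemeasurable_const
    simp_rw [h1]
    have hjoint : Measurable (Function.uncurry fun (X : Fin n → E) (s : E) =>
        {X : Fin n → E | ∀ j, X j ∈ A ∩ {x | |⟪x, s - s0⟫| ≤ t}}.indicator
          (fun X => (tubeMass μ t X s0) ^ N) X) := by
      have : (Function.uncurry fun (X : Fin n → E) (s : E) =>
        {X : Fin n → E | ∀ j, X j ∈ A ∩ {x | |⟪x, s - s0⟫| ≤ t}}.indicator
          (fun X => (tubeMass μ t X s0) ^ N) X) =
          {z : (Fin n → E) × E | ∀ j, z.1 j ∈ A ∩ {x | |⟪x, z.2 - s0⟫| ≤ t}}.indicator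
            (fun z => (tubeMass μ t z.1 s0) ^ N) := by
        ext z
        simp only [Function.uncurry]
        by_cases hz : ∀ j, z.1 j ∈ A ∩ {x | |⟪x, z.2 - s0⟫| ≤ t}
        · rw [Set.indicator_of_mem (by exact hz), Set.indicator_of_mem (by exact hz)]
        · rw [Set.indicator_of_notMem (by exact hz), Set.indicator_of_notMem (by exact hz)]
      rw [this]
      apply Measurable.indicator
      · exact (hT.comp measurable_fst).pow_const N
      · rw [show {z : (Fin n → E) × E | ∀ j, z.1 j ∈ A ∩ {x | |⟪x, z.2 - s0⟫| ≤ t}} =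
          ⋂ j, ({z : (Fin n → E) × E | z.1 j ∈ A} ∩ {z | |⟪z.1 j, z.2 - s0⟫| ≤ t}) by
            ext z; simp]
        apply MeasurableSet.iInter
        intro j
        apply MeasurableSet.inter
        · exact hA.preimage (by fun_prop)
        · exact measurableSet_le (by fun_prop) measurable_const
    rw [lintegral_lintegral_swap hjoint.aemeasurable]
    -- induction hypothesis for each `s`
    have h3 : ∀ s : E, ∫⁻ X, {X : Fin n → E | ∀ j, X j ∈ A ∩ {x | |⟪x, s - s0⟫| ≤ t}}.indicator
          (fun X => (tubeMass μ t X s0) ^ N) X ∂P ≤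
        ((stdGaussian E A) ^ n * (ENNReal.ofReal t) ^ n * ((ENNReal.ofReal t) ^ n * Q) ^ N) *
          ((ENNReal.ofReal (gap V (s - s0)))⁻¹) ^ n := by
      intro s
      have hA' : MeasurableSet (A ∩ {x : E | |⟪x, s - s0⟫| ≤ t}) :=
        hA.inter (measurableSet_le (by fun_prop) measurable_const)
      have h4 := ih (A ∩ {x | |⟪x, s - s0⟫| ≤ t}) (V ⊔ Submodule.span ℝ {s - s0}) hA' ?_ ?_
      · refine h4.trans ?_
        have h5 := smallBall_sub V (s - s0) t ht A hA hinv
        calc (stdGaussian E (A ∩ {x | |⟪x, s - s0⟫| ≤ t})) ^ n * ((ENNReal.ofReal t) ^ n * Q) ^ N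
            ≤ (stdGaussian E A * (ENNReal.ofReal t * (ENNReal.ofReal (gap V (s - s0)))⁻¹)) ^ n
              * ((ENNReal.ofReal t) ^ n * Q) ^ N := by gcongr
          _ = _ := by rw [mul_pow, mul_pow]; ring
      · intro x z hz
        have hz1 : z ∈ Vᗮ := by
          rw [Submodule.mem_orthogonal] at hz ⊢
          intro v hv
          exact hz v (Submodule.mem_sup_left hv)
        have hz2 : ⟪z, s - s0⟫ = 0 := by
          rw [Submodule.mem_orthogonal] at hz
          rw [real_inner_comm]
          exact hz _ (Submodule.mem_sup_right (Submodule.mem_span_singleton_self _))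
        simp only [Set.mem_inter_iff, Set.mem_ofPred_eq, hinv x z hz1, inner_add_left, hz2, add_zero]
      · have h6 : Module.finrank ℝ (V ⊔ Submodule.span ℝ {s - s0} : Submodule ℝ E) ≤
            Module.finrank ℝ V + 1 := by
          refine (Submodule.finrank_add_le_finrank_add_finrank _ _).trans ?_
          have : Module.finrank ℝ (Submodule.span ℝ {s - s0}) ≤ 1 := by
            have := finrank_span_le_card (R := ℝ) ({s - s0} : Set E)
            simpa using this
          omega
        omega
    calc ∫⁻ s, ∫⁻ X, {X : Fin n → E | ∀ j, X j ∈ A ∩ {x | |⟪x, s - s0⟫| ≤ t}}.indicator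
          (fun X => (tubeMass μ t X s0) ^ N) X ∂P ∂μ
        ≤ ∫⁻ s, ((stdGaussian E A) ^ n * (ENNReal.ofReal t) ^ n * ((ENNReal.ofReal t) ^ n * Q) ^ N) *
          ((ENNReal.ofReal (gap V (s - s0)))⁻¹) ^ n ∂μ := lintegral_mono h3
      _ = ((stdGaussian E A) ^ n * (ENNReal.ofReal t) ^ n * ((ENNReal.ofReal t) ^ n * Q) ^ N) *
          ∫⁻ s, ((ENNReal.ofReal (gap V (s - s0)))⁻¹) ^ n ∂μ := by
            rw [lintegral_const_mul]
            have := (gap_continuous V).measurable
            fun_prop
      _ ≤ ((stdGaussian E A) ^ n * (ENNReal.ofReal t) ^ n * ((ENNReal.ofReal t) ^ n * Q) ^ N) * Q := by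
            gcongr
            exact hQ V (by omega)
      _ = _ := by rw [pow_succ]; ring

/-- The moment bound for the tube mass. -/
lemma replica_moment {n : ℕ} (μ : Measure E) [SFinite μ] (t : ℝ) (ht : 0 < t) (s0 : E) (N : ℕ)
    (Q : ℝ≥0∞)
    (hQ : ∀ V : Submodule ℝ E, Module.finrank ℝ V ≤ N →
      ∫⁻ s, ((ENNReal.ofReal (gap V (s - s0)))⁻¹) ^ n ∂μ ≤ Q) :
    ∫⁻ X : Fin n → E, (tubeMass μ t X s0) ^ N ∂(Measure.pi fun _ => stdGaussian E)
      ≤ ((ENNReal.ofReal t) ^ n * Q) ^ N := by
  have := replica_rec (n := n) μ t ht s0 N Q hQ N Set.univ ⊥ MeasurableSet.univ (by simp) (by simp)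
  simpa using this

end

end Crest.Agent.SL68
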