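import Mathlib
import Crest.Agent.SL68.Replica

set_option autoImplicit false

namespace Crest.Agent.SL68

open MeasureTheory ProbabilityTheory
open scoped ENNReal RealInnerProductSpace

noncomputable section

variable {E : Type*} [NormedAddCommGroup E] [InnerProductSpace ℝ E] [FiniteDimensional ℝ E]
  [MeasurableSpace E] [BorelSpace E]

/-- mass of the cube of half-side `h` around `y` under the pushforward of `μ` by `X`. -/
def cubeMass {n : ℕ} (μ : Measure E) (h : ℝ) (X : Fin n → E) (y : Fin n → ℝ) : ℝ≥0∞ :=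
  μ {s | ∀ j, |⟪X j, s⟫ - y j| ≤ h}

lemma cubeMass_measurable {n : ℕ} (μ : Measure E) [SFinite μ] (h : ℝ) :
    Measurable (fun q : (Fin n → E) × (Fin n → ℝ) => cubeMass μ h q.1 q.2) := by
  unfold cubeMass
  have hS : MeasurableSet {z : ((Fin n → E) × (Fin n → ℝ)) × E | ∀ j, |⟪z.1.1 j, z.2⟫ - z.1.2 j| ≤ h} := by
    rw [show {z : ((Fin n → E) × (Fin n → ℝ)) × E | ∀ j, |⟪z.1.1 j, z.2⟫ - z.1.2 j| ≤ h} =
      ⋂ j, {z : ((Fin n → E) × (Fin n → ℝ)) × E | |⟪z.1.1 j, z.2⟫ - z.1.2 j| ≤ h} by ext z; simp]
    apply MeasurableSet.iInter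
    intro j
    exact measurableSet_le (by fun_prop) measurable_const
  exact measurable_measure_prodMk_left hS

lemma volume_cube {n : ℕ} (a : Fin n → ℝ) (h : ℝ) :
    (volume : Measure (Fin n → ℝ)) {y | ∀ j, |a j - y j| ≤ h} = (ENNReal.ofReal (2 * h)) ^ n := by
  have : {y : Fin n → ℝ | ∀ j, |a j - y j| ≤ h} = Set.pi Set.univ (fun j => Set.Icc (a j - h) (a j + h)) := by
    ext y
    simp only [Set.mem_ofPred_eq, Set.mem_pi, Set.mem_univ, true_implies, Set.mem_Icc, abs_le]
    refine forall_congr' fun j => ?_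
    constructor <;> rintro ⟨h1, h2⟩ <;> constructor <;> linarith
  rw [this, volume_pi_pi]
  simp only [Real.volume_Icc]
  rw [Finset.prod_congr rfl (fun j _ => by rw [show a j + h - (a j - h) = 2 * h by ring])]
  simp

lemma kernel_moment {n : ℕ} (μ : Measure E) [SFinite μ] (h : ℝ) (hh : 0 < h) (N : ℕ)
    (Q : ℝ≥0∞)
    (hQ : ∀ᵐ s0 ∂μ, ∀ V : Submodule ℝ E, Module.finrank ℝ V ≤ N →
      ∫⁻ s, ((ENNReal.ofReal (gap V (s - s0)))⁻¹) ^ n ∂μ ≤ Q) :
    ∫⁻ X : Fin n → E, ∫⁻ y : Fin n → ℝ, (cubeMass μ h X y) ^ (N + 1) ∂volume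
        ∂(Measure.pi fun _ => stdGaussian E)
      ≤ (ENNReal.ofReal (2 * h)) ^ n * (((ENNReal.ofReal (2 * h)) ^ n * Q) ^ N * μ Set.univ) := by
  set P : Measure (Fin n → E) := Measure.pi fun _ => stdGaussian E with hP
  have hT : Measurable (fun q : (Fin n → E) × E => tubeMass μ (2 * h) q.1 q.2) :=
    tubeMass_measurable μ (2 * h)
  -- pointwise bound
  have h1 : ∀ (X : Fin n → E) (y : Fin n → ℝ), (cubeMass μ h X y) ^ (N + 1) ≤
      ∫⁻ s0, {s | ∀ j, |⟪X j, s⟫ - y j| ≤ h}.indicator
        (fun s => (tubeMass μ (2 * h) X s) ^ N) s0 ∂μ := by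
    intro X y
    have hmeas : MeasurableSet {s : E | ∀ j, |⟪X j, s⟫ - y j| ≤ h} := by
      rw [show {s : E | ∀ j, |⟪X j, s⟫ - y j| ≤ h} = ⋂ j, {s | |⟪X j, s⟫ - y j| ≤ h} by ext s; simp]
      exact MeasurableSet.iInter fun j => measurableSet_le (by fun_prop) measurable_const
    calc (cubeMass μ h X y) ^ (N + 1) = ∫⁻ _s0 in {s | ∀ j, |⟪X j, s⟫ - y j| ≤ h},
          (cubeMass μ h X y) ^ N ∂μ := by
            rw [lintegral_const, Measure.restrict_apply MeasurableSet.univ, Set.univ_inter, pow_succ]
            rfl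
      _ = ∫⁻ s0, {s | ∀ j, |⟪X j, s⟫ - y j| ≤ h}.indicator
          (fun _ => (cubeMass μ h X y) ^ N) s0 ∂μ := by
            rw [lintegral_indicator hmeas]
      _ ≤ _ := by
            apply lintegral_mono
            intro s0
            by_cases hs0 : ∀ j, |⟪X j, s0⟫ - y j| ≤ h
            · simp only
              rw [Set.indicator_of_mem (by exact hs0), Set.indicator_of_mem (by exact hs0)]
              gcongr
              unfold cubeMass tubeMass
              apply measure_mono
              intro s hs j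
              have h2 := hs j
              have h3 := hs0 j
              rw [inner_sub_right]
              calc |⟪X j, s⟫ - ⟪X j, s0⟫| = |(⟪X j, s⟫ - y j) - (⟪X j, s0⟫ - y j)| := by congr 1; ring
                _ ≤ |⟪X j, s⟫ - y j| + |⟪X j, s0⟫ - y j| := abs_sub _ _
                _ ≤ 2 * h := by linarith
            · simp only
              rw [Set.indicator_of_notMem (by exact hs0), Set.indicator_of_notMem (by exact hs0)]
  calc ∫⁻ X, ∫⁻ y : Fin n → ℝ, (cubeMass μ h X y) ^ (N + 1) ∂volume ∂P
      ≤ ∫⁻ X, ∫⁻ y : Fin n → ℝ, ∫⁻ s0, {s | ∀ j, |⟪X j, s⟫ - y j| ≤ h}.indicator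
        (fun s => (tubeMass μ (2 * h) X s) ^ N) s0 ∂μ ∂volume ∂P := by
          apply lintegral_mono; intro X; apply lintegral_mono; intro y; exact h1 X y
    _ = ∫⁻ X, ∫⁻ s0, (tubeMass μ (2 * h) X s0) ^ N * (ENNReal.ofReal (2 * h)) ^ n ∂μ ∂P := by
          apply lintegral_congr
          intro X
          rw [lintegral_lintegral_swap]
          · apply lintegral_congr
            intro s0
            have h4 : ∀ y : Fin n → ℝ, {s | ∀ j, |⟪X j, s⟫ - y j| ≤ h}.indicator
                (fun s => (tubeMass μ (2 * h) X s) ^ N) s0 =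
                {y : Fin n → ℝ | ∀ j, |⟪X j, s0⟫ - y j| ≤ h}.indicator
                (fun _ => (tubeMass μ (2 * h) X s0) ^ N) y := by
              intro y
              by_cases hy : ∀ j, |⟪X j, s0⟫ - y j| ≤ h
              · rw [Set.indicator_of_mem (by exact hy), Set.indicator_of_mem (by exact hy)]
              · rw [Set.indicator_of_notMem (by exact hy), Set.indicator_of_notMem (by exact hy)]
            simp_rw [h4]
            rw [lintegral_indicator, lintegral_const, Measure.restrict_apply MeasurableSet.univ,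
              Set.univ_inter, volume_cube (fun j => ⟪X j, s0⟫) h]
            rw [show {y : Fin n → ℝ | ∀ j, |⟪X j, s0⟫ - y j| ≤ h} =
              ⋂ j, {y : Fin n → ℝ | |⟪X j, s0⟫ - y j| ≤ h} by ext s; simp]
            exact MeasurableSet.iInter fun j => measurableSet_le (by fun_prop) measurable_const
          · apply Measurable.aemeasurable
            have : (Function.uncurry fun (y : Fin n → ℝ) (s0 : E) =>
                {s | ∀ j, |⟪X j, s⟫ - y j| ≤ h}.indicator
                (fun s => (tubeMass μ (2 * h) X s) ^ N) s0) =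
                {z : (Fin n → ℝ) × E | ∀ j, |⟪X j, z.2⟫ - z.1 j| ≤ h}.indicator
                  (fun z => (tubeMass μ (2 * h) X z.2) ^ N) := by
              ext z
              simp only [Function.uncurry]
              by_cases hz : ∀ j, |⟪X j, z.2⟫ - z.1 j| ≤ h
              · rw [Set.indicator_of_mem (by exact hz), Set.indicator_of_mem (by exact hz)]
              · rw [Set.indicator_of_notMem (by exact hz), Set.indicator_of_notMem (by exact hz)]
            rw [this]
            apply Measurable.indicator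
            · exact (hT.comp (measurable_const.prodMk measurable_snd)).pow_const N
            · rw [show {z : (Fin n → ℝ) × E | ∀ j, |⟪X j, z.2⟫ - z.1 j| ≤ h} =
                ⋂ j, {z : (Fin n → ℝ) × E | |⟪X j, z.2⟫ - z.1 j| ≤ h} by ext z; simp]
              exact MeasurableSet.iInter fun j => measurableSet_le (by fun_prop) measurable_const
    _ = ∫⁻ s0, (∫⁻ X, (tubeMass μ (2 * h) X s0) ^ N ∂P) * (ENNReal.ofReal (2 * h)) ^ n ∂μ := by
          rw [lintegral_lintegral_swap]
          · apply lintegral_congr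
            intro s0
            rw [lintegral_mul_const]
            exact (hT.comp (measurable_id.prodMk measurable_const)).pow_const N
          · apply Measurable.aemeasurable
            exact (hT.pow_const N).mul_const _
    _ ≤ ∫⁻ _s0, ((ENNReal.ofReal (2 * h)) ^ n * Q) ^ N * (ENNReal.ofReal (2 * h)) ^ n ∂μ := by
          apply lintegral_mono_ae
          filter_upwards [hQ] with s0 hs0
          gcongr
          exact replica_moment μ (2 * h) (by linarith) s0 N Q hs0
    _ = _ := by
          rw [lintegral_const]; ring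

end

end Crest.Agent.SL68
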