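import Mathlib

set_option autoImplicit false

namespace Crest.Agent.SL68

open MeasureTheory Metric Module
open scoped ENNReal

noncomputable section

variable {F : Type*} [NormedAddCommGroup F] [NormedSpace ℝ F] [FiniteDimensional ℝ F]

lemma card_sep_le (s : Finset F) (R τ : ℝ) (hτ : 0 < τ) (hR : 0 ≤ R) (hs : ∀ c ∈ s, ‖c‖ ≤ R)
    (h : ∀ c ∈ s, ∀ d ∈ s, c ≠ d → τ ≤ ‖c - d‖) :
    (s.card : ℝ) ≤ (2 * R / τ + 1) ^ finrank ℝ F := by
  borelize F
  let μ : Measure F := Measure.addHaar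
  let δ : ℝ := τ / 2
  let ρ : ℝ := R + τ / 2
  have ρpos : 0 < ρ := by positivity
  have δpos : 0 < δ := by positivity
  set A := ⋃ c ∈ s, ball (c : F) δ with hA
  have D : Set.Pairwise (s : Set F) (Function.onFun Disjoint fun c => ball (c : F) δ) := by
    rintro c hc d hd hcd
    apply ball_disjoint_ball
    rw [dist_eq_norm]
    have := h c hc d hd hcd
    simp only [δ]; linarith
  have A_subset : A ⊆ ball (0 : F) ρ := by
    refine Set.iUnion₂_subset fun x hx => ?_
    apply ball_subset_ball'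
    rw [dist_zero_right]
    have := hs x hx
    simp only [δ, ρ]; linarith
  have I :
    (s.card : ℝ≥0∞) * ENNReal.ofReal (δ ^ finrank ℝ F) * μ (ball 0 1) ≤
      ENNReal.ofReal (ρ ^ finrank ℝ F) * μ (ball 0 1) :=
    calc
      (s.card : ℝ≥0∞) * ENNReal.ofReal (δ ^ finrank ℝ F) * μ (ball 0 1) = μ A := by
        rw [hA, measure_biUnion_finset D fun c _ => measurableSet_ball]
        simp only [μ.addHaar_ball_of_pos _ δpos]
        simp only [Finset.sum_const, nsmul_eq_mul, mul_assoc]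
      _ ≤ μ (ball (0 : F) ρ) := measure_mono A_subset
      _ = ENNReal.ofReal (ρ ^ finrank ℝ F) * μ (ball 0 1) := by
        simp only [μ.addHaar_ball_of_pos _ ρpos]
  have J : (s.card : ℝ≥0∞) * ENNReal.ofReal (δ ^ finrank ℝ F) ≤ ENNReal.ofReal (ρ ^ finrank ℝ F) :=
    (ENNReal.mul_le_mul_iff_left (measure_ball_pos _ _ zero_lt_one).ne' measure_ball_lt_top.ne).1 I
  have J2 : (s.card : ℝ) * δ ^ finrank ℝ F ≤ ρ ^ finrank ℝ F := by
    have := ENNReal.toReal_le_of_le_ofReal (pow_nonneg ρpos.le _) J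
    rwa [ENNReal.toReal_mul, ENNReal.toReal_natCast, ENNReal.toReal_ofReal (by positivity)] at this
  have h3 : (2 * R / τ + 1) = ρ / δ := by
    simp only [ρ, δ]; field_simp
  rw [h3, div_pow, le_div_iff₀ (by positivity)]
  exact J2

lemma exists_net (R τ : ℝ) (hτ : 0 < τ) (hR : 0 ≤ R) :
    ∃ s : Finset F, (s.card : ℝ) ≤ (2 * R / τ + 1) ^ finrank ℝ F ∧
      ∀ v : F, ‖v‖ ≤ R → ∃ z ∈ s, ‖v - z‖ ≤ τ := by
  classical
  let P : ℕ → Prop := fun m => ∃ s : Finset F, s.card = m ∧ (∀ c ∈ s, ‖c‖ ≤ R) ∧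
    (∀ c ∈ s, ∀ d ∈ s, c ≠ d → τ ≤ ‖c - d‖)
  have hP0 : P 0 := ⟨∅, by simp⟩
  obtain ⟨B, hB⟩ := exists_nat_ge ((2 * R / τ + 1) ^ finrank ℝ F)
  have hbound : ∀ m, P m → m ≤ B := by
    rintro m ⟨s, rfl, hs, h⟩
    have := card_sep_le s R τ hτ hR hs h
    exact_mod_cast this.trans hB
  have hmax : P (Nat.findGreatest P B) := Nat.findGreatest_spec (m := 0) (Nat.zero_le _) hP0
  obtain ⟨s, hcard, hs, hsep⟩ := hmax
  refine ⟨s, card_sep_le s R τ hτ hR hs hsep, ?_⟩
  intro v hv
  by_contra hcon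
  push Not at hcon
  have hvs : v ∉ s := by
    intro hvs
    have := hcon v hvs
    simp only [sub_self, norm_zero] at this
    linarith
  have hP : P (Nat.findGreatest P B + 1) := by
    refine ⟨insert v s, by rw [Finset.card_insert_of_notMem hvs, hcard], ?_, ?_⟩
    · intro c hc
      rcases Finset.mem_insert.1 hc with rfl | hc
      · exact hv
      · exact hs c hc
    · intro c hc d hd hcd
      rcases Finset.mem_insert.1 hc with hc | hc
      · rcases Finset.mem_insert.1 hd with hd | hd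
        · exact absurd (hc.trans hd.symm) hcd
        · rw [hc]; exact (hcon d hd).le
      · rcases Finset.mem_insert.1 hd with hd | hd
        · rw [hd, norm_sub_rev]; exact (hcon c hc).le
        · exact hsep c hc d hd hcd
  have h1 := hbound _ hP
  have h2 := Nat.le_findGreatest h1 hP
  omega

end

end Crest.Agent.SL68
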