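import Mathlib
import Crest.Agent.SL68.Moment
import Crest.Agent.SL68.Net

set_option autoImplicit false

namespace Crest.Agent.SL68

open MeasureTheory ProbabilityTheory Metric
open scoped ENNReal RealInnerProductSpace

noncomputable section

/-- Frostman condition with natural exponent β. -/
def Frost {d : ℕ} (ν : Measure (EuclideanSpace ℝ (Fin d))) (a : ℝ≥0∞) (β : ℕ) : Prop :=
  ∀ (c : EuclideanSpace ℝ (Fin d)) (r : ℝ), 0 < r → ν (closedBall c r) ≤ a * ENNReal.ofReal r ^ β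

variable {d : ℕ}

local notation "E" => EuclideanSpace ℝ (Fin d)

lemma gap_le_norm (V : Submodule ℝ E) (u : E) : gap V u ≤ ‖u‖ := by
  unfold gap
  have h : u - V.starProjection u = Vᗮ.starProjection u := by
    rw [Submodule.starProjection_orthogonal_val]
  rw [h]
  exact Submodule.norm_starProjection_apply_le _ _

lemma tube_mass (ν : Measure E) (a : ℝ≥0∞) (β k : ℕ)
    (hν : Frost ν a β) (c s0 : E) (r : ℝ) (hr : 0 < r) (hs0 : s0 ∈ closedBall c r)
    (V : Submodule ℝ E) (hV : Module.finrank ℝ V ≤ k) (i : ℕ) :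
    ν {s | s ∈ closedBall c r ∧ gap V (s - s0) ≤ 2 * r / 2 ^ i} ≤
      (3 * 2 ^ i) ^ k * (a * ENNReal.ofReal (4 * r / 2 ^ i) ^ β) := by
  have hτ : 0 < 2 * r / 2 ^ i := by positivity
  obtain ⟨N, hN, hnet⟩ := exists_net (F := V) (2 * r) (2 * r / 2 ^ i) hτ (by positivity)
  have hsub : {s | s ∈ closedBall c r ∧ gap V (s - s0) ≤ 2 * r / 2 ^ i} ⊆
      ⋃ z ∈ N, closedBall (s0 + (z : E)) (4 * r / 2 ^ i) := by
    rintro s ⟨hs, hg⟩
    have h1 : ‖s - s0‖ ≤ 2 * r := by
      rw [mem_closedBall, dist_eq_norm] at hs hs0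
      calc ‖s - s0‖ = ‖(s - c) - (s0 - c)‖ := by congr 1; abel
        _ ≤ ‖s - c‖ + ‖s0 - c‖ := norm_sub_le _ _
        _ ≤ 2 * r := by linarith
    obtain ⟨z, hz, hvz⟩ := hnet (V.orthogonalProjectionOnto (s - s0)) (by
      refine le_trans ?_ h1
      exact V.norm_starProjection_apply_le (s - s0))
    refine Set.mem_biUnion hz ?_
    rw [mem_closedBall, dist_eq_norm]
    have h2 : ‖V.starProjection (s - s0) - (z : E)‖ ≤ 2 * r / 2 ^ i := hvz
    calc ‖s - (s0 + (z : E))‖ = ‖((s - s0) - V.starProjection (s - s0)) +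
          (V.starProjection (s - s0) - (z : E))‖ := by congr 1; abel
      _ ≤ ‖(s - s0) - V.starProjection (s - s0)‖ + ‖V.starProjection (s - s0) - (z : E)‖ :=
          norm_add_le _ _
      _ ≤ 2 * r / 2 ^ i + 2 * r / 2 ^ i := add_le_add hg h2
      _ = 4 * r / 2 ^ i := by ring
  have hcard : (N.card : ℝ≥0∞) ≤ (3 * 2 ^ i) ^ k := by
    have h3 : (N.card : ℝ) ≤ (3 * 2 ^ i) ^ k := by
      refine hN.trans ?_
      have h4 : 2 * (2 * r) / (2 * r / 2 ^ i) + 1 ≤ 3 * 2 ^ i := by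
        have h5 : 2 * (2 * r) / (2 * r / 2 ^ i) = 2 * 2 ^ i := by field_simp
        rw [h5]
        have : (1 : ℝ) ≤ 2 ^ i := one_le_pow₀ (by norm_num)
        linarith
      calc (2 * (2 * r) / (2 * r / 2 ^ i) + 1) ^ Module.finrank ℝ V
          ≤ (3 * 2 ^ i) ^ Module.finrank ℝ V := by gcongr
        _ ≤ (3 * 2 ^ i) ^ k := by
            apply pow_le_pow_right₀ _ hV
            have : (1 : ℝ) ≤ 2 ^ i := one_le_pow₀ (by norm_num)
            linarith
    have h6 : (N.card : ℝ≥0∞) = ENNReal.ofReal (N.card : ℝ) := by simp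
    rw [h6]
    calc ENNReal.ofReal (N.card : ℝ) ≤ ENNReal.ofReal ((3 * 2 ^ i) ^ k) := ENNReal.ofReal_le_ofReal h3
      _ = (3 * 2 ^ i) ^ k := by
          rw [ENNReal.ofReal_pow (by positivity), ENNReal.ofReal_mul (by norm_num),
            ENNReal.ofReal_pow (by norm_num)]
          norm_num
  calc ν {s | s ∈ closedBall c r ∧ gap V (s - s0) ≤ 2 * r / 2 ^ i}
      ≤ ν (⋃ z ∈ N, closedBall (s0 + (z : E)) (4 * r / 2 ^ i)) := measure_mono hsub
    _ ≤ ∑ z ∈ N, ν (closedBall (s0 + (z : E)) (4 * r / 2 ^ i)) := measure_biUnion_finset_le _ _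
    _ ≤ ∑ _z ∈ N, a * ENNReal.ofReal (4 * r / 2 ^ i) ^ β := by
        apply Finset.sum_le_sum
        intro z _
        exact hν _ _ (by positivity)
    _ = N.card * (a * ENNReal.ofReal (4 * r / 2 ^ i) ^ β) := by
        rw [Finset.sum_const, nsmul_eq_mul]
    _ ≤ _ := by gcongr

lemma gap_inv_le_tsum (n : ℕ) (r g : ℝ) (hr : 0 < r) (hg0 : 0 ≤ g) (hg : g ≤ 2 * r) :
    ((ENNReal.ofReal g)⁻¹) ^ n ≤
      ∑' i : ℕ, (if g ≤ 2 * r / 2 ^ i then ((ENNReal.ofReal (r / 2 ^ i))⁻¹) ^ n else 0) := by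
  by_cases hg00 : g = 0
  · subst hg00
    rcases Nat.eq_zero_or_pos n with hn | hn
    · subst hn
      simp only [pow_zero]
      refine le_trans ?_ (ENNReal.le_tsum 0)
      simp [hr.le]
    · have htop : ∑' i : ℕ, (if (0:ℝ) ≤ 2 * r / 2 ^ i then
          ((ENNReal.ofReal (r / 2 ^ i))⁻¹) ^ n else 0) = ⊤ := by
        apply ENNReal.eq_top_of_forall_nnreal_le
        intro C
        obtain ⟨i, hi⟩ := pow_unbounded_of_one_lt (max (C : ℝ) 1 * r) (by norm_num : (1:ℝ) < 2)
        refine le_trans ?_ (ENNReal.le_tsum i)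
        rw [if_pos (by positivity)]
        have h1 : max (C : ℝ) 1 ≤ 2 ^ i / r := by
          rw [le_div_iff₀ hr]; exact hi.le
        have h2 : (ENNReal.ofReal (r / 2 ^ i))⁻¹ = ENNReal.ofReal (2 ^ i / r) := by
          rw [← ENNReal.ofReal_inv_of_pos (by positivity), inv_div]
        rw [h2, ← ENNReal.ofReal_pow (by positivity)]
        have h3 : (C : ℝ) ≤ (2 ^ i / r) ^ n := by
          have h4 : 1 ≤ 2 ^ i / r := le_trans (le_max_right _ _) h1
          calc (C : ℝ) ≤ 2 ^ i / r := le_trans (le_max_left _ _) h1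
            _ ≤ (2 ^ i / r) ^ n := le_self_pow₀ h4 (by omega)
        calc (C : ℝ≥0∞) = ENNReal.ofReal (C : ℝ) := by simp
          _ ≤ _ := ENNReal.ofReal_le_ofReal h3
      rw [htop]; exact le_top
  · have hgpos : 0 < g := lt_of_le_of_ne hg0 (Ne.symm hg00)
    -- find the scale
    have hex : ∃ i : ℕ, 2 * r / 2 ^ (i + 1) < g := by
      obtain ⟨i, hi⟩ := pow_unbounded_of_one_lt (2 * r / g) (by norm_num : (1:ℝ) < 2)
      refine ⟨i, ?_⟩
      rw [div_lt_iff₀ (by positivity)]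
      rw [div_lt_iff₀ hgpos] at hi
      calc 2 * r < 2 ^ i * g := hi
        _ ≤ g * 2 ^ (i + 1) := by
            rw [pow_succ]; nlinarith [pow_pos (by norm_num : (0:ℝ) < 2) i]
    classical
    set i := Nat.find hex with hi
    have h1 : 2 * r / 2 ^ (i + 1) < g := Nat.find_spec hex
    have h2 : g ≤ 2 * r / 2 ^ i := by
      rcases Nat.eq_zero_or_pos i with h0 | h0
      · rw [h0]; simpa using hg
      · have := Nat.find_min hex (m := i - 1) (by omega)
        push Not at this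
        rwa [Nat.sub_add_cancel h0] at this
    refine le_trans ?_ (ENNReal.le_tsum i)
    rw [if_pos h2]
    gcongr
    have h3 : r / 2 ^ i = 2 * r / 2 ^ (i + 1) := by
      rw [pow_succ]; field_simp
    rw [h3]; exact h1.le

theorem tube_bound (ν : Measure E) (a : ℝ≥0∞) (β n k : ℕ) (hβ : n + k + 1 ≤ β)
    (hν : Frost ν a β) (c s0 : E) (r : ℝ) (hr : 0 < r) (hs0 : s0 ∈ closedBall c r)
    (V : Submodule ℝ E) (hV : Module.finrank ℝ V ≤ k) :
    ∫⁻ s in closedBall c r, ((ENNReal.ofReal (gap V (s - s0)))⁻¹) ^ n ∂ν ≤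
      2 * 3 ^ k * 4 ^ β * a * ENNReal.ofReal r ^ (β - n) := by
  have hmeasT : ∀ i : ℕ, MeasurableSet {s : E | gap V (s - s0) ≤ 2 * r / 2 ^ i} := fun i =>
    measurableSet_le ((gap_continuous V).measurable.comp (measurable_id.sub_const _))
      measurable_const
  calc ∫⁻ s in closedBall c r, ((ENNReal.ofReal (gap V (s - s0)))⁻¹) ^ n ∂ν
      ≤ ∫⁻ s in closedBall c r, ∑' i : ℕ, (if gap V (s - s0) ≤ 2 * r / 2 ^ i then
          ((ENNReal.ofReal (r / 2 ^ i))⁻¹) ^ n else 0) ∂ν := by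
        apply setLIntegral_mono' measurableSet_closedBall
        intro s hs
        apply gap_inv_le_tsum n r _ hr (gap_nonneg _ _)
        refine (gap_le_norm V _).trans ?_
        rw [mem_closedBall, dist_eq_norm] at hs hs0
        calc ‖s - s0‖ = ‖(s - c) - (s0 - c)‖ := by congr 1; abel
          _ ≤ ‖s - c‖ + ‖s0 - c‖ := norm_sub_le _ _
          _ ≤ 2 * r := by linarith
    _ = ∑' i : ℕ, ∫⁻ s in closedBall c r, (if gap V (s - s0) ≤ 2 * r / 2 ^ i then
          ((ENNReal.ofReal (r / 2 ^ i))⁻¹) ^ n else 0) ∂ν := by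
        rw [lintegral_tsum]
        intro i
        exact (Measurable.ite (hmeasT i) measurable_const measurable_const).aemeasurable
    _ ≤ ∑' i : ℕ, 3 ^ k * 4 ^ β * a * ENNReal.ofReal r ^ (β - n) * (2⁻¹ : ℝ≥0∞) ^ i := by
        apply ENNReal.tsum_le_tsum
        intro i
        have h1 : ∫⁻ s in closedBall c r, (if gap V (s - s0) ≤ 2 * r / 2 ^ i then
          ((ENNReal.ofReal (r / 2 ^ i))⁻¹) ^ n else 0) ∂ν =
            ((ENNReal.ofReal (r / 2 ^ i))⁻¹) ^ n *
              ν {s | s ∈ closedBall c r ∧ gap V (s - s0) ≤ 2 * r / 2 ^ i} := by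
          have h2 : ∀ s : E, (if gap V (s - s0) ≤ 2 * r / 2 ^ i then
            ((ENNReal.ofReal (r / 2 ^ i))⁻¹) ^ n else 0) =
            {s : E | gap V (s - s0) ≤ 2 * r / 2 ^ i}.indicator
              (fun _ => ((ENNReal.ofReal (r / 2 ^ i))⁻¹) ^ n) s := by
            intro s
            by_cases hs : gap V (s - s0) ≤ 2 * r / 2 ^ i
            · rw [if_pos hs, Set.indicator_of_mem (by exact hs)]
            · rw [if_neg hs, Set.indicator_of_notMem (by exact hs)]
          simp_rw [h2]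
          rw [lintegral_indicator (hmeasT i), lintegral_const, Measure.restrict_apply MeasurableSet.univ,
            Set.univ_inter, Measure.restrict_apply (hmeasT i)]
          congr 2
          ext s; simp only [Set.mem_inter_iff, Set.mem_ofPred_eq]; tauto
        rw [h1]
        have hR0 : ENNReal.ofReal r ≠ 0 := by simpa using hr
        have hRt : ENNReal.ofReal r ≠ ⊤ := ENNReal.ofReal_ne_top
        have hq : ∀ j : ℕ, (2 : ℝ≥0∞) ^ j ≠ 0 := fun j => pow_ne_zero _ (by norm_num)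
        have hqt : ∀ j : ℕ, (2 : ℝ≥0∞) ^ j ≠ ⊤ := fun j => ENNReal.pow_ne_top (by norm_num)
        have e1 : ENNReal.ofReal (r / 2 ^ i) = ENNReal.ofReal r * ((2 : ℝ≥0∞) ^ i)⁻¹ := by
          rw [ENNReal.ofReal_div_of_pos (by positivity), ENNReal.div_eq_inv_mul, mul_comm,
            ENNReal.ofReal_pow (by norm_num)]
          norm_num
        have e2 : ENNReal.ofReal (4 * r / 2 ^ i) = 4 * ENNReal.ofReal r * ((2 : ℝ≥0∞) ^ i)⁻¹ := by
          rw [mul_div_assoc, ENNReal.ofReal_mul (by norm_num), e1]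
          norm_num [mul_assoc]
        calc ((ENNReal.ofReal (r / 2 ^ i))⁻¹) ^ n *
              ν {s | s ∈ closedBall c r ∧ gap V (s - s0) ≤ 2 * r / 2 ^ i}
            ≤ ((ENNReal.ofReal (r / 2 ^ i))⁻¹) ^ n *
              ((3 * 2 ^ i) ^ k * (a * ENNReal.ofReal (4 * r / 2 ^ i) ^ β)) := by
                gcongr
                exact tube_mass ν a β k hν c s0 r hr hs0 V hV i
          _ = 3 ^ k * 4 ^ β * a * ((ENNReal.ofReal r)⁻¹ ^ n * ENNReal.ofReal r ^ β) *
              (((2 : ℝ≥0∞) ^ i) ^ (n + k) * (((2 : ℝ≥0∞) ^ i)⁻¹) ^ β) := by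
                rw [e1, e2, ENNReal.mul_inv (Or.inl hR0) (Or.inl hRt), inv_inv]
                rw [mul_pow, mul_pow, mul_pow, mul_pow, pow_add]
                ring
          _ ≤ 3 ^ k * 4 ^ β * a * ENNReal.ofReal r ^ (β - n) * (2⁻¹ : ℝ≥0∞) ^ i := by
                have f1 : (ENNReal.ofReal r)⁻¹ ^ n * ENNReal.ofReal r ^ β =
                    ENNReal.ofReal r ^ (β - n) := by
                  obtain ⟨m, rfl⟩ : ∃ m, β = n + m := ⟨β - n, by omega⟩
                  rw [pow_add, ← mul_assoc, ← mul_pow, ENNReal.inv_mul_cancel hR0 hRt, one_pow,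
                    one_mul]
                  congr 1; omega
                have f2 : ((2 : ℝ≥0∞) ^ i) ^ (n + k) * (((2 : ℝ≥0∞) ^ i)⁻¹) ^ β ≤
                    (2⁻¹ : ℝ≥0∞) ^ i := by
                  obtain ⟨m, rfl⟩ : ∃ m, β = (n + k) + (m + 1) := ⟨β - (n + k) - 1, by omega⟩
                  rw [pow_add _ (n + k) (m + 1), ← mul_assoc, ← mul_pow,
                    ENNReal.mul_inv_cancel (hq i) (hqt i), one_pow,
                    one_mul, pow_succ, ENNReal.inv_pow]
                  calc ((2 : ℝ≥0∞)⁻¹ ^ i) ^ m * (2 : ℝ≥0∞)⁻¹ ^ i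
                      ≤ 1 * (2 : ℝ≥0∞)⁻¹ ^ i := by
                        gcongr
                        apply pow_le_one'
                        apply pow_le_one'
                        exact ENNReal.inv_le_one.2 (by norm_num)
                    _ = _ := one_mul _
                rw [f1]
                gcongr
    _ = 3 ^ k * 4 ^ β * a * ENNReal.ofReal r ^ (β - n) * ∑' i : ℕ, (2⁻¹ : ℝ≥0∞) ^ i :=
        ENNReal.tsum_mul_left
    _ = 2 * 3 ^ k * 4 ^ β * a * ENNReal.ofReal r ^ (β - n) := by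
        rw [ENNReal.tsum_geometric]
        have : (1 - (2 : ℝ≥0∞)⁻¹)⁻¹ = 2 := by
          rw [ENNReal.one_sub_inv_two, inv_inv]
        rw [this]; ring

end

end Crest.Agent.SL68
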