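import Mathlib
import Crest.Prelude.Def_StreamLearn

set_option autoImplicit false

/-! # Row 322: image volume and expected volume -/

namespace Crest.Agent.SL68

open MeasureTheory ProbabilityTheory Metric
open scoped ENNReal RealInnerProductSpace

noncomputable section

namespace Vol

/-- Hadamard's inequality with respect to an orthonormal basis. -/
lemma abs_det_le {F : Type*} [NormedAddCommGroup F] [InnerProductSpace ℝ F] {n : ℕ}
    (b : OrthonormalBasis (Fin n) ℝ F) (v : Fin n → F) :
    |(Matrix.of fun i j => ⟪v i, b j⟫).det| ≤ ∏ i, ‖v i‖ := by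
  have : Fact (Module.finrank ℝ F = n) := ⟨by simpa using Module.finrank_eq_card_basis b.toBasis⟩
  have o : Orientation ℝ F (Fin n) := b.toBasis.orientation
  have h1 := o.abs_volumeForm_apply_le v
  rw [o.volumeForm_robust' b] at h1
  have h2 : b.toBasis.det v = (Matrix.of fun i j => ⟪v i, b j⟫).det := by
    rw [Module.Basis.det_apply, ← Matrix.det_transpose]
    congr 1
    ext i j
    simp [Module.Basis.toMatrix_apply, OrthonormalBasis.repr_apply_apply, real_inner_comm]
  rw [← h2]
  exact h1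

/-- The image of a ball of an `n`-dimensional space under `s ↦ (⟪x j, s⟫)_j`. -/
lemma image_volume_aux {F : Type*} [NormedAddCommGroup F] [InnerProductSpace ℝ F] {n : ℕ}
    (b : OrthonormalBasis (Fin n) ℝ F) (x : Fin n → F) (c : F) (r : ℝ) :
    (volume : Measure (Fin n → ℝ)) ((fun s : F => fun j => ⟪x j, s⟫) '' closedBall c r) ≤
      (∏ j, ENNReal.ofReal ‖x j‖) * (volume : Measure (EuclideanSpace ℝ (Fin n))) (closedBall 0 r) := by
  set M : Matrix (Fin n) (Fin n) ℝ := Matrix.of fun i j => ⟪x i, b j⟫ with hM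
  have h1 : ((fun s : F => fun j => ⟪x j, s⟫) '' closedBall c r) =
      (Matrix.toLin' M) '' ((WithLp.ofLp : EuclideanSpace ℝ (Fin n) → (Fin n → ℝ)) ''
        closedBall (b.repr c) r) := by
    have h2 : closedBall (b.repr c) r = b.repr '' closedBall c r := by
      rw [LinearIsometryEquiv.image_closedBall]
    rw [h2, Set.image_image, Set.image_image]
    apply Set.image_congr
    intro s _
    ext j
    rw [Matrix.toLin'_apply, Matrix.mulVec, dotProduct]
    simp only [hM, Matrix.of_apply]
    rw [← b.sum_inner_mul_inner (x j) s]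
    apply Finset.sum_congr rfl
    intro i _
    rw [b.repr_apply_apply]
  rw [h1, Measure.addHaar_image_linearMap, LinearMap.det_toLin']
  apply mul_le_mul
  · rw [← ENNReal.ofReal_prod_of_nonneg (fun _ _ => norm_nonneg _)]
    exact ENNReal.ofReal_le_ofReal (abs_det_le b x)
  · have h3 : (WithLp.ofLp : EuclideanSpace ℝ (Fin n) → (Fin n → ℝ)) ''
        closedBall (b.repr c) r = (WithLp.toLp 2) ⁻¹' (closedBall (b.repr c) r) := by
      ext y
      constructor
      · rintro ⟨z, hz, rfl⟩
        simpa using hz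
      · intro hy
        exact ⟨WithLp.toLp 2 y, hy, rfl⟩
    rw [h3, (PiLp.volume_preserving_toLp (Fin n)).measure_preimage
      isClosed_closedBall.measurableSet.nullMeasurableSet]
    rw [Measure.addHaar_closedBall_center]
  · exact bot_le
  · exact bot_le

end Vol

/-- (1b) IMAGE VOLUME. -/
theorem image_volume {d n : ℕ} (x : Fin n → EuclideanSpace ℝ (Fin d)) (c : EuclideanSpace ℝ (Fin d))
    (r : ℝ) (_hr : 0 ≤ r) :
    (volume : Measure (Fin n → ℝ))
      ((fun s : EuclideanSpace ℝ (Fin d) => fun j => ⟪x j, s⟫) '' closedBall c r) ≤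
      (∏ j, ENNReal.ofReal ‖x j‖) *
        (volume : Measure (EuclideanSpace ℝ (Fin n))) (closedBall 0 r) := by
  set V : Submodule ℝ (EuclideanSpace ℝ (Fin d)) := Submodule.span ℝ (Set.range x) with hV
  have hxV : ∀ j, x j ∈ V := fun j => Submodule.subset_span ⟨j, rfl⟩
  have hdim : Module.finrank ℝ V ≤ n := by
    have := finrank_range_le_card (R := ℝ) (b := x)
    rw [Fintype.card_fin] at this
    exact this
  -- the projection
  have hproj : ∀ (j : Fin n) (s : EuclideanSpace ℝ (Fin d)),
      ⟪x j, s⟫ = ⟪(⟨x j, hxV j⟩ : V), V.orthogonalProjectionOnto s⟫ := by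
    intro j s
    rw [Submodule.coe_inner]
    exact (Submodule.inner_orthogonalProjectionOnto_eq_of_mem_left (K := V) ⟨x j, hxV j⟩ s).symm
  have hsub : ((fun s : EuclideanSpace ℝ (Fin d) => fun j => ⟪x j, s⟫) '' closedBall c r) ⊆
      ((fun s : V => fun j => ⟪(⟨x j, hxV j⟩ : V), s⟫) ''
        closedBall (V.orthogonalProjectionOnto c) r) := by
    rintro _ ⟨s, hs, rfl⟩
    refine ⟨V.orthogonalProjectionOnto s, ?_, ?_⟩
    · rw [mem_closedBall, dist_eq_norm] at hs ⊢
      rw [← map_sub]
      exact (V.norm_orthogonalProjectionOnto_apply_le _).trans hs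
    · ext j
      exact (hproj j s).symm
  rcases hdim.lt_or_eq with hlt | heq
  · -- degenerate case: measure zero
    have h0 : (volume : Measure (Fin n → ℝ)) ((fun s : V => fun j => ⟪(⟨x j, hxV j⟩ : V), s⟫) ''
        closedBall (V.orthogonalProjectionOnto c) r) = 0 := by
      let L : V →ₗ[ℝ] (Fin n → ℝ) := LinearMap.pi fun j => (innerₗ V (⟨x j, hxV j⟩ : V))
      have hL : ((fun s : V => fun j => ⟪(⟨x j, hxV j⟩ : V), s⟫) ''
        closedBall (V.orthogonalProjectionOnto c) r) ⊆ (LinearMap.range L : Set (Fin n → ℝ)) := by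
        rintro _ ⟨s, _, rfl⟩
        exact ⟨s, by ext j; simp [L]⟩
      refine measure_mono_null hL (Measure.addHaar_submodule _ _ ?_)
      intro htop
      have h1 := LinearMap.finrank_range_le L
      rw [htop, finrank_top] at h1
      simp at h1
      omega
    exact (measure_mono hsub).trans (h0.le.trans bot_le)
  · let b : OrthonormalBasis (Fin n) ℝ V := (stdOrthonormalBasis ℝ V).reindex (finCongr heq)
    refine (measure_mono hsub).trans ?_
    have := Vol.image_volume_aux b (fun j => (⟨x j, hxV j⟩ : V)) (V.orthogonalProjectionOnto c) r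
    simpa using this

namespace Vol

lemma lintegral_pi_prod {α : Type*} [MeasurableSpace α] (μ : Measure α) [SigmaFinite μ]
    (f : α → ℝ≥0∞) (hf : Measurable f) (n : ℕ) :
    ∫⁻ x : Fin n → α, ∏ i, f (x i) ∂(Measure.pi fun _ => μ) = (∫⁻ x, f x ∂μ) ^ n := by
  induction n with
  | zero => simp
  | succ n ih =>
    rw [← ((measurePreserving_piFinSuccAbove (fun _ : Fin (n+1) => μ) 0).symm).lintegral_comp_emb
      (MeasurableEquiv.measurableEmbedding _)]
    simp only [MeasurableEquiv.piFinSuccAbove_symm_apply, Fin.insertNthEquiv, Fin.prod_univ_succ,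
      Fin.insertNth_zero, Equiv.coe_fn_mk, Fin.cons_succ, Fin.zero_succAbove, cast_eq,
      Fin.cons_zero]
    have := lintegral_prod_mul (μ := μ) (ν := Measure.pi fun _ : Fin n => μ) (f := f)
      (g := fun y => ∏ i, f (y i)) hf.aemeasurable
      (Finset.measurable_prod _ (fun i _ => hf.comp (measurable_pi_apply i))).aemeasurable
    rw [this, ih, pow_succ']

lemma lintegral_sq_gaussian : ∫⁻ t : ℝ, ENNReal.ofReal (t ^ 2) ∂(gaussianReal 0 1) = 1 := by
  have h := variance_id_gaussianReal (μ := 0) (v := 1)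
  have h2 : ∫ t : ℝ, t ^ 2 ∂(gaussianReal 0 1) = 1 := by
    rw [variance_eq_sub (by exact memLp_id_gaussianReal 2)] at h
    simpa using h
  rw [← ofReal_integral_eq_lintegral_ofReal, h2]
  · simp
  · by_contra hn
    rw [integral_undef hn] at h2
    norm_num at h2
  · exact Filter.Eventually.of_forall fun t => sq_nonneg t

lemma lintegral_normsq (d : ℕ) :
    ∫⁻ x : EuclideanSpace ℝ (Fin d), ENNReal.ofReal (‖x‖ ^ 2) ∂(stdGaussian _) = d := by
  rw [← map_pi_eq_stdGaussian, lintegral_map (by fun_prop) (by fun_prop)]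
  have h1 : ∀ y : Fin d → ℝ, ENNReal.ofReal (‖WithLp.toLp 2 y‖ ^ 2)
      = ∑ i, ENNReal.ofReal (y i ^ 2) := by
    intro y
    rw [EuclideanSpace.real_norm_sq_eq, ENNReal.ofReal_sum_of_nonneg (fun _ _ => sq_nonneg _)]
  simp_rw [h1]
  rw [lintegral_finsetSum _ (by fun_prop)]
  have h2 : ∀ i : Fin d, ∫⁻ a : Fin d → ℝ, ENNReal.ofReal (a i ^ 2)
      ∂(Measure.pi fun _ => gaussianReal 0 1) = 1 := by
    intro i
    have := (measurePreserving_eval (fun _ : Fin d => gaussianReal 0 1) i).lintegral_comp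
      (f := fun t : ℝ => ENNReal.ofReal (t ^ 2)) (by fun_prop)
    simp only [Function.eval] at this
    rw [this, lintegral_sq_gaussian]
  simp [h2]

lemma lintegral_one_add_norm {d : ℕ} (hd : 1 ≤ d) :
    ∫⁻ x : EuclideanSpace ℝ (Fin d), ENNReal.ofReal (1 + ‖x‖) ∂(stdGaussian _) ≤
      ENNReal.ofReal (2 * √d) := by
  have hd' : (0 : ℝ) < √d := Real.sqrt_pos.mpr (by exact_mod_cast hd)
  have h1d : (1 : ℝ) ≤ √d := by
    rw [Real.one_le_sqrt]
    exact_mod_cast hd
  have hsq : √(d : ℝ) * √d = d := Real.mul_self_sqrt (by positivity)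
  have h1 : ∀ x : EuclideanSpace ℝ (Fin d), ENNReal.ofReal (1 + ‖x‖) ≤
      ENNReal.ofReal (1 + √d / 2) + ENNReal.ofReal (1 / (2 * √d)) * ENNReal.ofReal (‖x‖ ^ 2) := by
    intro x
    rw [← ENNReal.ofReal_mul (by positivity), ← ENNReal.ofReal_add (by positivity) (by positivity)]
    apply ENNReal.ofReal_le_ofReal
    have h2 : √d / 2 + 1 / (2 * √d) * ‖x‖ ^ 2 - ‖x‖ = (√d - ‖x‖) ^ 2 / (2 * √d) := by
      field_simp
      ring
    have h3 : 0 ≤ (√d - ‖x‖) ^ 2 / (2 * √d) := by positivity
    linarith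
  calc _ ≤ ∫⁻ x : EuclideanSpace ℝ (Fin d), (ENNReal.ofReal (1 + √d / 2) +
        ENNReal.ofReal (1 / (2 * √d)) * ENNReal.ofReal (‖x‖ ^ 2)) ∂(stdGaussian _) :=
        lintegral_mono h1
    _ = ENNReal.ofReal (1 + √d / 2) + ENNReal.ofReal (1 / (2 * √d)) * d := by
        rw [lintegral_add_left measurable_const, lintegral_const_mul _ (by fun_prop),
          lintegral_normsq]
        simp
    _ ≤ _ := by
        rw [show (d : ℝ≥0∞) = ENNReal.ofReal d by simp, ← ENNReal.ofReal_mul (by positivity),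
          ← ENNReal.ofReal_add (by positivity) (by positivity)]
        apply ENNReal.ofReal_le_ofReal
        have h4 : 1 / (2 * √d) * (d : ℝ) = √d / 2 := by
          rw [div_mul_eq_mul_div, one_mul, div_eq_iff (by positivity)]
          nlinarith
        rw [h4]
        linarith

end Vol

/-- (1b') EXPECTATION of the volume bound; holds for all `m ≥ 1` with constant `500000`. -/
theorem expected_volume' {d m : ℕ} (hd : 1 ≤ d) (hm0 : 1 ≤ m) (r : ℝ) :
    ∫⁻ X : Fin (2 * m) → EuclideanSpace ℝ (Fin d), (∏ j, ENNReal.ofReal (1 + ‖X j‖)) *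
        (volume : Measure (EuclideanSpace ℝ (Fin (2 * m)))) (closedBall 0 r)
      ∂(Measure.pi fun _ => stdGaussian (EuclideanSpace ℝ (Fin d))) ≤
      (500000 : ℝ≥0∞) ^ d * ENNReal.ofReal r ^ (2 * m) := by
  have : Nonempty (Fin (2 * m)) := ⟨⟨0, by omega⟩⟩
  have hmeas : Measurable (fun x : EuclideanSpace ℝ (Fin d) => ENNReal.ofReal (1 + ‖x‖)) := by
    fun_prop
  have hmeas2 : Measurable (fun X : Fin (2 * m) → EuclideanSpace ℝ (Fin d) =>
      ∏ j, ENNReal.ofReal (1 + ‖X j‖)) :=
    Finset.measurable_prod _ (fun i _ => hmeas.comp (measurable_pi_apply i))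
  rw [lintegral_mul_const _ hmeas2,
    Vol.lintegral_pi_prod (stdGaussian (EuclideanSpace ℝ (Fin d))) _ hmeas,
    InnerProductSpace.volume_closedBall_of_dim_even (k := m) (by simp)]
  have hfr : Module.finrank ℝ (EuclideanSpace ℝ (Fin (2 * m))) = 2 * m := by simp
  rw [hfr]
  have h1 : (∫⁻ x : EuclideanSpace ℝ (Fin d), ENNReal.ofReal (1 + ‖x‖) ∂(stdGaussian _)) ^ (2 * m)
      * ENNReal.ofReal (Real.pi ^ m / (Nat.factorial m)) ≤ (500000 : ℝ≥0∞) ^ d := by
    calc _ ≤ (ENNReal.ofReal (2 * √d)) ^ (2 * m) *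
          ENNReal.ofReal (Real.pi ^ m / (Nat.factorial m)) := by
          gcongr
          exact Vol.lintegral_one_add_norm hd
      _ = ENNReal.ofReal ((4 * d * Real.pi) ^ m / (Nat.factorial m)) := by
          rw [← ENNReal.ofReal_pow (by positivity), ← ENNReal.ofReal_mul (by positivity)]
          congr 1
          rw [pow_mul, mul_pow, Real.sq_sqrt (by positivity), mul_pow _ Real.pi]
          norm_num
          ring
      _ ≤ ENNReal.ofReal ((500000 : ℝ) ^ d) := by
          apply ENNReal.ofReal_le_ofReal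
          refine (Real.pow_div_factorial_le_exp _ (by positivity) m).trans ?_
          have h5 : 4 * (d : ℝ) * Real.pi ≤ d * 13 := by
            have := Real.pi_lt_d2
            nlinarith [show (0:ℝ) ≤ d by positivity]
          calc Real.exp (4 * d * Real.pi) ≤ Real.exp (d * 13) := Real.exp_le_exp.mpr h5
            _ = (Real.exp 13) ^ d := by rw [← Real.exp_nat_mul]
            _ ≤ _ := by
              gcongr
              have h6 : Real.exp 13 = (Real.exp 1) ^ 13 := by
                rw [← Real.exp_nat_mul]; norm_num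
              rw [h6]
              calc (Real.exp 1) ^ 13 ≤ (2.7182818286 : ℝ) ^ 13 := by
                    gcongr
                    exact Real.exp_one_lt_d9.le
                _ ≤ 500000 := by norm_num
      _ = (500000 : ℝ≥0∞) ^ d := by
          rw [ENNReal.ofReal_pow (by norm_num)]
          norm_num
  calc _ = ((∫⁻ x : EuclideanSpace ℝ (Fin d), ENNReal.ofReal (1 + ‖x‖) ∂(stdGaussian _)) ^ (2 * m)
      * ENNReal.ofReal (Real.pi ^ m / (Nat.factorial m))) * ENNReal.ofReal r ^ (2 * m) := by ring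
    _ ≤ _ := by gcongr

end

end Crest.Agent.SL68
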