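import Mathlib
import Crest.Agent.SL68.Tube
import Crest.Agent.SL68.Disjoint
import Crest.Agent.SL68.Volume

set_option autoImplicit false

namespace Crest.Agent.SL68

open MeasureTheory ProbabilityTheory Metric
open scoped ENNReal RealInnerProductSpace

noncomputable section

/-- Hölder with natural exponents. -/
lemma holder_nat {α : Type*} [MeasurableSpace α] (μ : Measure α) (p : ℕ) (hp : 2 ≤ p)
    (F W G : α → ℝ≥0∞) (hW : Measurable W) (hG : Measurable G)
    (h : ∀ x, (F x) ^ p ≤ (W x) ^ (p - 1) * G x) :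
    (∫⁻ x, F x ∂μ) ^ p ≤ (∫⁻ x, W x ∂μ) ^ (p - 1) * ∫⁻ x, G x ∂μ := by
  have hp0 : (0 : ℝ) < p := by positivity
  have hp1 : (1 : ℝ) < p := by exact_mod_cast hp
  have hpsub : ((p - 1 : ℕ) : ℝ) = (p : ℝ) - 1 := by
    rw [Nat.cast_sub (by omega)]; simp
  have hpp : (0 : ℝ) < (p : ℝ) - 1 := by linarith
  -- pointwise
  have h1 : ∀ x, F x ≤ (W x) ^ (((p : ℝ) - 1) / p) * (G x) ^ (1 / (p : ℝ)) := by
    intro x
    have h2 : F x = ((F x) ^ p) ^ (1 / (p : ℝ)) := by
      rw [← ENNReal.rpow_natCast, ← ENNReal.rpow_mul, mul_one_div_cancel hp0.ne', ENNReal.rpow_one]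
    rw [h2]
    calc ((F x) ^ p) ^ (1 / (p : ℝ)) ≤ ((W x) ^ (p - 1) * G x) ^ (1 / (p : ℝ)) :=
          ENNReal.rpow_le_rpow (h x) (by positivity)
      _ = ((W x) ^ (p - 1)) ^ (1 / (p : ℝ)) * (G x) ^ (1 / (p : ℝ)) :=
          ENNReal.mul_rpow_of_nonneg _ _ (by positivity)
      _ = _ := by
          congr 1
          rw [← ENNReal.rpow_natCast, ← ENNReal.rpow_mul, hpsub, mul_one_div]
  have hconj : ((p : ℝ) / ((p : ℝ) - 1)).HolderConjugate (p : ℝ) := by
    rw [Real.holderConjugate_iff]
    constructor
    · rw [lt_div_iff₀ hpp]; linarith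
    · field_simp; ring
  have h3 : ∫⁻ x, F x ∂μ ≤ (∫⁻ x, W x ∂μ) ^ (((p : ℝ) - 1) / p) * (∫⁻ x, G x ∂μ) ^ (1 / (p : ℝ)) := by
    calc ∫⁻ x, F x ∂μ ≤ ∫⁻ x, ((fun x => (W x) ^ (((p : ℝ) - 1) / p)) * (fun x => (G x) ^ (1 / (p : ℝ)))) x ∂μ :=
          lintegral_mono h1
      _ ≤ (∫⁻ x, ((W x) ^ (((p : ℝ) - 1) / p)) ^ ((p : ℝ) / ((p : ℝ) - 1)) ∂μ) ^ (1 / ((p : ℝ) / ((p : ℝ) - 1))) *
          (∫⁻ x, ((G x) ^ (1 / (p : ℝ))) ^ (p : ℝ) ∂μ) ^ (1 / (p : ℝ)) :=
          ENNReal.lintegral_mul_le_Lp_mul_Lq μ hconj (hW.pow_const _).aemeasurable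
            (hG.pow_const _).aemeasurable
      _ = _ := by
          congr 1
          · rw [one_div_div]
            congr 1
            apply lintegral_congr
            intro x
            rw [← ENNReal.rpow_mul]
            rw [show ((p : ℝ) - 1) / p * (p / (p - 1)) = 1 by field_simp]
            exact ENNReal.rpow_one _
          · congr 1
            apply lintegral_congr
            intro x
            rw [← ENNReal.rpow_mul, one_div_mul_cancel hp0.ne']
            exact ENNReal.rpow_one _
  calc (∫⁻ x, F x ∂μ) ^ p ≤ ((∫⁻ x, W x ∂μ) ^ (((p : ℝ) - 1) / p) * (∫⁻ x, G x ∂μ) ^ (1 / (p : ℝ))) ^ p := by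
        gcongr
    _ = _ := by
        rw [mul_pow]
        congr 1
        · rw [← ENNReal.rpow_natCast, ← ENNReal.rpow_mul, div_mul_cancel₀ _ hp0.ne', ← hpsub,
            ENNReal.rpow_natCast]
        · rw [← ENNReal.rpow_natCast, ← ENNReal.rpow_mul, one_div_mul_cancel hp0.ne', ENNReal.rpow_one]

/-- the measurement map -/
def meas {d n : ℕ} (X : Fin n → EuclideanSpace ℝ (Fin d)) (s : EuclideanSpace ℝ (Fin d)) :
    Fin n → ℝ := fun j => ⟪X j, s⟫

lemma meas_continuous {d n : ℕ} (X : Fin n → EuclideanSpace ℝ (Fin d)) : Continuous (meas X) := by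
  unfold meas; fun_prop

lemma meas_measurable2 {d n : ℕ} : Measurable
    (fun q : (Fin n → EuclideanSpace ℝ (Fin d)) × EuclideanSpace ℝ (Fin d) => meas q.1 q.2) := by
  unfold meas
  apply measurable_pi_lambda
  intro j
  fun_prop

theorem block_core {d n p β : ℕ} (hn : 1 ≤ n) (hp : 2 ≤ p) (hβ : n + p ≤ β)
    (V0 K : ℝ≥0∞) (hK1 : 1 ≤ K) (hK : V0 * (2 * 3 ^ (p - 1) * 4 ^ β) ≤ K)
    (hV : ∀ r : ℝ, 0 < r → ∫⁻ X : Fin n → EuclideanSpace ℝ (Fin d), (∏ j, ENNReal.ofReal (1 + ‖X j‖)) *
        (volume : Measure (EuclideanSpace ℝ (Fin n))) (closedBall 0 r)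
      ∂(Measure.pi fun _ => stdGaussian (EuclideanSpace ℝ (Fin d))) ≤ V0 * ENNReal.ofReal r ^ n)
    {ι : Type} [Fintype ι] [MeasurableSpace ι] [MeasurableSingletonClass ι]
    (L : ℝ≥0∞) (hL : (Fintype.card ι : ℝ≥0∞) ≤ L ^ p)
    (σ : Measure (EuclideanSpace ℝ (Fin d))) [IsFiniteMeasure σ] (a : ℝ≥0∞)
    (w : ι → EuclideanSpace ℝ (Fin d) → ℝ≥0∞)
    (hw : ∀ i, Measurable (w i)) (hw1 : ∀ i s, w i s ≤ 1)
    (hF : ∀ i, Frost (σ.withDensity (w i)) a β)
    (f : (Fin n → EuclideanSpace ℝ (Fin d)) → (Fin n → ℝ) → ι)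
    (hf : Measurable (Function.uncurry f)) :
    Frost (σ.withDensity (fun s => ∫⁻ X, w (f X (meas X s)) s
      ∂(Measure.pi fun _ => stdGaussian (EuclideanSpace ℝ (Fin d))))) (L * K * a) β := by
  intro c r hr
  classical
  set P : Measure (Fin n → EuclideanSpace ℝ (Fin d)) :=
    Measure.pi fun _ => stdGaussian (EuclideanSpace ℝ (Fin d)) with hP
  set B := closedBall c r with hB
  have hBmeas : MeasurableSet B := measurableSet_closedBall
  set ν : ι → Measure (EuclideanSpace ℝ (Fin d)) := fun i => (σ.withDensity (w i)).restrict B with hνdef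
  have hfinw : ∀ i, IsFiniteMeasure (σ.withDensity (w i)) := by
    intro i
    apply isFiniteMeasure_withDensity
    refine ((lintegral_mono (hw1 i)).trans_lt ?_).ne
    rw [lintegral_const]
    exact ENNReal.mul_lt_top (by norm_num) (measure_lt_top _ _)
  have hfin : ∀ i, IsFiniteMeasure (ν i) := by
    intro i
    have := hfinw i
    simp only [hνdef]
    infer_instance
  -- F(X)
  set F : (Fin n → EuclideanSpace ℝ (Fin d)) → ℝ≥0∞ := fun X =>
    ∑ i, ((ν i).map (meas X)) {y | f X y = i} with hFdef
  have hfX : ∀ X, Measurable (f X) := fun X => hf.comp (measurable_const.prodMk measurable_id)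
  have hYmeas : ∀ X i, MeasurableSet {y | f X y = i} := fun X i =>
    (hfX X) (measurableSet_singleton i)
  have step1 : (σ.withDensity (fun s => ∫⁻ X, w (f X (meas X s)) s ∂P)) B = ∫⁻ X, F X ∂P := by
    rw [withDensity_apply _ hBmeas, lintegral_lintegral_swap]
    · apply lintegral_congr
      intro X
      simp only [hFdef]
      have h1 : ∀ i, ((ν i).map (meas X)) {y | f X y = i} =
          ∫⁻ s in B, {s | f X (meas X s) = i}.indicator (w i) s ∂σ := by
        intro i
        have hS : MeasurableSet {s | f X (meas X s) = i} :=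
          ((hfX X).comp (meas_continuous X).measurable) (measurableSet_singleton i)
        rw [Measure.map_apply (meas_continuous X).measurable (hYmeas X i)]
        simp only [hνdef]
        rw [Measure.restrict_apply ((meas_continuous X).measurable (hYmeas X i)),
          withDensity_apply _ (((meas_continuous X).measurable (hYmeas X i)).inter hBmeas),
          lintegral_indicator hS, Measure.restrict_restrict hS]
        rfl
      simp_rw [h1]
      rw [← lintegral_finsetSum]
      · apply lintegral_congr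
        intro s
        rw [Finset.sum_eq_single (f X (meas X s))]
        · rw [Set.indicator_of_mem]; rfl
        · intro i _ hi
          rw [Set.indicator_of_notMem]
          exact fun h => hi (by exact h.symm)
        · intro h; exact absurd (Finset.mem_univ _) h
      · intro i _
        exact (hw i).indicator (((hfX X).comp (meas_continuous X).measurable)
          (measurableSet_singleton i))
    · apply Measurable.aemeasurable
      -- measurability of (s, X) ↦ w (f X (meas X s)) s
      have h2 : (Function.uncurry fun (s : EuclideanSpace ℝ (Fin d))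
          (X : Fin n → EuclideanSpace ℝ (Fin d)) => w (f X (meas X s)) s) =
          fun z => ∑ i, {z : EuclideanSpace ℝ (Fin d) × (Fin n → EuclideanSpace ℝ (Fin d)) |
            f z.2 (meas z.2 z.1) = i}.indicator (fun z => w i z.1) z := by
        ext z
        simp only [Function.uncurry]
        rw [Finset.sum_eq_single (f z.2 (meas z.2 z.1))]
        · rw [Set.indicator_of_mem]; rfl
        · intro i _ hi
          rw [Set.indicator_of_notMem]
          exact fun h => hi (by exact h.symm)
        · intro h; exact absurd (Finset.mem_univ _) h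
      rw [h2]
      apply Finset.measurable_sum
      intro i _
      apply ((hw i).comp measurable_fst).indicator
      have h3 : Measurable (fun z : EuclideanSpace ℝ (Fin d) × (Fin n → EuclideanSpace ℝ (Fin d)) =>
          Function.uncurry f (z.2, meas z.2 z.1)) :=
        hf.comp (measurable_snd.prodMk (meas_measurable2.comp (measurable_snd.prodMk measurable_fst)))
      exact h3 (measurableSet_singleton i)
  -- W(X) and G(X)
  set W : (Fin n → EuclideanSpace ℝ (Fin d)) → ℝ≥0∞ := fun X =>
    (∏ j, ENNReal.ofReal (1 + ‖X j‖)) *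
        (volume : Measure (EuclideanSpace ℝ (Fin n))) (closedBall 0 r) with hWdef
  have hWmeas : Measurable W := by
    simp only [hWdef]
    apply Measurable.mul_const
    apply Finset.measurable_prod
    intro j _
    fun_prop
  set h : ℕ → ℝ := fun k => 1 / ((k : ℝ) + 1) with hhdef
  have hh0 : ∀ k, 0 < h k := fun k => by simp only [hhdef]; positivity
  set G : (Fin n → EuclideanSpace ℝ (Fin d)) → ℝ≥0∞ := fun X =>
    Filter.liminf (fun k : ℕ => ∑ i, ∫⁻ y : Fin n → ℝ, (cubeMass (ν i) (h k) X y /
        (ENNReal.ofReal (2 * h k)) ^ n) ^ p ∂volume) Filter.atTop with hGdef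
  have hmeasK : ∀ k, Measurable (fun X : Fin n → EuclideanSpace ℝ (Fin d) =>
      ∑ i, ∫⁻ y : Fin n → ℝ, (cubeMass (ν i) (h k) X y /
        (ENNReal.ofReal (2 * h k)) ^ n) ^ p ∂volume) := by
    intro k
    apply Finset.measurable_sum
    intro i _
    have := hfin i
    have h4 : Measurable (Function.uncurry fun (X : Fin n → EuclideanSpace ℝ (Fin d)) (y : Fin n → ℝ) =>
        (cubeMass (ν i) (h k) X y / (ENNReal.ofReal (2 * h k)) ^ n) ^ p) :=
      ((cubeMass_measurable (ν i) (h k)).div_const _).pow_const p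
    exact h4.lintegral_prod_right'
  have hGmeas : Measurable G := Measurable.liminf hmeasK
  have step2 : ∀ X, (F X) ^ p ≤ (W X) ^ (p - 1) * G X := by
    intro X
    have hΩc : IsCompact (meas X '' B) := (isCompact_closedBall c r).image (meas_continuous X)
    have hfin' : ∀ i, IsFiniteMeasure ((ν i).map (meas X)) := by
      intro i; have := hfin i; infer_instance
    have hlt : volume (meas X '' B) < W X := by
      refine lt_of_le_of_lt (image_volume X c r hr.le) ?_
      simp only [hWdef]
      have hv0 : (volume : Measure (EuclideanSpace ℝ (Fin n))) (closedBall 0 r) ≠ 0 :=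
        (measure_closedBall_pos volume _ hr).ne'
      have hvt : (volume : Measure (EuclideanSpace ℝ (Fin n))) (closedBall 0 r) ≠ ⊤ :=
        measure_closedBall_lt_top.ne
      rw [ENNReal.mul_lt_mul_iff_left hv0 hvt]
      rw [← ENNReal.ofReal_prod_of_nonneg (fun j _ => norm_nonneg _),
        ← ENNReal.ofReal_prod_of_nonneg (fun j _ => by positivity)]
      rw [ENNReal.ofReal_lt_ofReal_iff (by positivity)]
      have hgen : ∀ S : Finset (Fin n), S.Nonempty →
          ∏ j ∈ S, ‖X j‖ < ∏ j ∈ S, (1 + ‖X j‖) := by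
        intro S hS
        induction hS using Finset.Nonempty.cons_induction with
        | singleton j => simp
        | cons j S hj hS ih =>
          rw [Finset.prod_cons, Finset.prod_cons]
          have h1 : 0 ≤ ∏ j ∈ S, ‖X j‖ := Finset.prod_nonneg fun _ _ => norm_nonneg _
          have h2 : 0 ≤ ‖X j‖ := norm_nonneg _
          nlinarith
      exact hgen Finset.univ ⟨⟨0, hn⟩, Finset.mem_univ _⟩
    have := disjoint_moment (p := p) (by omega) (fun i => (ν i).map (meas X))
      (fun i => {y | f X y = i}) (hYmeas X) (by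
        intro i j hij
        rw [Function.onFun, Set.disjoint_left]
        intro y hy hy'
        exact hij (hy.symm.trans hy')) (meas X '' B) hΩc.measurableSet (by
        intro i
        rw [Measure.map_apply (meas_continuous X).measurable hΩc.measurableSet.compl]
        simp only [hνdef]
        rw [Measure.restrict_apply ((meas_continuous X).measurable hΩc.measurableSet.compl)]
        convert measure_empty (μ := σ.withDensity (w i))
        ext s
        simp only [Set.preimage_compl, Set.mem_inter_iff, Set.mem_compl_iff, Set.mem_preimage,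
          Set.mem_empty_iff_false, iff_false, not_and]
        intro h1 h2
        exact h1 ⟨s, h2, rfl⟩) (W X) hlt
    refine this.trans (le_of_eq ?_)
    congr 1
    simp only [hGdef]
    congr 1
    ext k
    apply Finset.sum_congr rfl
    intro i _
    apply lintegral_congr
    intro y
    congr 2
    · rw [Measure.map_apply (meas_continuous X).measurable]
      · rfl
      · rw [show {z : Fin n → ℝ | ∀ j, |z j - y j| ≤ 1 / ((k : ℝ) + 1)} =
          ⋂ j, {z : Fin n → ℝ | |z j - y j| ≤ 1 / ((k : ℝ) + 1)} by ext s; simp]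
        exact MeasurableSet.iInter fun j => measurableSet_le (by fun_prop) measurable_const
    · congr 2
      simp only [hhdef]; ring
  have step3 : (∫⁻ X, F X ∂P) ^ p ≤ (∫⁻ X, W X ∂P) ^ (p - 1) * ∫⁻ X, G X ∂P :=
    holder_nat P p hp F W G hWmeas hGmeas step2
  have step4 : ∫⁻ X, W X ∂P ≤ V0 * ENNReal.ofReal r ^ n := hV r hr
  set R := ENNReal.ofReal r with hR
  set Q : ℝ≥0∞ := 2 * 3 ^ (p - 1) * 4 ^ β * a * R ^ (β - n) with hQdef
  have step5 : ∫⁻ X, G X ∂P ≤ (Fintype.card ι : ℝ≥0∞) * (Q ^ (p - 1) * (a * R ^ β)) := by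
    calc ∫⁻ X, G X ∂P ≤ Filter.liminf (fun k : ℕ => ∫⁻ X, ∑ i, ∫⁻ y : Fin n → ℝ, (cubeMass (ν i) (h k) X y /
        (ENNReal.ofReal (2 * h k)) ^ n) ^ p ∂volume ∂P) Filter.atTop := lintegral_liminf_le hmeasK
      _ ≤ Filter.liminf (fun _ : ℕ => (Fintype.card ι : ℝ≥0∞) * (Q ^ (p - 1) * (a * R ^ β))) Filter.atTop := by
          refine Filter.liminf_le_liminf (Filter.Eventually.of_forall fun k => ?_)
          rw [lintegral_finsetSum]
          · calc ∑ i, ∫⁻ X, ∫⁻ y : Fin n → ℝ, (cubeMass (ν i) (h k) X y /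
                  (ENNReal.ofReal (2 * h k)) ^ n) ^ p ∂volume ∂P
                ≤ ∑ _i : ι, Q ^ (p - 1) * (a * R ^ β) := by
                  apply Finset.sum_le_sum
                  intro i _
                  have := hfin i
                  have hz0 : (ENNReal.ofReal (2 * h k)) ^ n ≠ 0 := by
                    apply pow_ne_zero; have := hh0 k; simpa using this
                  have hzt : (ENNReal.ofReal (2 * h k)) ^ n ≠ ⊤ := ENNReal.pow_ne_top ENNReal.ofReal_ne_top
                  have hkm := kernel_moment (n := n) (ν i) (h k) (hh0 k) (p - 1) Q (by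
                    have hae : ∀ᵐ s0 ∂(ν i), s0 ∈ B := ae_restrict_mem hBmeas
                    filter_upwards [hae] with s0 hs0 V hV
                    exact tube_bound (σ.withDensity (w i)) a β n (p - 1) (by omega) (hF i) c s0 r hr hs0 V hV)
                  rw [Nat.sub_add_cancel (by omega : 1 ≤ p)] at hkm
                  set z := (ENNReal.ofReal (2 * h k)) ^ n with hz
                  calc ∫⁻ X, ∫⁻ y : Fin n → ℝ, (cubeMass (ν i) (h k) X y / z) ^ p ∂volume ∂P
                      = (∫⁻ X, ∫⁻ y : Fin n → ℝ, (cubeMass (ν i) (h k) X y) ^ p ∂volume ∂P) * (z⁻¹) ^ p := by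
                        simp_rw [ENNReal.div_eq_inv_mul, mul_pow]
                        rw [← lintegral_mul_const]
                        · apply lintegral_congr
                          intro X
                          rw [lintegral_const_mul, mul_comm]
                          exact ((cubeMass_measurable (ν i) (h k)).comp
                            (measurable_const.prodMk measurable_id)).pow_const p
                        · exact Measurable.lintegral_prod_right'
                            ((cubeMass_measurable (ν i) (h k)).pow_const p)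
                    _ ≤ (z * ((z * Q) ^ (p - 1) * (ν i) Set.univ)) * (z⁻¹) ^ p := by gcongr
                    _ = (z * z⁻¹) ^ p * (Q ^ (p - 1) * (ν i) Set.univ) := by
                        obtain ⟨q, rfl⟩ : ∃ q, p = q + 1 := ⟨p - 1, by omega⟩
                        simp only [Nat.add_sub_cancel]
                        rw [mul_pow, mul_pow, pow_succ, pow_succ]; ring
                    _ = Q ^ (p - 1) * (ν i) Set.univ := by
                        rw [ENNReal.mul_inv_cancel hz0 hzt, one_pow, one_mul]
                    _ ≤ Q ^ (p - 1) * (a * R ^ β) := by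
                        gcongr
                        simp only [hνdef]
                        rw [Measure.restrict_apply MeasurableSet.univ, Set.univ_inter]
                        exact hF i c r hr
              _ = _ := by
                  rw [Finset.sum_const, nsmul_eq_mul]; rfl
          · intro i _
            have := hfin i
            have h4 : Measurable (Function.uncurry fun (X : Fin n → EuclideanSpace ℝ (Fin d)) (y : Fin n → ℝ) =>
                (cubeMass (ν i) (h k) X y / (ENNReal.ofReal (2 * h k)) ^ n) ^ p) :=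
              ((cubeMass_measurable (ν i) (h k)).div_const _).pow_const p
            exact h4.lintegral_prod_right'
      _ = _ := by simp
  -- combine
  rw [step1]
  have hfinal : (∫⁻ X, F X ∂P) ^ p ≤ (L * K * a * R ^ β) ^ p := by
    calc (∫⁻ X, F X ∂P) ^ p ≤ (∫⁻ X, W X ∂P) ^ (p - 1) * ∫⁻ X, G X ∂P := step3
      _ ≤ (V0 * R ^ n) ^ (p - 1) * (L ^ p * (Q ^ (p - 1) * (a * R ^ β))) := by
          gcongr
          exact step5.trans (by gcongr)
      _ = L ^ p * ((V0 * (2 * 3 ^ (p - 1) * 4 ^ β)) ^ (p - 1) * ((R ^ n * R ^ (β - n)) ^ (p - 1) *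
            (a ^ (p - 1) * (a * R ^ β)))) := by
          simp only [hQdef, mul_pow]; ring
      _ ≤ L ^ p * (K ^ p * ((R ^ β) ^ (p - 1) *
            (a ^ (p - 1) * (a * R ^ β)))) := by
          have hb3 : R ^ n * R ^ (β - n) = R ^ β := by rw [← pow_add]; congr 1; omega
          rw [hb3]
          refine mul_le_mul' le_rfl (mul_le_mul' ?_ le_rfl)
          calc (V0 * (2 * 3 ^ (p - 1) * 4 ^ β)) ^ (p - 1) ≤ K ^ (p - 1) := by
                gcongr
            _ ≤ K ^ p := pow_le_pow_right₀ hK1 (by omega)
      _ = (L * K * a * R ^ β) ^ p := by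
          obtain ⟨q, rfl⟩ : ∃ q, p = q + 1 := ⟨p - 1, by omega⟩
          simp only [Nat.add_sub_cancel]
          rw [mul_pow, mul_pow, mul_pow]; ring
  exact (ENNReal.pow_le_pow_left_iff (by omega)).1 hfinal

theorem block_lemma : ∃ K0 : ℝ≥0∞, K0 < ⊤ ∧ 1 ≤ K0 ∧ ∀ (d m p β : ℕ), 1 ≤ m → 2 ≤ p → d ≤ 32 * m → 2 * m ≤ d →
    2 * m + p ≤ β → β ≤ d → ∀ {ι : Type} [Fintype ι] [MeasurableSpace ι] [MeasurableSingletonClass ι]
    (L : ℝ≥0∞) (_hL : (Fintype.card ι : ℝ≥0∞) ≤ L ^ p)
    (σ : Measure (EuclideanSpace ℝ (Fin d))) [IsFiniteMeasure σ] (a : ℝ≥0∞)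
    (w : ι → EuclideanSpace ℝ (Fin d) → ℝ≥0∞)
    (_hw : ∀ i, Measurable (w i)) (_hw1 : ∀ i s, w i s ≤ 1)
    (_hF : ∀ i, Frost (σ.withDensity (w i)) a β)
    (f : (Fin (2 * m) → EuclideanSpace ℝ (Fin d)) → (Fin (2 * m) → ℝ) → ι)
    (_hf : Measurable (Function.uncurry f)),
    Frost (σ.withDensity (fun s => ∫⁻ X, w (f X (meas X s)) s
      ∂(Measure.pi fun _ => stdGaussian (EuclideanSpace ℝ (Fin d))))) (L * K0 ^ d * a) β := by
  refine ⟨12000000, by norm_num, by norm_num, ?_⟩
  intro d m p β hm hp hd32 hmd hβ hβd ι _ _ _ L hL σ _ a w hw hw1 hF f hf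
  refine block_core (n := 2 * m) (by omega) hp hβ (500000 ^ d) (12000000 ^ d)
    (one_le_pow₀ (by norm_num)) ?_ ?_ L hL σ a w hw hw1 hF f hf
  · calc (500000 : ℝ≥0∞) ^ d * (2 * 3 ^ (p - 1) * 4 ^ β) ≤ 500000 ^ d * (2 ^ d * 3 ^ d * 4 ^ d) := by
          gcongr
          · exact le_self_pow (by norm_num) (by omega)
          · norm_num
          · omega
          · norm_num
      _ = 12000000 ^ d := by
          rw [← mul_pow, ← mul_pow, ← mul_pow]; norm_num
  · intro r hr
    exact expected_volume' (by omega) hm r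

end

end Crest.Agent.SL68
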