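import Mathlib
import Crest.Prelude.Def_StreamLearn

set_option autoImplicit false

/-! Row 322 (S0499): measure of a cap of the unit sphere. -/

namespace Crest.Agent.SL68

open MeasureTheory Metric Set
open scoped ENNReal Pointwise

noncomputable section

/-- The cone over the part of the sphere at distance at most `ρ` from `c` is covered by balls of radius
`2ρ` centred at the multiples `jρc`. -/
theorem cone_subset {d : ℕ} (c : EuclideanSpace ℝ (Fin d)) (ρ : ℝ) (hρ : 0 < ρ) :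
    (Ioo (0 : ℝ) 1 • ((↑) '' {s : Crest.StreamLearn.Sphere d | dist (s : EuclideanSpace ℝ (Fin d)) c ≤ ρ}) :
      Set (EuclideanSpace ℝ (Fin d))) ⊆
      ⋃ j ∈ Finset.range (⌊1 / ρ⌋₊ + 1), closedBall (((j : ℝ) * ρ) • c) (ρ * 2) := by
  rintro x ⟨t, ht, y, ⟨s, hs, rfl⟩, rfl⟩
  simp only [mem_ofPred_eq] at hs
  simp only [mem_iUnion, Finset.mem_range, mem_closedBall, exists_prop]
  have hs1 : ‖(s : EuclideanSpace ℝ (Fin d))‖ = 1 := by simpa using s.2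
  refine ⟨⌊t / ρ⌋₊, ?_, ?_⟩
  · have : ⌊t / ρ⌋₊ ≤ ⌊1 / ρ⌋₊ := Nat.floor_mono (by gcongr; exact ht.2.le)
    omega
  · have hj1 : (⌊t / ρ⌋₊ : ℝ) * ρ ≤ t := by
      have := Nat.floor_le (a := t / ρ) (by have := ht.1; positivity)
      calc (⌊t / ρ⌋₊ : ℝ) * ρ ≤ (t / ρ) * ρ := by gcongr
        _ = t := by field_simp
    have hj2 : t ≤ (⌊t / ρ⌋₊ : ℝ) * ρ + ρ := by
      have := (Nat.lt_floor_add_one (t / ρ)).le
      calc t = (t / ρ) * ρ := by field_simp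
        _ ≤ (⌊t / ρ⌋₊ + 1 : ℝ) * ρ := by gcongr
        _ = _ := by ring
    set j : ℝ := (⌊t / ρ⌋₊ : ℝ)
    have hj0 : 0 ≤ j * ρ := by positivity
    have e : t • (s : EuclideanSpace ℝ (Fin d)) - (j * ρ) • c
        = (t - j * ρ) • (s : EuclideanSpace ℝ (Fin d)) + (j * ρ) • ((s : EuclideanSpace ℝ (Fin d)) - c) := by
      module
    rw [dist_eq_norm]
    show ‖t • (s : EuclideanSpace ℝ (Fin d)) - (j * ρ) • c‖ ≤ ρ * 2
    rw [e]
    calc _ ≤ ‖(t - j * ρ) • (s : EuclideanSpace ℝ (Fin d))‖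
          + ‖(j * ρ) • ((s : EuclideanSpace ℝ (Fin d)) - c)‖ := norm_add_le _ _
      _ = |t - j * ρ| * 1 + |j * ρ| * ‖(s : EuclideanSpace ℝ (Fin d)) - c‖ := by
          rw [norm_smul, norm_smul, hs1, Real.norm_eq_abs, Real.norm_eq_abs]
      _ ≤ ρ * 1 + 1 * ρ := by
          rw [dist_eq_norm] at hs
          gcongr
          · rw [abs_of_nonneg (by linarith)]; linarith
          · rw [abs_of_nonneg hj0]; linarith [ht.2]
      _ = ρ * 2 := by ring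

theorem cap_bound' {d : ℕ} (hd : 1 ≤ d) (c : EuclideanSpace ℝ (Fin d)) (ρ : ℝ) (hρ : 0 < ρ)
    (hρ1 : ρ ≤ 1) :
    Crest.StreamLearn.sphereUniform d {s | dist (s : EuclideanSpace ℝ (Fin d)) c ≤ ρ} ≤
      ENNReal.ofReal (2 / ρ * (ρ * 2) ^ d) := by
  haveI : Nonempty (Fin d) := ⟨⟨0, hd⟩⟩
  have hmeas : MeasurableSet {s : Crest.StreamLearn.Sphere d | dist (s : EuclideanSpace ℝ (Fin d)) c ≤ ρ} := by
    apply IsClosed.measurableSet
    exact isClosed_le (by fun_prop) continuous_const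
  set B : ℝ≥0∞ := (volume : Measure (EuclideanSpace ℝ (Fin d))) (ball 0 1) with hB
  have hB0 : B ≠ 0 := (measure_ball_pos _ _ one_pos).ne'
  have hBt : B ≠ ⊤ := measure_ball_lt_top.ne
  have hd0 : ((Module.finrank ℝ (EuclideanSpace ℝ (Fin d)) : ℕ) : ℝ≥0∞) ≠ 0 := by
    simp; omega
  have hdt : ((Module.finrank ℝ (EuclideanSpace ℝ (Fin d)) : ℕ) : ℝ≥0∞) ≠ ⊤ := ENNReal.natCast_ne_top _
  rw [Crest.StreamLearn.sphereUniform, Measure.smul_apply, Measure.toSphere_apply_univ,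
    Measure.toSphere_apply' _ hmeas, smul_eq_mul, ← hB]
  have hcone : (volume : Measure (EuclideanSpace ℝ (Fin d)))
      (Ioo (0 : ℝ) 1 • ((↑) '' {s : Crest.StreamLearn.Sphere d |
        dist (s : EuclideanSpace ℝ (Fin d)) c ≤ ρ})) ≤ ENNReal.ofReal (2 / ρ * (ρ * 2) ^ d) * B := by
    refine (measure_mono (cone_subset c ρ hρ)).trans ?_
    calc (volume : Measure (EuclideanSpace ℝ (Fin d))) (⋃ j ∈ Finset.range (⌊1 / ρ⌋₊ + 1), closedBall (((j : ℝ) * ρ) • c) (ρ * 2))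
      ≤ ∑ j ∈ Finset.range (⌊1 / ρ⌋₊ + 1),
          (volume : Measure (EuclideanSpace ℝ (Fin d))) (closedBall (((j : ℝ) * ρ) • c) (ρ * 2)) :=
          measure_biUnion_finset_le _ _
      _ = ∑ j ∈ Finset.range (⌊1 / ρ⌋₊ + 1), ENNReal.ofReal ((ρ * 2) ^ d) * B := by
          apply Finset.sum_congr rfl
          intro j _
          rw [Measure.addHaar_closedBall _ _ (by positivity), finrank_euclideanSpace_fin]
      _ = ((⌊1 / ρ⌋₊ + 1 : ℕ) : ℝ≥0∞) * (ENNReal.ofReal ((ρ * 2) ^ d) * B) := by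
          rw [Finset.sum_const, Finset.card_range, nsmul_eq_mul]
      _ ≤ ENNReal.ofReal (2 / ρ) * (ENNReal.ofReal ((ρ * 2) ^ d) * B) := by
          gcongr
          rw [← ENNReal.ofReal_natCast]
          apply ENNReal.ofReal_le_ofReal
          push_cast
          have h1 := Nat.floor_le (a := 1 / ρ) (by positivity)
          have h2 : (1 : ℝ) ≤ 1 / ρ := by rw [le_div_iff₀ hρ]; linarith
          calc (⌊1 / ρ⌋₊ : ℝ) + 1 ≤ 1 / ρ + 1 / ρ := by linarith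
            _ = 2 / ρ := by ring
      _ = _ := by
          rw [← mul_assoc, ← ENNReal.ofReal_mul (by positivity)]
  calc _ ≤ ((Module.finrank ℝ (EuclideanSpace ℝ (Fin d)) : ℝ≥0∞) * B)⁻¹ *
        ((Module.finrank ℝ (EuclideanSpace ℝ (Fin d)) : ℝ≥0∞) *
          (ENNReal.ofReal (2 / ρ * (ρ * 2) ^ d) * B)) := by gcongr
    _ = (((Module.finrank ℝ (EuclideanSpace ℝ (Fin d)) : ℝ≥0∞) * B)⁻¹ *
        ((Module.finrank ℝ (EuclideanSpace ℝ (Fin d)) : ℝ≥0∞) * B)) *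
          ENNReal.ofReal (2 / ρ * (ρ * 2) ^ d) := by ring
    _ = ENNReal.ofReal (2 / ρ * (ρ * 2) ^ d) := by
        rw [ENNReal.inv_mul_cancel (mul_ne_zero hd0 hB0) (ENNReal.mul_ne_top hdt hBt), one_mul]

/-- (3) BASE: cap measure. -/
theorem cap_bound {d : ℕ} (hd : 1 ≤ d) (c : EuclideanSpace ℝ (Fin d)) (ρ : ℝ) (hρ : 0 < ρ) (hρ1 : ρ ≤ 1) :
    Crest.StreamLearn.sphereUniform d {s | dist (s : EuclideanSpace ℝ (Fin d)) c ≤ ρ} ≤
      2 ^ (2 * d + 2) * ENNReal.ofReal ρ ^ (d - 1) := by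
  refine (cap_bound' hd c ρ hρ hρ1).trans ?_
  obtain ⟨k, rfl⟩ : ∃ k, d = k + 1 := ⟨d - 1, by omega⟩
  have e : 2 / ρ * (ρ * 2) ^ (k + 1) = 2 ^ (k + 2) * ρ ^ k := by
    field_simp; ring
  rw [e, ENNReal.ofReal_mul (by positivity), ENNReal.ofReal_pow hρ.le, Nat.add_sub_cancel,
    ENNReal.ofReal_pow (by norm_num)]
  rw [ENNReal.ofReal_ofNat]
  exact mul_le_mul_left (pow_le_pow_right₀ (by norm_num) (by omega)) _

end

end Crest.Agent.SL68
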