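import Mathlib
import Crest.Prelude.Def_StreamLearn

set_option autoImplicit false

/-! Row 322: the recursion over blocks (generic part). -/

namespace Crest.Agent.SL68.Rec

open MeasureTheory ProbabilityTheory Metric
open scoped ENNReal RealInnerProductSpace

noncomputable section

abbrev E (d : ℕ) := EuclideanSpace ℝ (Fin d)

section generic

variable {S : Type} {d : ℕ}

/-- Expected terminal value after `n` more steps from time `t` in state `e`. -/
def V (g : ℕ → S → E d → ℝ → S) (F : S → E d → ℝ≥0∞) : ℕ → ℕ → S → E d → ℝ≥0∞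
  | 0, _, e => F e
  | n + 1, t, e => fun s => ∫⁻ x, V g F n (t + 1) (g t e x ⟪x, s⟫) s ∂stdGaussian (E d)

/-- Run of `n` steps from time `t`. -/
def R (g : ℕ → S → E d → ℝ → S) : (n : ℕ) → ℕ → S → (Fin n → E d) → (Fin n → ℝ) → S
  | 0, _, e, _, _ => e
  | n + 1, t, e, X, y => R g n (t + 1) (g t e (X 0) (y 0)) (fun i => X i.succ) (fun i => y i.succ)

theorem foldl_eq_R (g : ℕ → S → E d → ℝ → S) (n : ℕ) : ∀ (t : ℕ) (e : S) (X : Fin n → E d)
    (y : Fin n → ℝ),
    (List.finRange n).foldl (fun st i => g (t + i.val) st (X i) (y i)) e = R g n t e X y := by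
  induction n with
  | zero => intro t e X y; simp [R]
  | succ n ih =>
    intro t e X y
    rw [List.finRange_succ, List.foldl_cons, List.foldl_map]
    rw [R, ← ih]
    simp only [Fin.val_zero, add_zero, Fin.val_succ]
    congr 1
    funext st i
    rw [show t + (i.val + 1) = t + 1 + i.val by ring]

variable [MeasurableSpace S] [Countable S] [MeasurableSingletonClass S]

theorem V_le_one (g : ℕ → S → E d → ℝ → S) (F : S → E d → ℝ≥0∞) (hF : ∀ e s, F e s ≤ 1)
    (n : ℕ) : ∀ (t : ℕ) (e : S) (s : E d), V g F n t e s ≤ 1 := by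
  induction n with
  | zero => intro t e s; exact hF e s
  | succ n ih =>
    intro t e s
    rw [V]
    calc (∫⁻ x, V g F n (t + 1) (g t e x ⟪x, s⟫) s ∂stdGaussian (E d))
      _ ≤ ∫⁻ _x, 1 ∂stdGaussian (E d) := lintegral_mono fun x => ih _ _ _
      _ = 1 := by simp

theorem measurable_step {α : Type*} [MeasurableSpace α] (h : α → S) (hh : Measurable h)
    (G : S → α → S) (hG : ∀ e, Measurable (G e)) : Measurable fun a => G (h a) a := by
  have h1 : Measurable fun p : S × α => G p.1 p.2 := measurable_from_prod_countable_right hG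
  exact h1.comp (hh.prodMk measurable_id)

theorem measurable_stepE {α : Type*} [MeasurableSpace α] (h : α → S) (hh : Measurable h)
    (G : S → α → ℝ≥0∞) (hG : ∀ e, Measurable (G e)) : Measurable fun a => G (h a) a := by
  have h1 : Measurable fun p : S × α => G p.1 p.2 := measurable_from_prod_countable_right hG
  exact h1.comp (hh.prodMk measurable_id)

theorem V_meas (g : ℕ → S → E d → ℝ → S) (F : S → E d → ℝ≥0∞)
    (hg : ∀ t e, Measurable fun p : E d × ℝ => g t e p.1 p.2) (hF : ∀ e, Measurable (F e))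
    (n : ℕ) : ∀ (t : ℕ) (e : S), Measurable (V g F n t e) := by
  induction n with
  | zero => intro t e; exact hF e
  | succ n ih =>
    intro t e
    rw [V]
    apply Measurable.lintegral_prod_right'
      (f := fun p : E d × E d => V g F n (t + 1) (g t e p.2 ⟪p.2, p.1⟫) p.1)
    exact measurable_stepE (fun p : E d × E d => g t e p.2 ⟪p.2, p.1⟫)
      ((hg t e).comp (by fun_prop : Measurable fun p : E d × E d => (p.2, (⟪p.2, p.1⟫ : ℝ))))
      (fun e' p => V g F n (t + 1) e' p.1) (fun e' => (ih (t + 1) e').comp measurable_fst)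

theorem R_meas (g : ℕ → S → E d → ℝ → S)
    (hg : ∀ t e, Measurable fun p : E d × ℝ => g t e p.1 p.2) (n : ℕ) :
    ∀ (t : ℕ) (e : S), Measurable fun p : (Fin n → E d) × (Fin n → ℝ) => R g n t e p.1 p.2 := by
  induction n with
  | zero => intro t e; exact measurable_const
  | succ n ih =>
    intro t e
    simp only [R]
    exact measurable_step (fun p : (Fin (n + 1) → E d) × (Fin (n + 1) → ℝ) => g t e (p.1 0) (p.2 0))
      ((hg t e).comp (by fun_prop : Measurable fun p : (Fin (n + 1) → E d) × (Fin (n + 1) → ℝ) =>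
        (p.1 0, p.2 0)))
      (fun e' p => R g n (t + 1) e' (fun i => p.1 i.succ) (fun i => p.2 i.succ))
      (fun e' => (ih (t + 1) e').comp (by fun_prop :
        Measurable fun p : (Fin (n + 1) → E d) × (Fin (n + 1) → ℝ) =>
          ((fun i : Fin n => p.1 i.succ), (fun i : Fin n => p.2 i.succ))))

theorem V_add (g : ℕ → S → E d → ℝ → S) (F : S → E d → ℝ≥0∞)
    (hg : ∀ t e, Measurable fun p : E d × ℝ => g t e p.1 p.2) (hF : ∀ e, Measurable (F e))
    (m n : ℕ) : ∀ (t : ℕ) (e : S) (s : E d),
    V g F (n + m) t e s = ∫⁻ X : Fin n → E d, V g F m (t + n) (R g n t e X (fun j => ⟪X j, s⟫)) s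
      ∂(Measure.pi fun _ => stdGaussian (E d)) := by
  induction n with
  | zero =>
    intro t e s
    simp only [zero_add, R, add_zero]
    rw [lintegral_const]
    simp
  | succ n ih =>
    intro t e s
    rw [show n + 1 + m = (n + m) + 1 by ring, V]
    simp_rw [ih]
    have hmp := (measurePreserving_piFinSuccAbove (fun _ : Fin (n + 1) => stdGaussian (E d)) 0)
    have hmeas : Measurable fun p : E d × (Fin n → E d) =>
        V g F m (t + (n + 1)) (R g n (t + 1) (g t e p.1 ⟪p.1, s⟫) p.2 (fun j => ⟪p.2 j, s⟫)) s := by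
      have h1 : Measurable fun e' : S => V g F m (t + (n + 1)) e' s := measurable_of_countable _
      refine h1.comp ?_
      exact measurable_step (fun p : E d × (Fin n → E d) => g t e p.1 ⟪p.1, s⟫)
        ((hg t e).comp (by fun_prop : Measurable fun p : E d × (Fin n → E d) =>
          (p.1, (⟪p.1, s⟫ : ℝ))))
        (fun e' p => R g n (t + 1) e' p.2 (fun j => ⟪p.2 j, s⟫))
        (fun e' => (R_meas g hg n (t + 1) e').comp (by fun_prop :
          Measurable fun p : E d × (Fin n → E d) => (p.2, fun j => (⟪p.2 j, s⟫ : ℝ))))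
    have h2 : (∫⁻ X : Fin (n + 1) → E d,
        V g F m (t + (n + 1)) (R g (n + 1) t e X (fun j => ⟪X j, s⟫)) s
        ∂(Measure.pi fun _ => stdGaussian (E d))) =
        ∫⁻ p : E d × (Fin n → E d),
        V g F m (t + (n + 1)) (R g n (t + 1) (g t e p.1 ⟪p.1, s⟫) p.2 (fun j => ⟪p.2 j, s⟫)) s
        ∂((stdGaussian (E d)).prod (Measure.pi fun _ => stdGaussian (E d))) := by
      rw [← hmp.map_eq, lintegral_map hmeas hmp.measurable]
      rfl
    rw [h2, lintegral_prod _ hmeas.aemeasurable]
    refine lintegral_congr fun x => ?_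
    rw [show t + 1 + n = t + (n + 1) by ring]

end generic

end

end Crest.Agent.SL68.Rec
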