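import Mathlib
import Crest.Prelude.Def_StreamLearn
import Crest.Agent.SL68.Rec
import Crest.Agent.SL68.Tube
import Crest.Agent.SL68.Cap

set_option autoImplicit false

/-! Row 322: the learner as a process; recursion over blocks. -/

namespace Crest.Agent.SL68.Lrn

open MeasureTheory ProbabilityTheory Metric Crest.StreamLearn Crest.Agent.SL68
open Crest.Agent.SL68.Rec (V R)
open scoped ENNReal RealInnerProductSpace

noncomputable section

/-- The statement of the block lemma. -/
def BlockStmt : Prop := ∃ K0 : ℝ≥0∞, K0 < ⊤ ∧ 1 ≤ K0 ∧ ∀ (d m p β : ℕ), 1 ≤ m → 2 ≤ p →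
    d ≤ 32 * m → 2 * m ≤ d →
    2 * m + p ≤ β → β ≤ d → ∀ {ι : Type} [Fintype ι] [MeasurableSpace ι]
    [MeasurableSingletonClass ι]
    (L : ℝ≥0∞) (_hL : (Fintype.card ι : ℝ≥0∞) ≤ L ^ p)
    (σ : Measure (E d)) [IsFiniteMeasure σ] (a : ℝ≥0∞)
    (w : ι → E d → ℝ≥0∞)
    (_hw : ∀ i, Measurable (w i)) (_hw1 : ∀ i s, w i s ≤ 1)
    (_hF : ∀ i, Frost (σ.withDensity (w i)) a β)
    (f : (Fin (2 * m) → E d) → (Fin (2 * m) → ℝ) → ι)
    (_hf : Measurable (Function.uncurry f)),
    Frost (σ.withDensity (fun s => ∫⁻ X, w (f X (fun j => ⟪X j, s⟫)) s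
      ∂(Measure.pi fun _ => stdGaussian (E d)))) (L * K0 ^ d * a) β

/-- The uniform law of the sphere on the ambient space. -/
def sigE (d : ℕ) : Measure (E d) := (sphereUniform d).map (fun s : Sphere d => (s : E d))

section process

variable {d T M : ℕ} (L : RLearner d T M)

/-- extended states: state and stopping index. -/
def SS : Type := L.St × Option ℕ

instance : MeasurableSpace (SS L) := ⊤

instance : MeasurableSingletonClass (SS L) := ⟨fun _ => trivial⟩

instance : Countable (SS L) := by
  have _ := L.fin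
  unfold SS
  infer_instance

instance : MeasurableSpace L.Ω := L.mΩ

instance : IsProbabilityMeasure L.ρ := L.prob

/-- one step. -/
def gstep (ω : L.Ω) (t : ℕ) (st : SS L) (x : E d) (y : ℝ) : SS L :=
  if st.2.isSome then st else
    if h : t < T then
      (if (L.trans ⟨t, h⟩ ω st.1 x y).2 then ((L.trans ⟨t, h⟩ ω st.1 x y).1, some (t + 1))
        else ((L.trans ⟨t, h⟩ ω st.1 x y).1, none))
    else st

/-- initial extended state. -/
def e0 (ω : L.Ω) : SS L := (L.init ω, if L.stopFirst ω then some 0 else none)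

/-- success indicator. -/
def FF (ε : ℝ) (ω : L.Ω) (st : SS L) (s : E d) : ℝ≥0∞ :=
  Set.indicator {s : E d | Real.arccos (inner ℝ (L.out (st.2.getD T) ω st.1) s) ≤ ε}
    (fun _ => (1 : ℝ≥0∞)) s

theorem gstep_lt (ω : L.Ω) (t : Fin T) (st : SS L) (x : E d) (y : ℝ) :
    gstep L ω t.val st x y = if st.2.isSome then st else
      (if (L.trans t ω st.1 x y).2 then ((L.trans t ω st.1 x y).1, some (t.val + 1))
        else ((L.trans t ω st.1 x y).1, none)) := by
  unfold gstep
  rw [dif_pos t.2]

theorem run_eq (ω : L.Ω) (s : E d) (xs : Fin T → E d) :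
    L.run ω s xs = R (gstep L ω) T 0 (e0 L ω) xs (fun j => (⟪xs j, s⟫ : ℝ)) := by
  rw [← Rec.foldl_eq_R]
  unfold RLearner.run e0
  congr 1
  funext st t
  rw [zero_add]
  exact (gstep_lt L ω t st (xs t) _).symm

theorem gstep_meas {α : Type*} [MeasurableSpace α] (w : α → L.Ω) (x : α → E d) (y : α → ℝ)
    (hw : Measurable w) (hx : Measurable x) (hy : Measurable y) (t : ℕ) (st : SS L) :
    Measurable fun a => gstep L (w a) t st (x a) (y a) := by
  unfold gstep
  by_cases h1 : st.2.isSome
  · simp only [h1, if_true]; exact measurable_const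
  · by_cases h2 : t < T
    · simp only [h1, h2, dite_true]
      have _ := L.fin
      let _ : MeasurableSpace L.St := ⊤
      have _ : MeasurableSingletonClass L.St := ⟨fun _ => trivial⟩
      have hA : Measurable fun a => (L.trans ⟨t, h2⟩ (w a) st.1 (x a) (y a)).1 :=
        (L.trans_measurable ⟨t, h2⟩ st.1).1.comp (hw.prodMk (hx.prodMk hy))
      have hB : Measurable fun a => (L.trans ⟨t, h2⟩ (w a) st.1 (x a) (y a)).2 :=
        (L.trans_measurable ⟨t, h2⟩ st.1).2.comp (hw.prodMk (hx.prodMk hy))
      let G : L.St × Bool → SS L := fun p => if p.2 then (p.1, some (t + 1)) else (p.1, none)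
      have hG : Measurable G := measurable_of_countable _
      exact hG.comp (hA.prodMk hB)
    · simp only [h1, h2, dite_false]; exact measurable_const

theorem R_joint {α : Type*} [MeasurableSpace α] (w : α → L.Ω) (hw : Measurable w) (n : ℕ) :
    ∀ (t : ℕ) (X : α → Fin n → E d) (_ : Measurable X) (Y : α → Fin n → ℝ) (_ : Measurable Y)
      (e : SS L), Measurable fun a => R (gstep L (w a)) n t e (X a) (Y a) := by
  induction n with
  | zero => intro t X hX Y hY e; exact measurable_const
  | succ n ih =>
    intro t X hX Y hY e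
    simp only [R]
    exact Rec.measurable_step (fun a => gstep L (w a) t e (X a 0) (Y a 0))
      (gstep_meas L w _ _ hw ((measurable_pi_apply 0).comp hX) ((measurable_pi_apply 0).comp hY) t e)
      (fun e' a => R (gstep L (w a)) n (t + 1) e' (fun i => X a i.succ) (fun i => Y a i.succ))
      (fun e' => ih (t + 1) (fun a i => X a i.succ)
        (measurable_pi_lambda _ fun i => (measurable_pi_apply i.succ).comp hX)
        (fun a i => Y a i.succ)
        (measurable_pi_lambda _ fun i => (measurable_pi_apply i.succ).comp hY) e')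

theorem e0_meas : Measurable (e0 L) := by
  have _ := L.fin
  let _ : MeasurableSpace L.St := ⊤
  have _ : MeasurableSingletonClass L.St := ⟨fun _ => trivial⟩
  have hA : Measurable L.init := L.init_measurable
  have hB : Measurable L.stopFirst := L.stopFirst_measurable
  let G : L.St × Bool → SS L := fun p => (p.1, if p.2 then some 0 else none)
  have hG : Measurable G := measurable_of_countable _
  exact hG.comp (hA.prodMk hB)

theorem FF_meas (ε : ℝ) (ω : L.Ω) (st : SS L) : Measurable (FF L ε ω st) := by
  unfold FF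
  exact measurable_const.indicator (measurableSet_le (by fun_prop) measurable_const)

theorem FF_le_one (ε : ℝ) (ω : L.Ω) (st : SS L) (s : E d) : FF L ε ω st s ≤ 1 := by
  unfold FF
  exact Set.indicator_le_self' (fun _ _ => by simp) s

theorem g_meas (ω : L.Ω) (t : ℕ) (e : SS L) :
    Measurable fun p : E d × ℝ => gstep L ω t e p.1 p.2 :=
  gstep_meas L (fun _ => ω) _ _ measurable_const measurable_fst measurable_snd t e

/-- the success set. -/
def SuccSet (ε : ℝ) : Set (Sphere d × (L.Ω × (Fin T → E d))) :=
  {p | Real.arccos (inner ℝ (L.output p.2.1 p.1 p.2.2) (p.1 : E d)) ≤ ε}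

theorem SuccSet_meas (ε : ℝ) : MeasurableSet (SuccSet L ε) := by
  unfold SuccSet
  apply measurableSet_le _ measurable_const
  have hrun : Measurable fun p : Sphere d × (L.Ω × (Fin T → E d)) =>
      (R (gstep L p.2.1) T 0 (e0 L p.2.1) p.2.2 (fun j => (⟪p.2.2 j, (p.1 : E d)⟫ : ℝ)) : SS L) := by
    exact Rec.measurable_step (fun p : Sphere d × (L.Ω × (Fin T → E d)) => e0 L p.2.1)
      ((e0_meas L).comp (measurable_fst.comp measurable_snd))
      (fun e p => R (gstep L p.2.1) T 0 e p.2.2 (fun j => (⟪p.2.2 j, (p.1 : E d)⟫ : ℝ)))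
      (fun e => R_joint L (fun p : Sphere d × (L.Ω × (Fin T → E d)) => p.2.1)
        (measurable_fst.comp measurable_snd) T 0 (fun p => p.2.2)
        (measurable_snd.comp measurable_snd) _
        (measurable_pi_lambda _ fun j => by
          exact ((measurable_pi_apply j).comp (measurable_snd.comp measurable_snd)).inner
            (measurable_subtype_coe.comp measurable_fst)) e)
  have hout : Measurable fun p : Sphere d × (L.Ω × (Fin T → E d)) =>
      L.output p.2.1 p.1 p.2.2 := by
    have h1 : (fun p : Sphere d × (L.Ω × (Fin T → E d)) => L.output p.2.1 p.1 p.2.2) =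
        fun p => (fun (st : SS L) (p : Sphere d × (L.Ω × (Fin T → E d))) =>
          L.out (st.2.getD T) p.2.1 st.1)
          (R (gstep L p.2.1) T 0 (e0 L p.2.1) p.2.2 (fun j => (⟪p.2.2 j, (p.1 : E d)⟫ : ℝ))) p := by
      funext p
      unfold RLearner.output
      rw [run_eq]
    rw [h1]
    have h2 : Measurable fun q : SS L × (Sphere d × (L.Ω × (Fin T → E d))) =>
        L.out (q.1.2.getD T) q.2.2.1 q.1.1 := by
      refine measurable_from_prod_countable_right fun st => ?_
      exact (L.out_measurable (st.2.getD T) st.1).comp (measurable_fst.comp measurable_snd)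
    exact h2.comp (hrun.prodMk measurable_id)
  exact Real.continuous_arccos.measurable.comp
    (hout.inner (measurable_subtype_coe.comp measurable_fst))

theorem pi_succ (ε : ℝ) (ω : L.Ω) (s : E d) :
    (Measure.pi fun _ : Fin T => stdGaussian (E d))
      {xs | Real.arccos (inner ℝ (L.output ω s xs) s) ≤ ε} =
    V (gstep L ω) (FF L ε ω) T 0 (e0 L ω) s := by
  have h := Rec.V_add (gstep L ω) (FF L ε ω) (fun t e => g_meas L ω t e)
    (fun e => FF_meas L ε ω e) 0 T 0 (e0 L ω) s
  rw [add_zero] at h
  rw [h]
  have hR : Measurable fun xs : Fin T → E d =>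
      (R (gstep L ω) T 0 (e0 L ω) xs (fun j => (⟪xs j, s⟫ : ℝ)) : SS L) :=
    R_joint L (fun _ => ω) measurable_const T 0 _ measurable_id _
      (measurable_pi_lambda _ fun j => (measurable_pi_apply j).inner measurable_const) _
  have hset : MeasurableSet {xs : Fin T → E d | Real.arccos (inner ℝ (L.output ω s xs) s) ≤ ε} := by
    apply measurableSet_le _ measurable_const
    have h1 : (fun xs : Fin T → E d => L.output ω s xs) =
        fun xs => (fun st : SS L => L.out (st.2.getD T) ω st.1)
          (R (gstep L ω) T 0 (e0 L ω) xs (fun j => (⟪xs j, s⟫ : ℝ))) := by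
      funext xs
      unfold RLearner.output
      rw [run_eq]
    have h2 : Measurable fun xs : Fin T → E d => L.output ω s xs := by
      rw [h1]
      have : Measurable fun st : SS L => L.out (st.2.getD T) ω st.1 := measurable_of_countable _
      exact this.comp hR
    exact Real.continuous_arccos.measurable.comp (h2.inner measurable_const)
  rw [← lintegral_indicator_one hset]
  refine lintegral_congr fun xs => ?_
  simp only [V, FF, Set.indicator, Set.mem_setOf_eq, RLearner.output, run_eq]
  rfl

theorem succ_le (ε : ℝ) (b : ℝ≥0∞)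
    (hb : ∀ ω, ∫⁻ s : Sphere d, V (gstep L ω) (FF L ε ω) T 0 (e0 L ω) (s : E d)
      ∂(sphereUniform d) ≤ b) [SFinite (sphereUniform d)] :
    ENNReal.ofReal (L.successProb ε) ≤ b := by
  unfold RLearner.successProb Measure.real
  refine ENNReal.ofReal_toReal_le.trans ?_
  change ((sphereUniform d).prod (L.ρ.prod
      (Measure.pi fun _ : Fin T => stdGaussian (E d)))) (SuccSet L ε) ≤ b
  rw [Measure.prod_apply (SuccSet_meas L ε)]
  have h1 : ∀ s : Sphere d, (L.ρ.prod (Measure.pi fun _ : Fin T => stdGaussian (E d)))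
      (Prod.mk s ⁻¹' SuccSet L ε) =
      ∫⁻ ω, (Measure.pi fun _ : Fin T => stdGaussian (E d))
        (Prod.mk ω ⁻¹' (Prod.mk s ⁻¹' SuccSet L ε)) ∂L.ρ := by
    intro s
    rw [Measure.prod_apply (measurable_prodMk_left (SuccSet_meas L ε))]
  simp_rw [h1]
  rw [lintegral_lintegral_swap]
  · calc (∫⁻ ω, ∫⁻ s : Sphere d, (Measure.pi fun _ : Fin T => stdGaussian (E d))
        (Prod.mk ω ⁻¹' (Prod.mk s ⁻¹' SuccSet L ε)) ∂(sphereUniform d) ∂L.ρ)
      _ ≤ ∫⁻ _ω, b ∂L.ρ := by
        refine lintegral_mono fun ω => ?_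
        refine le_trans (le_of_eq ?_) (hb ω)
        refine lintegral_congr fun s => ?_
        rw [← pi_succ]
        rfl
      _ = b := by simp
  · have h2 : Measurable fun q : Sphere d × L.Ω =>
        (Measure.pi fun _ : Fin T => stdGaussian (E d))
          (Prod.mk q ⁻¹' (MeasurableEquiv.prodAssoc ⁻¹' SuccSet L ε)) :=
      measurable_measure_prodMk_left (MeasurableEquiv.prodAssoc.measurable (SuccSet_meas L ε))
    exact h2.aemeasurable

end process

end

end Crest.Agent.SL68.Lrn
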