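import Mathlib
import Crest.Agent.SL68.Lrn

set_option autoImplicit false

/-! Row 322: recursion over blocks, given the block lemma. -/

namespace Crest.Agent.SL68.Lrn

open MeasureTheory ProbabilityTheory Metric Crest.StreamLearn Crest.Agent.SL68
open Crest.Agent.SL68.Rec (V R)
open scoped ENNReal RealInnerProductSpace

noncomputable section

variable {d T M : ℕ} (L : RLearner d T M)

theorem V_stopped (F : SS L → E d → ℝ≥0∞) (ω : L.Ω) (st : SS L) (hst : st.2.isSome) (s : E d)
    (n : ℕ) : ∀ t, V (gstep L ω) F n t st s = F st s := by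
  induction n with
  | zero => intro t; rfl
  | succ n ih =>
    intro t
    have h1 : ∀ x, gstep L ω t st x ⟪x, s⟫ = st := by
      intro x; unfold gstep; rw [if_pos hst]
    simp only [V, h1, ih]
    simp

theorem V_late (F : SS L → E d → ℝ≥0∞) (ω : L.Ω) (st : SS L) (s : E d)
    (n : ℕ) : ∀ t, T ≤ t → V (gstep L ω) F n t st s = F st s := by
  induction n with
  | zero => intro t _; rfl
  | succ n ih =>
    intro t ht
    have h1 : ∀ x, gstep L ω t st x ⟪x, s⟫ = st := by
      intro x; unfold gstep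
      have : ¬ t < T := by omega
      simp [this]
    simp only [V, h1, ih (t + 1) (by omega)]
    simp

theorem R_stopped (ω : L.Ω) (st : SS L) (hst : st.2.isSome) (n : ℕ) :
    ∀ t (X : Fin n → E d) (y : Fin n → ℝ), R (gstep L ω) n t st X y = st := by
  induction n with
  | zero => intro t X y; rfl
  | succ n ih =>
    intro t X y
    have h1 : gstep L ω t st (X 0) (y 0) = st := by unfold gstep; rw [if_pos hst]
    rw [R, h1, ih]

/-- encoding of the block outcomes -/
def enc (t n : ℕ) (i : L.St × Option (Fin n)) : SS L := (i.1, i.2.map (fun j => t + 1 + j.val))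

theorem R_range (ω : L.Ω) (n : ℕ) : ∀ (t : ℕ) (q : L.St) (X : Fin n → E d) (y : Fin n → ℝ),
    ∃ i : L.St × Option (Fin n), R (gstep L ω) n t (q, none) X y = enc L t n i := by
  induction n with
  | zero => intro t q X y; exact ⟨(q, none), rfl⟩
  | succ n ih =>
    intro t q X y
    have h1 : ∃ q' : L.St, gstep L ω t (q, none) (X 0) (y 0) = (q', none) ∨
        gstep L ω t (q, none) (X 0) (y 0) = (q', some (t + 1)) := by
      unfold gstep
      by_cases h : t < T
      · by_cases hb : (L.trans ⟨t, h⟩ ω q (X 0) (y 0)).2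
        · exact ⟨(L.trans ⟨t, h⟩ ω q (X 0) (y 0)).1, Or.inr (by simp [h, hb] <;> rfl)⟩
        · exact ⟨(L.trans ⟨t, h⟩ ω q (X 0) (y 0)).1, Or.inl (by simp [h, hb] <;> rfl)⟩
      · exact ⟨q, Or.inl (by simp [h] <;> rfl)⟩
    obtain ⟨q', h1 | h1⟩ := h1
    · obtain ⟨i, hi⟩ := ih (t + 1) q' (fun i => X i.succ) (fun i => y i.succ)
      refine ⟨(i.1, i.2.map Fin.succ), ?_⟩
      change R (gstep L ω) n (t + 1) (gstep L ω t (q, none) (X 0) (y 0)) (fun i => X i.succ)
        (fun i => y i.succ) = _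
      rw [h1, hi]
      unfold enc
      simp only [Option.map_map]
      congr 2
      funext j
      simp only [Function.comp, Fin.val_succ]
      ring
    · refine ⟨(q', some 0), ?_⟩
      change R (gstep L ω) n (t + 1) (gstep L ω t (q, none) (X 0) (y 0)) (fun i => X i.succ)
        (fun i => y i.succ) = _
      rw [h1]
      refine (R_stopped L ω ((q', some (t + 1)) : L.St × Option ℕ) rfl n (t + 1) _ _).trans ?_
      unfold enc
      simp <;> rfl

theorem sigE_ball {d : ℕ} (hd : 1 ≤ d) (c : E d) (ρ : ℝ) (hρ : 0 < ρ) (hρ1 : ρ ≤ 1) :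
    sigE d (closedBall c ρ) ≤ 2 ^ (2 * d + 2) * ENNReal.ofReal ρ ^ (d - 1) := by
  unfold sigE
  rw [Measure.map_apply measurable_subtype_coe isClosed_closedBall.measurableSet]
  exact cap_bound hd c ρ hρ hρ1

theorem sigE_norm_ne (d : ℕ) : sigE d {s | ‖s‖ ≠ 1} = 0 := by
  unfold sigE
  have hm : MeasurableSet {s : E d | ‖s‖ ≠ 1} :=
    (measurableSet_eq_fun measurable_norm measurable_const).compl
  rw [Measure.map_apply measurable_subtype_coe hm]
  have : (fun s : Sphere d => (s : E d)) ⁻¹' {s | ‖s‖ ≠ 1} = ∅ := by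
    ext s
    simp
  rw [this, measure_empty]

theorem norm_sub_le_of_arccos {d : ℕ} (u s : E d) (hu : ‖u‖ = 1) (hs : ‖s‖ = 1) (ε : ℝ)
    (h : Real.arccos (inner ℝ u s) ≤ ε) : ‖s - u‖ ≤ ε := by
  have h0 : 0 ≤ Real.arccos (inner ℝ u s) := Real.arccos_nonneg _
  have hin : |inner ℝ u s| ≤ 1 := by
    have := abs_real_inner_le_norm u s
    rwa [hu, hs, one_mul] at this
  have hle := abs_le.1 hin
  set θ := Real.arccos (inner ℝ u s) with hθ
  have hcos : Real.cos θ = inner ℝ u s := Real.cos_arccos hle.1 hle.2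
  have h1 : ‖s - u‖ ^ 2 ≤ θ ^ 2 := by
    have h2 : ‖s - u‖ ^ 2 = 2 - 2 * inner ℝ u s := by
      rw [@norm_sub_sq_real, hu, hs, real_inner_comm]; ring
    rw [h2, ← hcos]
    have := Real.one_sub_sq_div_two_le_cos (x := θ)
    linarith
  have h3 : ‖s - u‖ ≤ θ := by
    have := Real.sqrt_le_sqrt h1
    rwa [Real.sqrt_sq (norm_nonneg _), Real.sqrt_sq h0] at this
  linarith

instance isFiniteMeasure_sphereUniform (d : ℕ) : IsFiniteMeasure (sphereUniform d) := by
  unfold sphereUniform
  constructor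
  rw [Measure.smul_apply, smul_eq_mul]
  exact lt_of_le_of_lt (ENNReal.inv_mul_le_one _) ENNReal.one_lt_top

instance isFiniteMeasure_sigE (d : ℕ) : IsFiniteMeasure (sigE d) := by
  unfold sigE; infer_instance

theorem base_frost {d T M : ℕ} (L : RLearner d T M) (hd : 1 ≤ d) (ω : L.Ω) (ε : ℝ) (hε : 0 < ε)
    (hε1 : ε ≤ 1) (β : ℕ) (hβ : β ≤ d - 1) (st : SS L) :
    Frost ((sigE d).withDensity (FF L ε ω st))
      (2 ^ (2 * d + 2) * ENNReal.ofReal ε ^ (d - 1 - β)) β := by
  intro c r hr
  set u := L.out (st.2.getD T) ω st.1 with hu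
  have hu1 : ‖u‖ = 1 := L.out_unit _ _ _
  have hsub : ((sigE d).withDensity (FF L ε ω st)) (closedBall c r) ≤
      sigE d (closedBall u ε ∩ closedBall c r) := by
    rw [withDensity_apply _ isClosed_closedBall.measurableSet]
    have hmeas : MeasurableSet {s : E d | Real.arccos (inner ℝ u s) ≤ ε} :=
      measurableSet_le (by fun_prop) measurable_const
    calc (∫⁻ s in closedBall c r, FF L ε ω st s ∂(sigE d))
      _ = (sigE d) ({s : E d | Real.arccos (inner ℝ u s) ≤ ε} ∩ closedBall c r) := by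
        unfold FF
        rw [lintegral_indicator_const hmeas, one_mul, Measure.restrict_apply hmeas]
      _ ≤ (sigE d) ((closedBall u ε ∩ closedBall c r) ∪ {s | ‖s‖ ≠ 1}) := by
        apply measure_mono
        rintro s ⟨hs1, hs2⟩
        by_cases h1 : ‖s‖ = 1
        · left
          refine ⟨?_, hs2⟩
          rw [mem_closedBall, dist_eq_norm]
          exact norm_sub_le_of_arccos _ _ hu1 h1 _ hs1
        · right; exact h1
      _ ≤ (sigE d) (closedBall u ε ∩ closedBall c r) + (sigE d) {s | ‖s‖ ≠ 1} :=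
        measure_union_le _ _
      _ = _ := by rw [sigE_norm_ne, add_zero]
  refine hsub.trans ?_
  have hd1 : d - 1 = (d - 1 - β) + β := by omega
  by_cases hrε : r ≤ ε
  · calc sigE d (closedBall u ε ∩ closedBall c r) ≤ sigE d (closedBall c r) :=
        measure_mono Set.inter_subset_right
      _ ≤ 2 ^ (2 * d + 2) * ENNReal.ofReal r ^ (d - 1) := sigE_ball hd c r hr (hrε.trans hε1)
      _ = 2 ^ (2 * d + 2) * (ENNReal.ofReal r ^ (d - 1 - β) * ENNReal.ofReal r ^ β) := by
        rw [← pow_add, ← hd1]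
      _ ≤ 2 ^ (2 * d + 2) * (ENNReal.ofReal ε ^ (d - 1 - β) * ENNReal.ofReal r ^ β) := by
        gcongr
      _ = _ := by rw [mul_assoc]
  · push Not at hrε
    calc sigE d (closedBall u ε ∩ closedBall c r) ≤ sigE d (closedBall u ε) :=
        measure_mono Set.inter_subset_left
      _ ≤ 2 ^ (2 * d + 2) * ENNReal.ofReal ε ^ (d - 1) := sigE_ball hd u ε hε hε1
      _ = 2 ^ (2 * d + 2) * (ENNReal.ofReal ε ^ (d - 1 - β) * ENNReal.ofReal ε ^ β) := by
        rw [← pow_add, ← hd1]
      _ ≤ 2 ^ (2 * d + 2) * (ENNReal.ofReal ε ^ (d - 1 - β) * ENNReal.ofReal r ^ β) := by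
        gcongr
      _ = _ := by rw [mul_assoc]

/-- The recursion. -/
theorem frost_rec {d T M : ℕ} (L : RLearner d T M) (m p β : ℕ) (LL K0 a0 : ℝ≥0∞)
    (hblock : ∀ {ι : Type} [Fintype ι] [MeasurableSpace ι]
      [MeasurableSingletonClass ι] (_hL : (Fintype.card ι : ℝ≥0∞) ≤ LL ^ p)
      (a : ℝ≥0∞) (w : ι → E d → ℝ≥0∞)
      (_hw : ∀ i, Measurable (w i)) (_hw1 : ∀ i s, w i s ≤ 1)
      (_hF : ∀ i, Frost ((sigE d).withDensity (w i)) a β)
      (f : (Fin (2 * m) → E d) → (Fin (2 * m) → ℝ) → ι)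
      (_hf : Measurable (Function.uncurry f)),
      Frost ((sigE d).withDensity (fun s => ∫⁻ X, w (f X (fun j => ⟪X j, s⟫)) s
        ∂(Measure.pi fun _ => stdGaussian (E d)))) (LL * K0 ^ d * a) β)
    (hLL : (2 : ℝ≥0∞) ^ M * (2 * m + 1) ≤ LL ^ p) (hK : 1 ≤ LL * K0 ^ d)
    (ω : L.Ω) (ε : ℝ) (hbase : ∀ st, Frost ((sigE d).withDensity (FF L ε ω st)) a0 β) (k : ℕ) :
    ∀ (t : ℕ) (st : SS L), Frost ((sigE d).withDensity
      (V (gstep L ω) (FF L ε ω) (k * (2 * m)) t st)) ((LL * K0 ^ d) ^ k * a0) β := by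
  induction k with
  | zero =>
    intro t st
    rw [zero_mul, pow_zero, one_mul]
    exact hbase st
  | succ k ih =>
    intro t st
    by_cases hst : st.2.isSome
    · have h1 : V (gstep L ω) (FF L ε ω) ((k + 1) * (2 * m)) t st = FF L ε ω st := by
        funext s; exact V_stopped L _ ω st hst s _ t
      rw [h1]
      intro c r hr
      refine (hbase st c r hr).trans ?_
      gcongr
      calc a0 = 1 * a0 := (one_mul _).symm
        _ ≤ (LL * K0 ^ d) ^ (k + 1) * a0 := by
          gcongr
          exact one_le_pow₀ hK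
    · let _ : Fintype L.St := L.fin
      let _ : MeasurableSpace (L.St × Option (Fin (2 * m))) := ⊤
      have _ : MeasurableSingletonClass (L.St × Option (Fin (2 * m))) := ⟨fun _ => trivial⟩
      have _ : Nonempty (L.St × Option (Fin (2 * m))) := ⟨(st.1, none)⟩
      have hst2 : st = (st.1, none) := by
        have : st.2 = none := by simpa using hst
        exact Prod.ext rfl this
      let f : (Fin (2 * m) → E d) → (Fin (2 * m) → ℝ) → (L.St × Option (Fin (2 * m))) :=
        fun X y => Function.invFun (enc L t (2 * m)) (R (gstep L ω) (2 * m) t st X y)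
      have hf : Measurable (Function.uncurry f) := by
        have h1 : Measurable (Function.invFun (enc L t (2 * m))) := measurable_of_countable _
        exact h1.comp (Rec.R_meas (gstep L ω) (fun t e => g_meas L ω t e) (2 * m) t st)
      have hfe : ∀ X y, enc L t (2 * m) (f X y) = R (gstep L ω) (2 * m) t st X y := by
        intro X y
        apply Function.invFun_eq
        obtain ⟨i, hi⟩ := R_range L ω (2 * m) t st.1 X y
        refine ⟨i, ?_⟩
        rw [← hi, ← hst2]
      have hcard : (Fintype.card (L.St × Option (Fin (2 * m))) : ℝ≥0∞) ≤ LL ^ p := by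
        refine le_trans ?_ hLL
        rw [Fintype.card_prod, Fintype.card_option, Fintype.card_fin]
        have h1 := L.card_le
        have h2 : (Fintype.card L.St * (2 * m + 1) : ℕ) ≤ 2 ^ M * (2 * m + 1) :=
          Nat.mul_le_mul_right _ h1
        exact_mod_cast h2
      have h3 := hblock hcard ((LL * K0 ^ d) ^ k * a0)
        (fun i => V (gstep L ω) (FF L ε ω) (k * (2 * m)) (t + 2 * m) (enc L t (2 * m) i))
        (fun i => Rec.V_meas _ _ (fun t e => g_meas L ω t e) (fun e => FF_meas L ε ω e) _ _ _)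
        (fun i s => Rec.V_le_one _ _ (fun e s => FF_le_one L ε ω e s) _ _ _ _)
        (fun i => ih (t + 2 * m) _) f hf
      have h4 : (fun s => ∫⁻ X, V (gstep L ω) (FF L ε ω) (k * (2 * m)) (t + 2 * m)
          (enc L t (2 * m) (f X (fun j => ⟪X j, s⟫))) s
          ∂(Measure.pi fun _ => stdGaussian (E d))) =
          V (gstep L ω) (FF L ε ω) ((k + 1) * (2 * m)) t st := by
        funext s
        rw [show (k + 1) * (2 * m) = 2 * m + k * (2 * m) by ring,
          Rec.V_add _ _ (fun t e => g_meas L ω t e) (fun e => FF_meas L ε ω e)]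
        refine lintegral_congr fun X => ?_
        rw [hfe]
      rw [h4] at h3
      have h5 : LL * K0 ^ d * ((LL * K0 ^ d) ^ k * a0) = (LL * K0 ^ d) ^ (k + 1) * a0 := by
        rw [pow_succ]; ring
      rw [h5] at h3
      exact h3

end

end Crest.Agent.SL68.Lrn
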