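import Mathlib
import Crest.Agent.SL68.Main

set_option autoImplicit false

/-! Row 322: main bound and final assembly, given the block lemma and the small-T lemma. -/

namespace Crest.Agent.SL68.Lrn

open MeasureTheory ProbabilityTheory Metric Crest.StreamLearn Crest.Agent.SL68
open Crest.Agent.SL68.Rec (V R)
open scoped ENNReal RealInnerProductSpace

noncomputable section

theorem V_pad {d T M : ℕ} (L : RLearner d T M) (F : SS L → E d → ℝ≥0∞)
    (hF : ∀ e, Measurable (F e)) (ω : L.Ω) (st : SS L) (s : E d) (N : ℕ) (hN : T ≤ N) :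
    V (gstep L ω) F T 0 st s = V (gstep L ω) F N 0 st s := by
  obtain ⟨j, rfl⟩ := Nat.exists_eq_add_of_le hN
  have h1 := Rec.V_add (gstep L ω) F (fun t e => g_meas L ω t e) hF 0 T 0 st s
  rw [add_zero] at h1
  rw [h1, Rec.V_add (gstep L ω) F (fun t e => g_meas L ω t e) hF j T 0 st s]
  refine lintegral_congr fun X => ?_
  rw [V_late L F ω _ s j (0 + T) (by omega), V_late L F ω _ s 0 (0 + T) (by omega)]

theorem frost_total {d : ℕ} (w : E d → ℝ≥0∞) (hw : Measurable w) (a : ℝ≥0∞) (β : ℕ)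
    (h : Frost ((sigE d).withDensity w) a β) :
    ∫⁻ s : Sphere d, w (s : E d) ∂(sphereUniform d) ≤ a := by
  have h1 : ∫⁻ s : Sphere d, w (s : E d) ∂(sphereUniform d) = ∫⁻ s, w s ∂(sigE d) := by
    unfold sigE
    rw [lintegral_map hw measurable_subtype_coe]
  have h2 : (sigE d).restrict (closedBall 0 1) = sigE d := by
    apply Measure.restrict_eq_self_of_ae_mem
    rw [ae_iff]
    refine measure_mono_null ?_ (sigE_norm_ne d)
    intro s hs h1
    apply hs
    rw [mem_closedBall, dist_zero_right]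
    exact h1.le
  have h3 := h 0 1 one_pos
  rw [withDensity_apply _ isClosed_closedBall.measurableSet, h2] at h3
  rw [h1]
  simpa using h3

/-- Main bound. -/
theorem main_bound_of (hb : BlockStmt) (A : ℝ) (hA : 0 < A) :
    ∃ K : ℝ≥0∞, K < ⊤ ∧ 1 ≤ K ∧ ∃ d0 : ℕ, ∀ d ≥ d0,
    ∀ (M T k : ℕ), (M : ℝ) ≤ A * (d : ℝ) ^ 2 → T ≤ k * (2 * (d / 16)) → ∀ ε : ℝ, 0 < ε →
    ε ≤ 1 / 10 → ∀ L : Crest.StreamLearn.RLearner d T M,
      ENNReal.ofReal (L.successProb ε) ≤ K ^ (d * (k + 1)) * ENNReal.ofReal ε ^ (d / 2 - 2) := by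
  obtain ⟨K0, hK0, hK01, hblock⟩ := hb
  set KA := ENNReal.ofReal (Real.exp (8 * (A + 1))) with hKA
  have hKA1 : 1 ≤ KA := by
    rw [hKA, ENNReal.one_le_ofReal]
    apply Real.one_le_exp; positivity
  have hKAt : KA < ⊤ := ENNReal.ofReal_lt_top
  refine ⟨16 * (KA * K0), ?_, ?_, 32, ?_⟩
  · exact ENNReal.mul_lt_top (by norm_num) (ENNReal.mul_lt_top hKAt hK0)
  · calc (1 : ℝ≥0∞) = 1 * (1 * 1) := by norm_num
      _ ≤ 16 * (KA * K0) := by gcongr; norm_num
  · intro d hd M T k hM hT ε hε hε1 L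
    have hd1 : 1 ≤ d := by omega
    have hLL : (2 : ℝ≥0∞) ^ M * (2 * (d / 16 : ℕ) + 1) ≤ (KA ^ d) ^ (d / 4) := by
      rw [hKA, ← pow_mul, ← ENNReal.ofReal_pow (by positivity), ← Real.exp_nat_mul]
      have h1 : (2 : ℝ≥0∞) ^ M * (2 * (d / 16 : ℕ) + 1) =
          ENNReal.ofReal (2 ^ M * (2 * (d / 16 : ℕ) + 1)) := by
        rw [ENNReal.ofReal_mul (by positivity), ENNReal.ofReal_pow (by norm_num),
          ENNReal.ofReal_add (by positivity) (by norm_num), ENNReal.ofReal_mul (by norm_num)]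
        simp
      rw [h1]
      apply ENNReal.ofReal_le_ofReal
      have h2 : (2 : ℝ) ^ M ≤ Real.exp (A * d ^ 2) := by
        calc (2 : ℝ) ^ M ≤ (Real.exp 1) ^ M := by
              gcongr
              have := Real.add_one_le_exp (1 : ℝ); linarith
          _ = Real.exp M := by rw [← Real.exp_nat_mul, mul_one]
          _ ≤ _ := Real.exp_le_exp.2 hM
      have h3 : (2 * ((d / 16 : ℕ) : ℝ) + 1) ≤ Real.exp (d ^ 2 : ℝ) := by
        have h4 : (2 * ((d / 16 : ℕ) : ℝ) + 1) ≤ d + 1 := by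
          have : 2 * (d / 16) ≤ d := by omega
          have : ((2 * (d / 16) : ℕ) : ℝ) ≤ d := by exact_mod_cast this
          push_cast at this
          linarith
        have h5 : (d : ℝ) ≤ (d : ℝ) ^ 2 := by
          have : (1 : ℝ) ≤ d := by exact_mod_cast hd1
          nlinarith
        have := Real.add_one_le_exp ((d : ℝ) ^ 2)
        linarith
      calc (2 : ℝ) ^ M * (2 * (d / 16 : ℕ) + 1) ≤ Real.exp (A * d ^ 2) * Real.exp (d ^ 2 : ℝ) := by
            gcongr
        _ = Real.exp ((A + 1) * d ^ 2) := by rw [← Real.exp_add]; ring_nf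
        _ ≤ _ := by
            apply Real.exp_le_exp.2
            have h6 : d ≤ 8 * (d / 4) := by omega
            have h7 : (d : ℝ) ≤ 8 * ((d / 4 : ℕ) : ℝ) := by exact_mod_cast h6
            push_cast
            have h8 : (d : ℝ) * d ≤ d * (8 * ((d / 4 : ℕ) : ℝ)) := by gcongr
            have h9 : 0 ≤ A + 1 := by positivity
            nlinarith [mul_le_mul_of_nonneg_left h8 h9]
    have hK : 1 ≤ KA ^ d * K0 ^ d := by
      calc (1 : ℝ≥0∞) = 1 * 1 := by norm_num
        _ ≤ _ := by gcongr <;> exact one_le_pow₀ ‹_›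
    have hrec := fun ω => frost_rec L (d / 16) (d / 4) (d / 2) (KA ^ d) K0
      (2 ^ (2 * d + 2) * ENNReal.ofReal ε ^ (d - 1 - d / 2))
      (fun {ι} _ _ _ hL a w hw hw1 hF f hf =>
        hblock d (d / 16) (d / 4) (d / 2) (by omega) (by omega) (by omega) (by omega) (by omega)
          (by omega) (KA ^ d) hL (sigE d) a w hw hw1 hF f hf)
      hLL hK ω ε (fun st => base_frost L hd1 ω ε hε (by linarith) (d / 2) (by omega) st) k 0
      (e0 L ω)
    have hfin : ENNReal.ofReal (L.successProb ε) ≤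
        (KA ^ d * K0 ^ d) ^ k * (2 ^ (2 * d + 2) * ENNReal.ofReal ε ^ (d - 1 - d / 2)) := by
      refine succ_le L ε _ fun ω => ?_
      refine le_trans (le_of_eq ?_) (frost_total _ (Rec.V_meas _ _ (fun t e => g_meas L ω t e)
        (fun e => FF_meas L ε ω e) _ _ _) _ _ (hrec ω))
      refine lintegral_congr fun s => ?_
      exact V_pad L _ (fun e => FF_meas L ε ω e) ω _ _ _ hT
    refine hfin.trans ?_
    have hε' : ENNReal.ofReal ε ≤ 1 := by
      rw [ENNReal.ofReal_le_one]; linarith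
    calc (KA ^ d * K0 ^ d) ^ k * (2 ^ (2 * d + 2) * ENNReal.ofReal ε ^ (d - 1 - d / 2))
      _ ≤ (16 * (KA * K0)) ^ (d * k) * ((16 * (KA * K0)) ^ d * ENNReal.ofReal ε ^ (d / 2 - 2)) := by
        gcongr ?_ * (?_ * ?_)
        · rw [← mul_pow, ← pow_mul]
          refine pow_le_pow_left' ?_ _
          calc KA * K0 = 1 * (KA * K0) := (one_mul _).symm
            _ ≤ 16 * (KA * K0) := by gcongr; norm_num
        · calc (2 : ℝ≥0∞) ^ (2 * d + 2) ≤ 2 ^ (4 * d) :=
                pow_le_pow_right₀ (by norm_num) (by omega)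
            _ = 16 ^ d := by rw [pow_mul]; norm_num
            _ ≤ (16 * (KA * K0)) ^ d := by
                gcongr
                calc (16 : ℝ≥0∞) = 16 * (1 * 1) := by norm_num
                  _ ≤ 16 * (KA * K0) := by gcongr
        · exact pow_le_pow_of_le_one (zero_le) hε' (by omega)
      _ = _ := by rw [← mul_assoc, ← pow_add]; ring_nf

/-- Final assembly. -/
theorem final_of (hb : BlockStmt)
    (hsmall : ∀ {d T M : ℕ} (_ : 1 ≤ d) (_ : 8 * T ≤ d) (ε : ℝ) (_ : 0 < ε) (_ : ε ≤ 1 / 10)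
      (L : Crest.StreamLearn.RLearner d T M), L.successProb ε < 2 / 3) :
    ∀ A : ℝ, 0 < A → ∃ c : ℝ, 0 < c ∧ ∃ d₀ : ℕ, ∀ d ≥ d₀, ∀ (M T : ℕ),
      (M : ℝ) ≤ A * (d : ℝ) ^ 2 → ∀ ε : ℝ, 0 < ε → ε ≤ 1 / 10 →
        ∀ L : Crest.StreamLearn.RLearner d T M,
          2 / 3 ≤ L.successProb ε → c * d * Real.log (1 / ε) ≤ T := by
  intro A hA
  obtain ⟨K, hKt, hK1, d0, hmain⟩ := main_bound_of hb A hA
  set κ : ℝ := Real.log K.toReal + 1 with hκ
  have hKr1 : 1 ≤ K.toReal := by
    have := ENNReal.toReal_mono hKt.ne hK1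
    simpa using this
  have hκ1 : 1 ≤ κ := by
    have := Real.log_nonneg hKr1
    linarith
  refine ⟨1 / (128 * κ + 16), by positivity, max d0 32, ?_⟩
  intro d hd M T hM ε hε hε1 L hL
  have hd32 : 32 ≤ d := le_trans (le_max_right _ _) hd
  have hdr : (32 : ℝ) ≤ d := by exact_mod_cast hd32
  set l := Real.log (1 / ε) with hl
  have hl0 : 0 < l := Real.log_pos (by rw [one_div, one_lt_inv₀ hε]; linarith)
  -- lower bound on T from small_T
  have hT8 : (d : ℝ) ≤ 8 * T := by
    by_contra hcon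
    push Not at hcon
    have h1 : 8 * T ≤ d := by
      have : ((8 * T : ℕ) : ℝ) < d := by push_cast; exact hcon
      exact_mod_cast this.le
    exact absurd hL (not_le.2 (hsmall (by omega) h1 ε hε hε1 L))
  rw [div_mul_eq_mul_div, div_mul_eq_mul_div, div_le_iff₀ (by positivity)]
  by_cases hbig : l < 2 * (8 * κ + 1)
  · -- small log
    have h1 : (d : ℝ) * l ≤ 8 * T * l := by gcongr
    have h2 : (T : ℝ) * l ≤ T * (2 * (8 * κ + 1)) := by gcongr
    nlinarith
  · push Not at hbig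
    set n := 2 * (d / 16) with hn
    have hn1 : 1 ≤ n := by omega
    have hTk : T ≤ (T / n + 1) * n := by
      have := Nat.lt_div_mul_add (a := T) (b := n) (by omega)
      nlinarith
    have h1 := hmain d (le_trans (le_max_left _ _) hd) M T (T / n + 1) hM hTk ε hε hε1 L
    have h2 : (2 / 3 : ℝ) ≤ K.toReal ^ (d * (T / n + 1 + 1)) * ε ^ (d / 2 - 2) := by
      have h3 : ENNReal.ofReal (2 / 3) ≤
          K ^ (d * (T / n + 1 + 1)) * ENNReal.ofReal ε ^ (d / 2 - 2) :=
        le_trans (ENNReal.ofReal_le_ofReal hL) h1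
      have h4 := ENNReal.toReal_mono (by
        apply ENNReal.mul_ne_top
        · exact ENNReal.pow_ne_top hKt.ne
        · exact ENNReal.pow_ne_top ENNReal.ofReal_ne_top) h3
      rw [ENNReal.toReal_ofReal (by norm_num), ENNReal.toReal_mul, ENNReal.toReal_pow,
        ENNReal.toReal_pow, ENNReal.toReal_ofReal hε.le] at h4
      exact h4
    have h5 := Real.log_le_log (by norm_num) h2
    rw [Real.log_mul (by positivity) (by positivity), Real.log_pow, Real.log_pow] at h5
    have hlogε : Real.log ε = -l := by rw [hl, one_div, Real.log_inv, neg_neg]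
    rw [hlogε] at h5
    have hlog23 : -1 ≤ Real.log (2 / 3) := by
      have : Real.log (Real.exp (-1)) ≤ Real.log (2 / 3) := by
        apply Real.log_le_log (Real.exp_pos _)
        have := Real.exp_neg 1
        rw [this]
        have h6 := Real.add_one_le_exp (1 : ℝ)
        rw [inv_le_comm₀ (Real.exp_pos _) (by norm_num)]
        norm_num; linarith
      rwa [Real.log_exp] at this
    have hd2 : (d : ℝ) / 4 ≤ ((d / 2 - 2 : ℕ) : ℝ) := by
      have : d ≤ 4 * (d / 2 - 2) := by omega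
      have : (d : ℝ) ≤ 4 * ((d / 2 - 2 : ℕ) : ℝ) := by exact_mod_cast this
      linarith
    have hnd : (d : ℝ) / 16 ≤ n := by
      have : d ≤ 16 * n := by omega
      have : (d : ℝ) ≤ 16 * n := by exact_mod_cast this
      linarith
    have hdiv : ((T / n : ℕ) : ℝ) ≤ 16 * T / d := by
      calc ((T / n : ℕ) : ℝ) ≤ (T : ℝ) / n := Nat.cast_div_le
        _ ≤ T / (d / 16) := by gcongr
        _ = 16 * T / d := by field_simp
    have hlogK : Real.log K.toReal ≤ κ := by linarith
    have hlogK0 : 0 ≤ Real.log K.toReal := Real.log_nonneg hKr1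
    -- (d/4) l ≤ d (T/n+2) κ + 1
    have h6 : (d : ℝ) / 4 * l ≤ d * (16 * T / d + 2) * κ + 1 := by
      have h7 : (d : ℝ) / 4 * l ≤ ((d / 2 - 2 : ℕ) : ℝ) * l := by gcongr
      have h8 : ((d * (T / n + 1 + 1) : ℕ) : ℝ) * Real.log K.toReal ≤
          d * (16 * T / d + 2) * κ := by
        push_cast
        have h9 : ((T / n : ℕ) : ℝ) + 1 + 1 ≤ 16 * T / d + 2 := by linarith
        gcongr
      linarith
    have h7 : (d : ℝ) * (16 * T / d + 2) * κ = 16 * T * κ + 2 * d * κ := by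
      field_simp
    rw [h7] at h6
    -- l ≥ 16 κ + 2
    have h8 : (d : ℝ) * l ≤ 64 * T * κ + 8 * d * κ + 4 := by linarith
    have h9 : (d : ℝ) * (8 * κ + 1) ≤ d * (l / 2) := by gcongr; linarith
    have h10 : (d : ℝ) * l ≤ 128 * T * κ := by nlinarith
    have hT0 : (0 : ℝ) ≤ T := by positivity
    nlinarith

end

end Crest.Agent.SL68.Lrn
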