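import Mathlib
import Crest.Prelude.Def_StreamLearn

/-!
Row 322 (S0499): few samples (reflection argument), and measurability of the run of a learner.
-/

set_option autoImplicit false

namespace Crest.Agent.SL68

open MeasureTheory ProbabilityTheory Crest.StreamLearn
open scoped ENNReal RealInnerProductSpace Pointwise

noncomputable section

/-! ### the uniform measure on the sphere -/

theorem sphereUniform_univ {d : ℕ} (hd : 1 ≤ d) : sphereUniform d Set.univ = 1 := by
  have : Nonempty (Fin d) := ⟨⟨0, hd⟩⟩
  have : Nontrivial (StreamLearn.E d) := by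
    unfold StreamLearn.E
    infer_instance
  unfold sphereUniform
  rw [Measure.smul_apply, smul_eq_mul]
  apply ENNReal.inv_mul_cancel
  · intro h
    rw [Measure.measure_univ_eq_zero] at h
    exact Measure.toSphere_ne_zero _ h
  · exact measure_ne_top _ _

theorem isProbabilityMeasure_sphereUniform {d : ℕ} (hd : 1 ≤ d) :
    IsProbabilityMeasure (sphereUniform d) := ⟨sphereUniform_univ hd⟩

/-- action of a linear isometry on the sphere. -/
def sphMap {d : ℕ} (f : StreamLearn.E d ≃ₗᵢ[ℝ] StreamLearn.E d) (s : Sphere d) : Sphere d :=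
  ⟨f s, by
    have := s.2
    simp only [mem_sphere_zero_iff_norm] at this ⊢
    rw [f.norm_map, this]⟩

theorem continuous_sphMap {d : ℕ} (f : StreamLearn.E d ≃ₗᵢ[ℝ] StreamLearn.E d) :
    Continuous (sphMap f) := by
  unfold sphMap
  exact Continuous.subtype_mk (f.continuous.comp continuous_subtype_val) _

theorem sphereUniform_map {d : ℕ} (f : StreamLearn.E d ≃ₗᵢ[ℝ] StreamLearn.E d) :
    (sphereUniform d).map (sphMap f) = sphereUniform d := by
  have hm := (continuous_sphMap f).measurable
  unfold sphereUniform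
  rw [Measure.map_smul]
  congr 1
  ext A hA
  rw [Measure.map_apply hm hA, Measure.toSphere_apply' _ (hm hA), Measure.toSphere_apply' _ hA]
  congr 1
  have h1 : (Set.Ioo (0 : ℝ) 1 • (Subtype.val '' (sphMap f ⁻¹' A)) : Set (StreamLearn.E d)) =
      f ⁻¹' (Set.Ioo (0 : ℝ) 1 • (Subtype.val '' A)) := by
    ext x
    simp only [Set.mem_smul, Set.mem_image, Set.mem_preimage]
    constructor
    · rintro ⟨t, ht, y, ⟨s, hs, rfl⟩, rfl⟩
      exact ⟨t, ht, f s, ⟨sphMap f s, hs, rfl⟩, by rw [map_smul]⟩
    · rintro ⟨t, ht, y, ⟨s, hs, rfl⟩, hx⟩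
      refine ⟨t, ht, f.symm s, ⟨sphMap f.symm s, ?_, rfl⟩, ?_⟩
      · have : sphMap f (sphMap f.symm s) = s := by
          apply Subtype.ext
          simp [sphMap]
        rw [this]
        exact hs
      · apply f.injective
        rw [map_smul, f.apply_symm_apply, hx]
  rw [h1]
  exact f.measurePreserving.measure_preimage_equiv (f := f.toHomeomorph.toMeasurableEquiv) _

/-! ### second moments -/

theorem integral_sq_isometry {d : ℕ} (f : StreamLearn.E d ≃ₗᵢ[ℝ] StreamLearn.E d)
    (e : StreamLearn.E d) :
    ∫ s, ⟪f e, (s : StreamLearn.E d)⟫ ^ 2 ∂(sphereUniform d) =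
      ∫ s, ⟪e, (s : StreamLearn.E d)⟫ ^ 2 ∂(sphereUniform d) := by
  have h1 : ∀ s : StreamLearn.E d, ⟪f e, s⟫ = ⟪e, f.symm s⟫ := by
    intro s
    rw [← f.inner_map_map e (f.symm s), f.apply_symm_apply]
  have hmeas : Measurable (sphMap f.symm) := (continuous_sphMap f.symm).measurable
  calc ∫ s, ⟪f e, (s : StreamLearn.E d)⟫ ^ 2 ∂(sphereUniform d)
      = ∫ s, ⟪e, ((sphMap f.symm s : Sphere d) : StreamLearn.E d)⟫ ^ 2 ∂(sphereUniform d) := by
        simp_rw [h1]
        rfl
    _ = ∫ s, ⟪e, (s : StreamLearn.E d)⟫ ^ 2 ∂((sphereUniform d).map (sphMap f.symm)) := by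
        rw [integral_map hmeas.aemeasurable]
        apply Continuous.aestronglyMeasurable
        fun_prop
    _ = _ := by rw [sphereUniform_map]

theorem integral_sq_eq {d : ℕ} (e e' : StreamLearn.E d) (h : ‖e‖ = ‖e'‖) :
    ∫ s, ⟪e, (s : StreamLearn.E d)⟫ ^ 2 ∂(sphereUniform d) =
      ∫ s, ⟪e', (s : StreamLearn.E d)⟫ ^ 2 ∂(sphereUniform d) := by
  have h1 := Submodule.reflection_sub h
  have h2 := integral_sq_isometry (Submodule.reflection (ℝ ∙ (e - e'))ᗮ) e
  rw [h1] at h2
  exact h2.symm

theorem integrable_sq {d : ℕ} (hd : 1 ≤ d) (e : StreamLearn.E d) :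
    Integrable (fun s : Sphere d => ⟪e, (s : StreamLearn.E d)⟫ ^ 2) (sphereUniform d) := by
  have := isProbabilityMeasure_sphereUniform hd
  refine Integrable.of_bound ?_ (‖e‖ ^ 2) ?_
  · apply Continuous.aestronglyMeasurable
    fun_prop
  · apply Filter.Eventually.of_forall
    intro s
    have h1 := abs_real_inner_le_norm e (s : StreamLearn.E d)
    have h2 : ‖(s : StreamLearn.E d)‖ = 1 := by simpa using s.2
    rw [h2, mul_one] at h1
    rw [Real.norm_eq_abs, abs_pow]
    exact pow_le_pow_left₀ (abs_nonneg _) h1 2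

theorem integral_sq_unit {d : ℕ} (hd : 1 ≤ d) (e : StreamLearn.E d) (he : ‖e‖ = 1) :
    ∫ s, ⟪e, (s : StreamLearn.E d)⟫ ^ 2 ∂(sphereUniform d) = 1 / d := by
  have hprob := isProbabilityMeasure_sphereUniform hd
  set b := EuclideanSpace.basisFun (Fin d) ℝ with hb
  have h1 : ∀ i, ∫ s, ⟪b i, (s : StreamLearn.E d)⟫ ^ 2 ∂(sphereUniform d) =
      ∫ s, ⟪e, (s : StreamLearn.E d)⟫ ^ 2 ∂(sphereUniform d) := by
    intro i
    apply integral_sq_eq
    rw [he, b.norm_eq_one i]
  have h2 : ∑ i, ∫ s, ⟪b i, (s : StreamLearn.E d)⟫ ^ 2 ∂(sphereUniform d) = 1 := by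
    rw [← integral_finsetSum _ (fun i _ => integrable_sq hd (b i))]
    have h3 : ∀ s : Sphere d, ∑ i, ⟪b i, (s : StreamLearn.E d)⟫ ^ 2 = 1 := by
      intro s
      have h4 := b.sum_sq_norm_inner_right (s : StreamLearn.E d)
      have h5 : ‖(s : StreamLearn.E d)‖ = 1 := by simpa using s.2
      rw [h5] at h4
      simpa using h4
    simp_rw [h3]
    simp
  simp_rw [h1] at h2
  rw [Finset.sum_const, Finset.card_univ, Fintype.card_fin, nsmul_eq_mul] at h2
  have hd0 : (d : ℝ) ≠ 0 := by
    have : d ≠ 0 := by omega
    exact_mod_cast this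
  field_simp
  linarith

theorem integral_proj_sq {d : ℕ} (hd : 1 ≤ d) (K : Submodule ℝ (StreamLearn.E d)) :
    ∫ s, ‖K.starProjection (s : StreamLearn.E d)‖ ^ 2 ∂(sphereUniform d) =
      Module.finrank ℝ K / d := by
  have hprob := isProbabilityMeasure_sphereUniform hd
  set u := stdOrthonormalBasis ℝ K with hu
  have h1 : ∀ s : StreamLearn.E d, ‖K.starProjection s‖ ^ 2 = ∑ i, ⟪((u i : K) : StreamLearn.E d), s⟫ ^ 2 := by
    intro s
    have h2 := u.sum_sq_norm_inner_right (K.orthogonalProjectionOnto s)
    rw [Submodule.starProjection_apply]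
    change ‖K.orthogonalProjectionOnto s‖ ^ 2 = _
    rw [← h2]
    apply Finset.sum_congr rfl
    intro i _
    rw [Real.norm_eq_abs, sq_abs]
    congr 1
    rw [Submodule.coe_inner]
    have h3 : ⟪((u i : K) : StreamLearn.E d), s - (K.orthogonalProjectionOnto s : StreamLearn.E d)⟫ = 0 := by
      have h4 := K.sub_starProjection_mem_orthogonal s
      exact (Submodule.mem_orthogonal _ _).1 h4 _ (u i).2
    rw [inner_sub_right] at h3
    linarith
  simp_rw [h1]
  rw [integral_finsetSum _ (fun i _ => integrable_sq hd _)]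
  have h5 : ∀ i, ∫ s, ⟪((u i : K) : StreamLearn.E d), (s : StreamLearn.E d)⟫ ^ 2 ∂(sphereUniform d) = 1 / d := by
    intro i
    apply integral_sq_unit hd
    exact u.norm_eq_one i
  simp_rw [h5]
  rw [Finset.sum_const, Finset.card_univ, Fintype.card_fin, nsmul_eq_mul]
  ring

/-! ### measurability of the run -/

attribute [local instance] Crest.StreamLearn.RLearner.mΩ Crest.StreamLearn.RLearner.fin

section Run

variable {d T M : ℕ}

/-- discrete structure on the states. -/
local instance instSt (L : RLearner d T M) : MeasurableSpace L.St := ⊤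

local instance instSt' (L : RLearner d T M) : DiscreteMeasurableSpace L.St := ⟨fun _ => trivial⟩

local instance instZ (L : RLearner d T M) : MeasurableSpace (L.St × Option ℕ) := ⊤

local instance instZ' (L : RLearner d T M) : DiscreteMeasurableSpace (L.St × Option ℕ) :=
  ⟨fun _ => trivial⟩

/-- one step of the run. -/
def stepR (L : RLearner d T M) (ω : L.Ω) (s : StreamLearn.E d)
    (xs : Fin T → StreamLearn.E d) (st : L.St × Option ℕ) (t : Fin T) : L.St × Option ℕ :=
  if st.2.isSome then st else
      if (L.trans t ω st.1 (xs t) (inner ℝ (xs t) s)).2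
      then ((L.trans t ω st.1 (xs t) (inner ℝ (xs t) s)).1, some (t.val + 1))
      else ((L.trans t ω st.1 (xs t) (inner ℝ (xs t) s)).1, none)

theorem run_eq (L : RLearner d T M) (ω : L.Ω) (s : StreamLearn.E d)
    (xs : Fin T → StreamLearn.E d) :
    L.run ω s xs = (List.finRange T).foldl (stepR L ω s xs)
      (L.init ω, if L.stopFirst ω then some 0 else none) := rfl

theorem measurable_stepR (L : RLearner d T M) (st : L.St × Option ℕ) (t : Fin T) :
    Measurable (fun p : StreamLearn.E d × (L.Ω × (Fin T → StreamLearn.E d)) =>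
      stepR L p.2.1 p.1 p.2.2 st t) := by
  unfold stepR
  by_cases h : st.2.isSome
  · simp only [h, if_true]
    exact measurable_const
  · simp only [h, Bool.false_eq_true, if_false]
    have h1 : Measurable (fun p : StreamLearn.E d × (L.Ω × (Fin T → StreamLearn.E d)) =>
        (p.2.1, (p.2.2 t, (inner ℝ (p.2.2 t) p.1 : ℝ)))) := by
      have : Measurable (fun p : StreamLearn.E d × (L.Ω × (Fin T → StreamLearn.E d)) =>
          (inner ℝ (p.2.2 t) p.1 : ℝ)) :=
        Measurable.inner ((measurable_pi_apply t).comp (measurable_snd.comp measurable_snd))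
          measurable_fst
      exact (measurable_fst.comp measurable_snd).prodMk
        (((measurable_pi_apply t).comp (measurable_snd.comp measurable_snd)).prodMk this)
    have h2 : Measurable (fun p : StreamLearn.E d × (L.Ω × (Fin T → StreamLearn.E d)) =>
        ((L.trans t p.2.1 st.1 (p.2.2 t) (inner ℝ (p.2.2 t) p.1)).1,
          (L.trans t p.2.1 st.1 (p.2.2 t) (inner ℝ (p.2.2 t) p.1)).2)) :=
      ((L.trans_measurable t st.1).1.comp h1).prodMk ((L.trans_measurable t st.1).2.comp h1)
    have h3 : Measurable (fun q : L.St × Bool =>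
        (if q.2 then (q.1, some (t.val + 1)) else (q.1, none) : L.St × Option ℕ)) :=
      Measurable.of_discrete
    exact h3.comp h2

theorem measurable_run (L : RLearner d T M) :
    Measurable (fun p : StreamLearn.E d × (L.Ω × (Fin T → StreamLearn.E d)) =>
      L.run p.2.1 p.1 p.2.2) := by
  have key : ∀ (l : List (Fin T)) (g : StreamLearn.E d × (L.Ω × (Fin T → StreamLearn.E d)) →
      L.St × Option ℕ), Measurable g →
      Measurable (fun p => l.foldl (stepR L p.2.1 p.1 p.2.2) (g p)) := by
    intro l
    induction l with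
    | nil => intro g hg; simpa using hg
    | cons a l ih =>
      intro g hg
      simp only [List.foldl_cons]
      apply ih
      have h1 : Measurable (fun q : (StreamLearn.E d × (L.Ω × (Fin T → StreamLearn.E d))) ×
          (L.St × Option ℕ) => stepR L q.1.2.1 q.1.1 q.1.2.2 q.2 a) :=
        measurable_from_prod_countable_left (fun st => measurable_stepR L st a)
      exact h1.comp (measurable_id.prodMk hg)
  apply key
  have h2 : Measurable (fun q : L.St × Bool => ((q.1, if q.2 then some 0 else none) :
      L.St × Option ℕ)) := Measurable.of_discrete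
  exact h2.comp ((L.init_measurable.prodMk L.stopFirst_measurable).comp
    (measurable_fst.comp measurable_snd))

theorem measurable_output (L : RLearner d T M) :
    Measurable (fun p : StreamLearn.E d × (L.Ω × (Fin T → StreamLearn.E d)) =>
      L.output p.2.1 p.1 p.2.2) := by
  have h1 : Measurable (fun q : L.Ω × (L.St × Option ℕ) => L.out (q.2.2.getD T) q.1 q.2.1) :=
    measurable_from_prod_countable_left (fun st => L.out_measurable (st.2.getD T) st.1)
  exact h1.comp ((measurable_fst.comp measurable_snd).prodMk (measurable_run L))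

/-- the success event is measurable. -/
theorem measurableSet_success (L : RLearner d T M) (ε : ℝ) :
    MeasurableSet {p : Sphere d × (L.Ω × (Fin T → StreamLearn.E d)) |
      Real.arccos (inner ℝ (L.output p.2.1 p.1 p.2.2) (p.1 : StreamLearn.E d)) ≤ ε} := by
  apply measurableSet_le _ measurable_const
  apply Real.continuous_arccos.measurable.comp
  have h1 : Measurable (fun p : Sphere d × (L.Ω × (Fin T → StreamLearn.E d)) =>
      ((p.1 : StreamLearn.E d), p.2)) :=
    (measurable_subtype_coe.comp measurable_fst).prodMk measurable_snd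
  have hc : Continuous (fun q : StreamLearn.E d × StreamLearn.E d => (inner ℝ q.1 q.2 : ℝ)) := by
    fun_prop
  exact hc.measurable.comp (((measurable_output L).comp h1).prodMk
    (measurable_subtype_coe.comp measurable_fst))

/-! ### the reflection argument -/

/-- the run only depends on the measurements. -/
theorem run_congr (L : RLearner d T M) (ω : L.Ω) (s s' : StreamLearn.E d)
    (xs : Fin T → StreamLearn.E d) (h : ∀ t, (inner ℝ (xs t) s : ℝ) = inner ℝ (xs t) s') :
    L.run ω s xs = L.run ω s' xs := by
  rw [run_eq, run_eq]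
  have : stepR L ω s xs = stepR L ω s' xs := by
    funext st t
    unfold stepR
    rw [h t]
  rw [this]

theorem output_congr (L : RLearner d T M) (ω : L.Ω) (s s' : StreamLearn.E d)
    (xs : Fin T → StreamLearn.E d) (h : ∀ t, (inner ℝ (xs t) s : ℝ) = inner ℝ (xs t) s') :
    L.output ω s xs = L.output ω s' xs := by
  unfold RLearner.output
  rw [run_congr L ω s s' xs h]

theorem cos_of_arccos_le {x ε : ℝ} (hx : |x| ≤ 1) (hε : ε ≤ 1 / 10)
    (h : Real.arccos x ≤ ε) : 199 / 200 ≤ x := by
  have h0 := Real.arccos_nonneg x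
  have h1 : Real.cos (Real.arccos x) = x := Real.cos_arccos (abs_le.1 hx).1 (abs_le.1 hx).2
  have h2 := Real.one_sub_sq_div_two_le_cos (x := Real.arccos x)
  rw [h1] at h2
  nlinarith

theorem small_T_section (hd : 1 ≤ d) (hT : 8 * T ≤ d) (ε : ℝ) (hε1 : ε ≤ 1 / 10)
    (L : RLearner d T M) (ω : L.Ω) (xs : Fin T → StreamLearn.E d) :
    sphereUniform d {s : Sphere d | Real.arccos (inner ℝ (L.output ω s xs)
      (s : StreamLearn.E d)) ≤ ε} ≤ ENNReal.ofReal (3 / 5) := by
  have hprob := isProbabilityMeasure_sphereUniform hd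
  set A : Set (Sphere d) := {s : Sphere d | Real.arccos (inner ℝ (L.output ω s xs)
      (s : StreamLearn.E d)) ≤ ε} with hA
  have hAm : MeasurableSet A := by
    have h1 := measurableSet_success L ε
    have h2 : Measurable (fun s : Sphere d => (s, (ω, xs))) := measurable_prodMk_right
    exact h2 h1
  set K : Submodule ℝ (StreamLearn.E d) := Submodule.span ℝ (Set.range xs) with hK
  have hKr : Module.finrank ℝ K ≤ T := by
    have := finrank_range_le_card (R := ℝ) xs
    simpa [hK, Set.finrank] using this
  have hxs : ∀ t, xs t ∈ K := fun t => Submodule.subset_span ⟨t, rfl⟩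
  set R := K.reflection with hR
  have hinner : ∀ (t : Fin T) (s : StreamLearn.E d), (inner ℝ (xs t) (R s) : ℝ) = inner ℝ (xs t) s := by
    intro t s
    have h1 : R (xs t) = xs t := Submodule.reflection_mem_subspace_eq_self (hxs t)
    conv_lhs => rw [← h1]
    exact R.inner_map_map _ _
  have hunit : ∀ s : Sphere d, ‖(s : StreamLearn.E d)‖ = 1 := fun s => by simp
  -- both in `A`
  have hboth : A ∩ (sphMap R ⁻¹' A) ⊆ {s : Sphere d | 99 / 100 ≤
      ‖K.starProjection (s : StreamLearn.E d)‖ ^ 2} := by
    rintro s ⟨h1, h2⟩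
    simp only [hA, Set.mem_preimage] at h1 h2
    change Real.arccos (inner ℝ (L.output ω s xs) (s : StreamLearn.E d)) ≤ ε at h1
    change Real.arccos (inner ℝ (L.output ω (R s) xs) (R (s : StreamLearn.E d))) ≤ ε at h2
    rw [output_congr L ω (R s) s xs (fun t => hinner t s)] at h2
    set o := L.output ω s xs with ho
    have hou : ‖o‖ = 1 := L.out_unit _ _ _
    have g1 : 199 / 200 ≤ (inner ℝ o (s : StreamLearn.E d) : ℝ) := by
      apply cos_of_arccos_le _ hε1 h1
      have := abs_real_inner_le_norm o (s : StreamLearn.E d)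
      rwa [hou, hunit s, mul_one] at this
    have g2 : 199 / 200 ≤ (inner ℝ o (R (s : StreamLearn.E d)) : ℝ) := by
      apply cos_of_arccos_le _ hε1 h2
      have := abs_real_inner_le_norm o (R (s : StreamLearn.E d))
      rwa [hou, R.norm_map, hunit s, mul_one] at this
    have g3 : (s : StreamLearn.E d) + R s = (2 : ℝ) • K.starProjection (s : StreamLearn.E d) := by
      rw [hR, Submodule.reflection_apply, two_smul, two_smul]
      abel
    have g4 : 199 / 200 ≤ (inner ℝ o (K.starProjection (s : StreamLearn.E d)) : ℝ) := by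
      have : (inner ℝ o ((s : StreamLearn.E d) + R s) : ℝ) =
          2 * inner ℝ o (K.starProjection (s : StreamLearn.E d)) := by
        rw [g3, inner_smul_right]
      rw [inner_add_right] at this
      linarith
    have g5 := real_inner_le_norm o (K.starProjection (s : StreamLearn.E d))
    rw [hou, one_mul] at g5
    change 99 / 100 ≤ ‖K.starProjection (s : StreamLearn.E d)‖ ^ 2
    nlinarith [norm_nonneg (K.starProjection (s : StreamLearn.E d))]
  -- measure of the bad event
  have hbad : (sphereUniform d).real {s : Sphere d | 99 / 100 ≤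
      ‖K.starProjection (s : StreamLearn.E d)‖ ^ 2} ≤ 1 / 7 := by
    have hint : Integrable (fun s : Sphere d => ‖K.starProjection (s : StreamLearn.E d)‖ ^ 2)
        (sphereUniform d) := by
      refine Integrable.of_bound ?_ 1 ?_
      · apply Continuous.aestronglyMeasurable
        fun_prop
      · apply Filter.Eventually.of_forall
        intro s
        rw [Real.norm_eq_abs, abs_pow, abs_norm]
        have : ‖K.starProjection (s : StreamLearn.E d)‖ ≤ 1 := by
          rw [← hunit s]
          exact K.norm_starProjection_apply_le s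
        exact pow_le_one₀ (norm_nonneg _) this
    have h1 := mul_meas_ge_le_integral_of_nonneg (μ := sphereUniform d)
      (f := fun s : Sphere d => ‖K.starProjection (s : StreamLearn.E d)‖ ^ 2)
      (Filter.Eventually.of_forall (fun s => sq_nonneg _)) hint (99 / 100)
    rw [integral_proj_sq hd K] at h1
    have h2 : (Module.finrank ℝ K : ℝ) / d ≤ 1 / 8 := by
      rw [div_le_div_iff₀ (by exact_mod_cast hd) (by norm_num)]
      have : 8 * Module.finrank ℝ K ≤ d := by omega
      have : (8 : ℝ) * (Module.finrank ℝ K : ℝ) ≤ d := by exact_mod_cast this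
      linarith
    linarith
  have hinv : (sphereUniform d).real (sphMap R ⁻¹' A) = (sphereUniform d).real A := by
    have h1 := congrArg (fun m : Measure (Sphere d) => m A) (sphereUniform_map R)
    rw [Measure.map_apply (continuous_sphMap R).measurable hAm] at h1
    rw [Measure.real, Measure.real, h1]
  have hun : (sphereUniform d).real (A ∪ sphMap R ⁻¹' A) +
      (sphereUniform d).real (A ∩ sphMap R ⁻¹' A) =
      (sphereUniform d).real A + (sphereUniform d).real (sphMap R ⁻¹' A) :=
    measureReal_union_add_inter ((continuous_sphMap R).measurable hAm)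
  have hle1 : (sphereUniform d).real (A ∪ sphMap R ⁻¹' A) ≤ 1 := measureReal_le_one
  have hle2 : (sphereUniform d).real (A ∩ sphMap R ⁻¹' A) ≤ 1 / 7 :=
    (measureReal_mono hboth).trans hbad
  have hfin : (sphereUniform d).real A ≤ 3 / 5 := by
    rw [hinv] at hun
    linarith
  rw [← ofReal_measureReal]
  exact ENNReal.ofReal_le_ofReal hfin

/-- (5) SMALL T. -/
theorem small_T (hd : 1 ≤ d) (hT : 8 * T ≤ d) (ε : ℝ) (hε : 0 < ε) (hε1 : ε ≤ 1 / 10)
    (L : Crest.StreamLearn.RLearner d T M) : L.successProb ε < 2 / 3 := by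
  have hprob := isProbabilityMeasure_sphereUniform hd
  have hρ : IsProbabilityMeasure L.ρ := L.prob
  have hle : (sphereUniform d).prod (L.ρ.prod
      (Measure.pi fun _ : Fin T => ProbabilityTheory.stdGaussian (StreamLearn.E d)))
      {p : Sphere d × (L.Ω × (Fin T → StreamLearn.E d)) |
      Real.arccos (inner ℝ (L.output p.2.1 p.1 p.2.2) (p.1 : StreamLearn.E d)) ≤ ε} ≤
      ENNReal.ofReal (3 / 5) := by
    rw [Measure.prod_apply_symm (measurableSet_success L ε)]
    calc _ ≤ ∫⁻ _ : L.Ω × (Fin T → StreamLearn.E d), ENNReal.ofReal (3 / 5) ∂(L.ρ.prod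
          (Measure.pi fun _ : Fin T => ProbabilityTheory.stdGaussian (StreamLearn.E d))) := by
          apply lintegral_mono
          rintro ⟨ω, xs⟩
          exact small_T_section hd hT ε hε1 L ω xs
      _ = ENNReal.ofReal (3 / 5) := by
          rw [lintegral_const, measure_univ, mul_one]
  have h2 : L.successProb ε ≤ 3 / 5 := by
    unfold RLearner.successProb
    exact ENNReal.toReal_le_of_le_ofReal (by norm_num) hle
  linarith

end Run

end

end Crest.Agent.SL68
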